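import Crest.Agent.R211.Defs

/-!
Row 211, task T1A: areas (`μHE[2]`) of planar polygons sitting in a plane `u^⊥` of `ℝ³`.
-/

open MeasureTheory

namespace Crest.Agent.R211


/-- T1a. A linear isometry of the plane onto `u^⊥`. -/
theorem exists_planeIso (u : E3) (hu : ‖u‖ = 1) :
    ∃ U : E2 →ₗᵢ[ℝ] E3, Set.range U = {x : E3 | inner ℝ x u = 0} := by
  have hu0 : u ≠ 0 := by
    intro h; rw [h, norm_zero] at hu; exact zero_ne_one hu
  have : Fact (Module.finrank ℝ E3 = 2 + 1) := ⟨by simp⟩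
  have hfr : Module.finrank ℝ (ℝ ∙ u)ᗮ = 2 := Submodule.finrank_orthogonal_span_singleton hu0
  let b : OrthonormalBasis (Fin 2) ℝ (ℝ ∙ u)ᗮ :=
    (stdOrthonormalBasis ℝ (ℝ ∙ u)ᗮ).reindex (finCongr hfr)
  refine ⟨((ℝ ∙ u)ᗮ).subtypeₗᵢ.comp b.repr.symm.toLinearIsometry, ?_⟩
  ext x
  simp only [Set.mem_range, Set.mem_ofPred_eq, LinearIsometry.coe_comp, Function.comp_apply]
  constructor
  · rintro ⟨y, rfl⟩
    have := (b.repr.symm y).2
    rw [Submodule.mem_orthogonal_singleton_iff_inner_left] at this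
    exact this
  · intro hx
    have hx' : x ∈ (ℝ ∙ u)ᗮ := by
      rw [Submodule.mem_orthogonal_singleton_iff_inner_left]; exact hx
    refine ⟨b.repr ⟨x, hx'⟩, ?_⟩
    simp

/-- T1b. Transfer of area. -/
theorem area_image_planeIso (U : E2 →ₗᵢ[ℝ] E3) (S : Set E2) :
    μHE[2] (U '' S) = volume S := by
  rw [U.isometry.euclideanHausdorffMeasure_image S, EuclideanSpace.euclideanHausdorffMeasure_eq_volume 2]

theorem T1A_mp_E2 : MeasurePreserving (fun x : E2 => (x 0, x 1)) volume volume :=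
  (volume_preserving_finTwoArrow ℝ).comp (PiLp.volume_preserving_ofLp (Fin 2))

/-- standard triangle -/
def T1A_T0 : Set E2 := {x | 0 ≤ x 0 ∧ 0 ≤ x 1 ∧ x 0 + x 1 ≤ 1}
/-- standard square -/
def T1A_Q0 : Set E2 := {x | x 0 ∈ Set.Icc (0:ℝ) 1 ∧ x 1 ∈ Set.Icc (0:ℝ) 1}

theorem T1A_volume_Q0 : volume T1A_Q0 = 1 := by
  have h : T1A_Q0 = (fun x : E2 => (x 0, x 1)) ⁻¹' (Set.Icc (0:ℝ) 1 ×ˢ Set.Icc (0:ℝ) 1) := by
    ext x; simp [T1A_Q0]; tauto
  rw [h, T1A_mp_E2.measure_preimage (measurableSet_Icc.prod measurableSet_Icc).nullMeasurableSet,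
    Measure.volume_eq_prod, Measure.prod_prod]
  simp

theorem T1A_volume_T0 : volume T1A_T0 = ENNReal.ofReal (1 / 2) := by
  have h : T1A_T0 = (fun x : E2 => (x 0, x 1)) ⁻¹' {p : ℝ × ℝ | 0 ≤ p.1 ∧ 0 ≤ p.2 ∧ p.1 + p.2 ≤ 1} := by
    ext x; simp [T1A_T0]
  have hm : MeasurableSet {p : ℝ × ℝ | 0 ≤ p.1 ∧ 0 ≤ p.2 ∧ p.1 + p.2 ≤ 1} := by
    apply MeasurableSet.inter
    · exact measurableSet_le measurable_const measurable_fst
    apply MeasurableSet.inter
    · exact measurableSet_le measurable_const measurable_snd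
    · exact measurableSet_le (measurable_fst.add measurable_snd) measurable_const
  rw [h, T1A_mp_E2.measure_preimage hm.nullMeasurableSet, Measure.volume_eq_prod, Measure.prod_apply hm]
  have h2 : ∀ x : ℝ, volume (Prod.mk x ⁻¹' {p : ℝ × ℝ | 0 ≤ p.1 ∧ 0 ≤ p.2 ∧ p.1 + p.2 ≤ 1})
      = (Set.Icc (0:ℝ) 1).indicator (fun x => ENNReal.ofReal (1 - x)) x := by
    intro x
    by_cases hx : x ∈ Set.Icc (0:ℝ) 1
    · rw [Set.indicator_of_mem hx]
      have : Prod.mk x ⁻¹' {p : ℝ × ℝ | 0 ≤ p.1 ∧ 0 ≤ p.2 ∧ p.1 + p.2 ≤ 1} = Set.Icc 0 (1 - x) := by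
        ext y
        simp only [Set.mem_preimage, Set.mem_ofPred_eq, Set.mem_Icc]
        constructor
        · rintro ⟨_, h1, h2⟩; exact ⟨h1, by linarith⟩
        · rintro ⟨h1, h2⟩; exact ⟨hx.1, h1, by linarith⟩
      rw [this, Real.volume_Icc]; simp
    · rw [Set.indicator_of_notMem hx]
      by_cases hx0 : 0 ≤ x
      · have hx1 : 1 < x := by
          by_contra hh; exact hx ⟨hx0, not_lt.mp hh⟩
        have : Prod.mk x ⁻¹' {p : ℝ × ℝ | 0 ≤ p.1 ∧ 0 ≤ p.2 ∧ p.1 + p.2 ≤ 1} = ∅ := by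
          ext y
          simp only [Set.mem_preimage, Set.mem_ofPred_eq, Set.mem_empty_iff_false, iff_false]
          rintro ⟨_, h1, h2⟩; linarith
        rw [this]; simp
      · have : Prod.mk x ⁻¹' {p : ℝ × ℝ | 0 ≤ p.1 ∧ 0 ≤ p.2 ∧ p.1 + p.2 ≤ 1} = ∅ := by
          ext y
          simp only [Set.mem_preimage, Set.mem_ofPred_eq, Set.mem_empty_iff_false, iff_false]
          rintro ⟨h0, h1, h2⟩; exact hx0 h0
        rw [this]; simp
  simp_rw [h2]
  rw [lintegral_indicator measurableSet_Icc]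
  rw [← ofReal_integral_eq_lintegral_ofReal]
  · congr 1
    rw [integral_Icc_eq_integral_Ioc, ← intervalIntegral.integral_of_le zero_le_one]
    rw [intervalIntegral.integral_sub (by simp) (by simp)]
    simp
    norm_num
  · exact (continuous_const.sub continuous_id).integrableOn_Icc
  · rw [Filter.EventuallyLE, ae_restrict_iff' measurableSet_Icc]
    exact Filter.Eventually.of_forall (fun x hx => by simpa using hx.2)

theorem T1A_mem_hull3 {V : Type*} [AddCommGroup V] [Module ℝ V] (A B C x : V) :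
    x ∈ convexHull ℝ {A, B, C} ↔
      ∃ s t : ℝ, 0 ≤ s ∧ 0 ≤ t ∧ s + t ≤ 1 ∧ x = A + s • (B - A) + t • (C - A) := by
  constructor
  · intro hx
    have hconv : Convex ℝ {x : V | ∃ s t : ℝ, 0 ≤ s ∧ 0 ≤ t ∧ s + t ≤ 1 ∧
        x = A + s • (B - A) + t • (C - A)} := by
      rintro x ⟨s1, t1, hs1, ht1, hst1, rfl⟩ y ⟨s2, t2, hs2, ht2, hst2, rfl⟩ a b ha hb hab
      refine ⟨a * s1 + b * s2, a * t1 + b * t2, by positivity, by positivity, ?_, ?_⟩
      · nlinarith
      · obtain rfl : b = 1 - a := by linarith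
        module
    refine convexHull_min ?_ hconv hx
    rintro y (rfl | rfl | rfl)
    · exact ⟨0, 0, le_refl _, le_refl _, by norm_num, by simp⟩
    · exact ⟨1, 0, by norm_num, le_refl _, by norm_num, by simp⟩
    · exact ⟨0, 1, le_refl _, by norm_num, by norm_num, by simp⟩
  · rintro ⟨s, t, hs, ht, hst, rfl⟩
    have := (convex_convexHull ℝ ({A, B, C} : Set V)).sum_mem (t := Finset.univ)
      (w := ![1 - s - t, s, t]) (z := ![A, B, C]) ?_ ?_ ?_
    · simp only [Fin.sum_univ_three, Matrix.cons_val_zero, Matrix.cons_val_one, Matrix.cons_val] at this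
      convert this using 1
      module
    · intro i _
      fin_cases i <;> simp <;> linarith
    · simp [Fin.sum_univ_three]; ring
    · intro i _
      apply subset_convexHull
      fin_cases i <;> simp

/-- the linear map with columns `a`, `b`. -/
noncomputable def T1A_Lab (a b : E2) : E2 →ₗ[ℝ] E2 where
  toFun x := x 0 • a + x 1 • b
  map_add' x y := by simp only [PiLp.add_apply]; module
  map_smul' c x := by simp only [PiLp.smul_apply, smul_eq_mul, RingHom.id_apply]; module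

theorem T1A_det_Lab (a b : E2) : LinearMap.det (T1A_Lab a b) = det2 a b := by
  rw [← LinearMap.det_toMatrix (EuclideanSpace.basisFun (Fin 2) ℝ).toBasis, Matrix.det_fin_two]
  simp [LinearMap.toMatrix_apply, T1A_Lab, det2]
  ring

theorem T1A_volume_affine_image (c a b : E2) (S : Set E2) :
    volume ((fun x => c + T1A_Lab a b x) '' S) = ENNReal.ofReal |det2 a b| * volume S := by
  have : (fun x => c + T1A_Lab a b x) '' S = (fun y => c + y) '' (T1A_Lab a b '' S) := by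
    rw [Set.image_image]
  rw [this, Set.image_add_left, measure_preimage_add, Measure.addHaar_image_linearMap, T1A_det_Lab]

/-- T1c. Planar triangle. -/
theorem volume_triangle (A B C : E2) :
    volume (convexHull ℝ {A, B, C}) = ENNReal.ofReal (|det2 (B - A) (C - A)| / 2) := by
  have : convexHull ℝ {A, B, C} = (fun x => A + T1A_Lab (B - A) (C - A) x) '' T1A_T0 := by
    ext x
    rw [T1A_mem_hull3]
    constructor
    · rintro ⟨s, t, hs, ht, hst, rfl⟩
      exact ⟨!₂[s, t], ⟨by simpa using hs, by simpa using ht, by simpa using hst⟩, by simp [T1A_Lab, add_assoc]⟩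
    · rintro ⟨y, ⟨h0, h1, h2⟩, rfl⟩
      exact ⟨y 0, y 1, h0, h1, h2, by simp [T1A_Lab, add_assoc]⟩
  rw [this, T1A_volume_affine_image, T1A_volume_T0, ← ENNReal.ofReal_mul (abs_nonneg _)]
  congr 1
  ring

/-- T1d. Planar parallelogram. -/
theorem volume_pgram2 (c a b : E2) :
    volume {x : E2 | ∃ s ∈ Set.Icc (0 : ℝ) 1, ∃ t ∈ Set.Icc (0 : ℝ) 1, x = c + s • a + t • b} =
      ENNReal.ofReal |det2 a b| := by
  have : {x : E2 | ∃ s ∈ Set.Icc (0 : ℝ) 1, ∃ t ∈ Set.Icc (0 : ℝ) 1, x = c + s • a + t • b}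
      = (fun x => c + T1A_Lab a b x) '' T1A_Q0 := by
    ext x
    constructor
    · rintro ⟨s, hs, t, ht, rfl⟩
      exact ⟨!₂[s, t], ⟨by simpa using hs, by simpa using ht⟩, by simp [T1A_Lab, add_assoc]⟩
    · rintro ⟨y, ⟨h0, h1⟩, rfl⟩
      exact ⟨y 0, h0, y 1, h1, by simp [T1A_Lab, add_assoc]⟩
  rw [this, T1A_volume_affine_image, T1A_volume_Q0, mul_one]

theorem T1A_gram_proj_aux (a0 a1 a2 b0 b1 b2 u0 u1 u2 : ℝ) (hu2 : u0 ^ 2 + u1 ^ 2 + u2 ^ 2 = 1) :
  ((a0 - (u0 * a0 + u1 * a1 + u2 * a2) * u0) ^ 2 +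
            (a1 - (u0 * a0 + u1 * a1 + u2 * a2) * u1) ^ 2 +
          (a2 - (u0 * a0 + u1 * a1 + u2 * a2) * u2) ^ 2) *
        ((b0 - (u0 * b0 + u1 * b1 + u2 * b2) * u0) ^ 2 +
            (b1 - (u0 * b0 + u1 * b1 + u2 * b2) * u1) ^ 2 +
          (b2 - (u0 * b0 + u1 * b1 + u2 * b2) * u2) ^ 2) -
      ((b0 - (u0 * b0 + u1 * b1 + u2 * b2) * u0) *
              (a0 - (u0 * a0 + u1 * a1 + u2 * a2) * u0) +
            (b1 - (u0 * b0 + u1 * b1 + u2 * b2) * u1) *
              (a1 - (u0 * a0 + u1 * a1 + u2 * a2) * u1) +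
          (b2 - (u0 * b0 + u1 * b1 + u2 * b2) * u2) *
            (a2 - (u0 * a0 + u1 * a1 + u2 * a2) * u2)) ^
        2 =
    (a0 * (b1 * u2 - b2 * u1) - a1 * (b0 * u2 - b2 * u0) +
        a2 * (b0 * u1 - b1 * u0)) ^
      2 := by
  set α := u0 * a0 + u1 * a1 + u2 * a2 with hα
  set β := u0 * b0 + u1 * b1 + u2 * b2 with hβ
  have h1 : (a0 - α * u0) ^ 2 + (a1 - α * u1) ^ 2 + (a2 - α * u2) ^ 2
      = a0 ^ 2 + a1 ^ 2 + a2 ^ 2 - α ^ 2 := by
    have : a0 * u0 + a1 * u1 + a2 * u2 = α := by rw [hα]; ring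
    linear_combination (α ^ 2) * hu2 - 2 * α * this
  have h2 : (b0 - β * u0) ^ 2 + (b1 - β * u1) ^ 2 + (b2 - β * u2) ^ 2
      = b0 ^ 2 + b1 ^ 2 + b2 ^ 2 - β ^ 2 := by
    have : b0 * u0 + b1 * u1 + b2 * u2 = β := by rw [hβ]; ring
    linear_combination (β ^ 2) * hu2 - 2 * β * this
  have h3 : (b0 - β * u0) * (a0 - α * u0) + (b1 - β * u1) * (a1 - α * u1)
      + (b2 - β * u2) * (a2 - α * u2) = a0 * b0 + a1 * b1 + a2 * b2 - α * β := by
    have h : a0 * u0 + a1 * u1 + a2 * u2 = α := by rw [hα]; ring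
    have h' : b0 * u0 + b1 * u1 + b2 * u2 = β := by rw [hβ]; ring
    linear_combination (α * β) * hu2 - β * h - α * h'
  rw [h1, h2, h3, hα, hβ]
  linear_combination (-((a0 ^ 2 + a1 ^ 2 + a2 ^ 2) * (b0 ^ 2 + b1 ^ 2 + b2 ^ 2) - (a0 * b0 + a1 * b1 + a2 * b2) ^ 2)) * hu2

/-- T1g. Gram determinant of projected vectors = squared triple product. -/
theorem gram_proj (u a b : E3) (hu : ‖u‖ = 1) :
    gram (proj u a) (proj u b) = (det3 a b u) ^ 2 := by
  have hu2 : u 0 ^ 2 + u 1 ^ 2 + u 2 ^ 2 = 1 := by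
    have := EuclideanSpace.real_norm_sq_eq u
    rw [hu] at this
    simp [Fin.sum_univ_three] at this
    linarith
  unfold gram proj det3
  simp only [EuclideanSpace.real_norm_sq_eq, PiLp.inner_apply, Fin.sum_univ_three, PiLp.sub_apply, PiLp.smul_apply,
    RCLike.inner_apply, conj_trivial, smul_eq_mul]
  exact T1A_gram_proj_aux _ _ _ _ _ _ _ _ _ hu2

/-- T1h. `μH[2]` is a positive finite multiple of `μHE[2]`. -/
theorem exists_muH_factor :
    ∃ κ : ℝ, 0 < κ ∧ ∀ S : Set E3, μH[(2 : ℝ)] S = ENNReal.ofReal κ * μHE[2] S := by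
  set c := Measure.addHaarScalarFactor (volume : Measure (EuclideanSpace ℝ (Fin 2))) μH[(2:ℕ)] with hc
  have hc0 : c ≠ 0 := Measure.addHaarScalarFactor_volume_hausdorffMeasure_ne_zero 2
  refine ⟨(c⁻¹ : NNReal), by positivity, fun S => ?_⟩
  rw [Measure.euclideanHausdorffMeasure_def, Measure.smul_apply, ← hc, ENNReal.ofReal_coe_nnreal,
    ENNReal.smul_def, smul_eq_mul, ← mul_assoc, ← ENNReal.coe_mul, inv_mul_cancel₀ hc0]
  simp

theorem T1A_gram_planeIso (U : E2 →ₗᵢ[ℝ] E3) (a b : E2) : gram (U a) (U b) = det2 a b ^ 2 := by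
  unfold gram det2
  rw [U.norm_map, U.norm_map, U.inner_map_map]
  simp only [EuclideanSpace.real_norm_sq_eq, PiLp.inner_apply, Fin.sum_univ_two,
    RCLike.inner_apply, conj_trivial]
  ring

theorem T1A_sqrt_gram_planeIso (U : E2 →ₗᵢ[ℝ] E3) (a b : E2) :
    Real.sqrt (gram (U a) (U b)) = |det2 a b| := by
  rw [T1A_gram_planeIso, Real.sqrt_sq_eq_abs]

theorem T1A_image_hull (U : E2 →ₗᵢ[ℝ] E3) (S : Set E2) :
    convexHull ℝ (U '' S) = U '' convexHull ℝ S :=
  (U.toLinearMap.image_convexHull S).symm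

/-- T1e. Area of a triangle in the plane `u^⊥`. -/
theorem area_triangle (u p q r : E3) (hu : ‖u‖ = 1) (hp : inner ℝ p u = 0)
    (hq : inner ℝ q u = 0) (hr : inner ℝ r u = 0) :
    μHE[2] (convexHull ℝ {p, q, r}) = ENNReal.ofReal (Real.sqrt (gram (q - p) (r - p)) / 2) := by
  obtain ⟨U, hU⟩ := exists_planeIso u hu
  obtain ⟨p, rfl⟩ : p ∈ Set.range U := by rw [hU]; exact hp
  obtain ⟨q, rfl⟩ : q ∈ Set.range U := by rw [hU]; exact hq
  obtain ⟨r, rfl⟩ : r ∈ Set.range U := by rw [hU]; exact hr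
  have : ({U p, U q, U r} : Set E3) = U '' {p, q, r} := by
    simp [Set.image_insert_eq]
  rw [this, T1A_image_hull, area_image_planeIso, volume_triangle, ← map_sub, ← map_sub,
    T1A_sqrt_gram_planeIso]

/-- T1f. Area of a parallelogram in the plane `u^⊥`. -/
theorem area_pgram (u c a b : E3) (hu : ‖u‖ = 1) (hc : inner ℝ c u = 0)
    (ha : inner ℝ a u = 0) (hb : inner ℝ b u = 0) :
    μHE[2] (pgram c a b) = ENNReal.ofReal (Real.sqrt (gram a b)) := by
  obtain ⟨U, hU⟩ := exists_planeIso u hu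
  obtain ⟨c, rfl⟩ : c ∈ Set.range U := by rw [hU]; exact hc
  obtain ⟨a, rfl⟩ : a ∈ Set.range U := by rw [hU]; exact ha
  obtain ⟨b, rfl⟩ : b ∈ Set.range U := by rw [hU]; exact hb
  have : pgram (U c) (U a) (U b) = U '' {x : E2 | ∃ s ∈ Set.Icc (0 : ℝ) 1, ∃ t ∈ Set.Icc (0 : ℝ) 1,
      x = c + s • a + t • b} := by
    ext x
    constructor
    · rintro ⟨s, hs, t, ht, rfl⟩
      exact ⟨c + s • a + t • b, ⟨s, hs, t, ht, rfl⟩, by simp⟩
    · rintro ⟨y, ⟨s, hs, t, ht, rfl⟩, rfl⟩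
      exact ⟨s, hs, t, ht, by simp⟩
  rw [this, area_image_planeIso, volume_pgram2, T1A_sqrt_gram_planeIso]

/-- T1i. Bounded subsets of a plane `u^⊥` have finite area. -/
theorem area_lt_top_of_bounded (u : E3) (hu : ‖u‖ = 1) (S : Set E3)
    (hS : ∀ x ∈ S, inner ℝ x u = 0) (hb : Bornology.IsBounded S) : μHE[2] S < ⊤ := by
  obtain ⟨U, hU⟩ := exists_planeIso u hu
  have : S = U '' (U ⁻¹' S) := by
    rw [Set.image_preimage_eq_inter_range, hU]
    exact (Set.inter_eq_left.mpr hS).symm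
  rw [this, area_image_planeIso]
  exact (U.antilipschitz.isBounded_preimage hb).measure_lt_top

end Crest.Agent.R211
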