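import Crest.Agent.R211.AreaA

/-!
Row 211, task T1B: shadows (orthogonal projections) of triangles and of the tetrahedron.
-/

open MeasureTheory

namespace Crest.Agent.R211

/-- `proj v` as a linear map. -/
noncomputable def T1B_projL (v : E3) : E3 →ₗ[ℝ] E3 where
  toFun := proj v
  map_add' x y := by simp only [proj, inner_add_left]; module
  map_smul' c x := by simp only [proj, inner_smul_left, RingHom.id_apply, conj_trivial]; module

@[simp] theorem T1B_projL_apply (v x : E3) : T1B_projL v x = proj v x := rfl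

theorem T1B_proj_sub (v x y : E3) : proj v x - proj v y = proj v (x - y) :=
  ((T1B_projL v).map_sub x y).symm

theorem T1B_inner_proj (v x : E3) (hv : ‖v‖ = 1) : inner ℝ (proj v x) v = 0 := by
  simp [proj, inner_sub_left, inner_smul_left, hv]

theorem T1B_proj_image_hull (v : E3) (S : Set E3) :
    proj v '' convexHull ℝ S = convexHull ℝ (proj v '' S) :=
  (T1B_projL v).image_convexHull S

/-- T1j. Shadow of a triangle: the projection of `conv {P,Q,R}` has area `|det3 (Q-P) (R-P) v| / 2`. -/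
theorem area_proj_triangle (v P Q R : E3) (hv : ‖v‖ = 1) :
    μHE[2] (proj v '' convexHull ℝ {P, Q, R}) = ENNReal.ofReal (|det3 (Q - P) (R - P) v| / 2) := by
  rw [T1B_proj_image_hull]
  have : proj v '' {P, Q, R} = {proj v P, proj v Q, proj v R} := by
    simp [Set.image_insert_eq]
  rw [this, area_triangle v _ _ _ hv (T1B_inner_proj v P hv) (T1B_inner_proj v Q hv) (T1B_inner_proj v R hv),
    T1B_proj_sub, T1B_proj_sub, gram_proj _ _ _ hv, Real.sqrt_sq_eq_abs]


theorem T1B_line_null (p d : E2) : volume ((fun x => p + T1A_Lab d 0 x) '' Set.univ) = 0 := by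
  rw [T1A_volume_affine_image]
  simp [det2]

theorem T1B_quad (p q r s : E2) :
    ENNReal.ofReal (|det2 (q - p) (s - r)| / 2) ≤ volume (convexHull ℝ {p, q, r, s}) := by
  set fr := det2 (q - p) (r - p) with hfr
  set fs := det2 (q - p) (s - p) with hfs
  have hd : det2 (q - p) (s - r) = fs - fr := by
    simp only [hfr, hfs, det2, PiLp.sub_apply]; ring
  have hTr : convexHull ℝ {p, q, r} ⊆ convexHull ℝ {p, q, r, s} := by
    apply convexHull_mono
    intro x hx
    simp only [Set.mem_insert_iff, Set.mem_singleton_iff] at hx ⊢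
    tauto
  have hTs : convexHull ℝ {p, q, s} ⊆ convexHull ℝ {p, q, r, s} := by
    apply convexHull_mono
    intro x hx
    simp only [Set.mem_insert_iff, Set.mem_singleton_iff] at hx ⊢
    tauto
  have hvr := volume_triangle p q r
  have hvs := volume_triangle p q s
  rw [← hfr] at hvr
  rw [← hfs] at hvs
  rw [hd]
  by_cases hsign : 0 ≤ fr * fs
  · have : |fs - fr| ≤ |fr| ∨ |fs - fr| ≤ |fs| := by
      rcases le_total (fr ^ 2) (fs ^ 2) with hle | hle
      · right
        rw [← sq_le_sq]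
        have : fr ^ 2 ≤ fr * fs := by
          by_contra h
          push Not at h
          nlinarith [mul_self_lt_mul_self hsign h, mul_le_mul_of_nonneg_left hle (sq_nonneg fr)]
        nlinarith
      · left
        rw [← sq_le_sq]
        have : fs ^ 2 ≤ fr * fs := by
          by_contra h
          push Not at h
          nlinarith [mul_self_lt_mul_self hsign h, mul_le_mul_of_nonneg_left hle (sq_nonneg fs)]
        nlinarith
    rcases this with h | h
    · calc ENNReal.ofReal (|fs - fr| / 2) ≤ ENNReal.ofReal (|fr| / 2) :=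
            ENNReal.ofReal_le_ofReal (by linarith)
        _ = volume (convexHull ℝ {p, q, r}) := hvr.symm
        _ ≤ _ := measure_mono hTr
    · calc ENNReal.ofReal (|fs - fr| / 2) ≤ ENNReal.ofReal (|fs| / 2) :=
            ENNReal.ofReal_le_ofReal (by linarith)
        _ = volume (convexHull ℝ {p, q, s}) := hvs.symm
        _ ≤ _ := measure_mono hTs
  · push Not at hsign
    have habs : |fs - fr| = |fr| + |fs| := by
      rcases lt_trichotomy fr 0 with h1 | h1 | h1
      · have h2 : 0 < fs := by nlinarith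
        rw [abs_of_neg h1, abs_of_pos h2, abs_of_pos (by linarith)]; ring
      · rw [h1] at hsign; simp at hsign
      · have h2 : fs < 0 := by nlinarith
        rw [abs_of_pos h1, abs_of_neg h2, abs_of_neg (by linarith)]; ring
    have hfr0 : fr ≠ 0 := by
      rintro h; rw [h] at hsign; simp at hsign
    have hdisj : AEDisjoint volume (convexHull ℝ {p, q, r}) (convexHull ℝ {p, q, s}) := by
      apply measure_mono_null _ (T1B_line_null p (q - p))
      rintro x ⟨hx1, hx2⟩
      rw [T1A_mem_hull3] at hx1 hx2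
      obtain ⟨a, b, ha, hb, hab, hx⟩ := hx1
      obtain ⟨a', b', ha', hb', hab', hx'⟩ := hx2
      have e1 : det2 (q - p) (x - p) = b * fr := by
        rw [hx]; simp only [hfr, det2, PiLp.sub_apply, PiLp.add_apply, PiLp.smul_apply, smul_eq_mul]; ring
      have e2 : det2 (q - p) (x - p) = b' * fs := by
        rw [hx']; simp only [hfs, det2, PiLp.sub_apply, PiLp.add_apply, PiLp.smul_apply, smul_eq_mul]; ring
      have hb0 : b = 0 := by
        have h1 : (b * fr) ^ 2 = (b * b') * (fr * fs) := by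
          have : b * fr = b' * fs := e1.symm.trans e2
          calc (b * fr) ^ 2 = (b * fr) * (b * fr) := by ring
            _ = (b * fr) * (b' * fs) := by rw [← this]
            _ = _ := by ring
        have h2 : (b * fr) ^ 2 ≤ 0 := by
          rw [h1]; exact mul_nonpos_of_nonneg_of_nonpos (by positivity) hsign.le
        have h3 : b * fr = 0 := by
          have := sq_nonneg (b * fr)
          exact pow_eq_zero_iff (two_ne_zero) |>.mp (le_antisymm h2 this)
        rcases mul_eq_zero.mp h3 with h | h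
        · exact h
        · exact absurd h hfr0
      refine ⟨!₂[a, 0], Set.mem_univ _, ?_⟩
      rw [hx, hb0]
      simp [T1A_Lab]
    have hmeas : MeasurableSet (convexHull ℝ ({p, q, s} : Set E2)) := by
      have : ({p, q, s} : Set E2).Finite := by simp
      exact (this.isCompact_convexHull (𝕜 := ℝ)).isClosed.measurableSet
    calc ENNReal.ofReal (|fs - fr| / 2) = ENNReal.ofReal (|fr| / 2) + ENNReal.ofReal (|fs| / 2) := by
          rw [habs, ← ENNReal.ofReal_add (by positivity) (by positivity)]; congr 1; ring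
      _ = volume (convexHull ℝ {p, q, r} ∪ convexHull ℝ {p, q, s}) := by
          rw [measure_union₀ hmeas.nullMeasurableSet hdisj, hvr, hvs]
      _ ≤ _ := measure_mono (Set.union_subset hTr hTs)

/-- T1k. Shadow of a tetrahedron, "quadrilateral" lower bound: `PQ` and `RS` as diagonals. -/
theorem area_proj_hull4_ge (v P Q R S : E3) (hv : ‖v‖ = 1) :
    ENNReal.ofReal (|det3 (Q - P) (S - R) v| / 2) ≤ μHE[2] (proj v '' convexHull ℝ {P, Q, R, S}) := by
  obtain ⟨U, hU⟩ := exists_planeIso v hv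
  obtain ⟨p, hp⟩ : proj v P ∈ Set.range U := by rw [hU]; exact T1B_inner_proj v P hv
  obtain ⟨q, hq⟩ : proj v Q ∈ Set.range U := by rw [hU]; exact T1B_inner_proj v Q hv
  obtain ⟨r, hr⟩ : proj v R ∈ Set.range U := by rw [hU]; exact T1B_inner_proj v R hv
  obtain ⟨s, hs⟩ : proj v S ∈ Set.range U := by rw [hU]; exact T1B_inner_proj v S hv
  have h1 : proj v '' {P, Q, R, S} = U '' {p, q, r, s} := by
    simp [Set.image_insert_eq, hp, hq, hr, hs]
  have h2 : |det3 (Q - P) (S - R) v| = |det2 (q - p) (s - r)| := by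
    rw [← Real.sqrt_sq_eq_abs, ← gram_proj _ _ _ hv, ← T1B_proj_sub, ← T1B_proj_sub, ← hp, ← hq,
      ← hr, ← hs, ← map_sub, ← map_sub, T1A_sqrt_gram_planeIso]
  rw [T1B_proj_image_hull, h1, T1A_image_hull, area_image_planeIso, h2]
  exact T1B_quad p q r s

theorem T1B_proj_K0 (v : E3) : proj v '' K0 = convexHull ℝ {proj v !₂[1, 0, 0], proj v !₂[-1, 0, 0],
    proj v !₂[0, 1, Real.sqrt 2], proj v !₂[0, -1, Real.sqrt 2]} := by
  unfold K0
  rw [T1B_proj_image_hull]
  simp [Set.image_insert_eq]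

/-- T1n. Shadows of `K0` have finite area. -/
theorem area_proj_K0_lt_top (v : E3) (hv : ‖v‖ = 1) : μHE[2] (proj v '' K0) < ⊤ := by
  apply area_lt_top_of_bounded v hv
  · rintro x ⟨y, _, rfl⟩
    exact T1B_inner_proj v y hv
  · rw [T1B_proj_K0]
    have : ({proj v !₂[1, 0, 0], proj v !₂[-1, 0, 0],
      proj v !₂[0, 1, Real.sqrt 2], proj v !₂[0, -1, Real.sqrt 2]} : Set E3).Finite := by simp
    exact (this.isCompact_convexHull (𝕜 := ℝ)).isBounded

/-- T1m. The shadow along the edge direction has area exactly `√2`. -/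
theorem area_proj_K0_e0 :
    μHE[2] (proj (EuclideanSpace.single 0 1) '' K0) = ENNReal.ofReal (Real.sqrt 2) := by
  have hv : ‖(EuclideanSpace.single 0 1 : E3)‖ = 1 := by simp
  have h1 : proj (EuclideanSpace.single 0 1) (!₂[1, 0, 0] : E3) = 0 := by
    ext i; fin_cases i <;> simp [proj, PiLp.inner_apply]
  have h2 : proj (EuclideanSpace.single 0 1) (!₂[-1, 0, 0] : E3) = 0 := by
    ext i; fin_cases i <;> simp [proj, PiLp.inner_apply]
  have h3 : proj (EuclideanSpace.single 0 1) (!₂[0, 1, Real.sqrt 2] : E3) = !₂[0, 1, Real.sqrt 2] := by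
    ext i; fin_cases i <;> simp [proj, PiLp.inner_apply]
  have h4 : proj (EuclideanSpace.single 0 1) (!₂[0, -1, Real.sqrt 2] : E3) = !₂[0, -1, Real.sqrt 2] := by
    ext i; fin_cases i <;> simp [proj, PiLp.inner_apply]
  rw [T1B_proj_K0, h1, h2, h3, h4, Set.insert_eq_of_mem (Set.mem_insert _ _),
    area_triangle (EuclideanSpace.single 0 1) _ _ _ hv (by simp) (by simp [PiLp.inner_apply])
      (by simp [PiLp.inner_apply])]
  congr 1
  have : gram ((!₂[0, 1, Real.sqrt 2] : E3) - 0) (!₂[0, -1, Real.sqrt 2] - 0) = 8 := by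
    simp [gram, EuclideanSpace.real_norm_sq_eq, PiLp.inner_apply, Fin.sum_univ_three]
    norm_num
  rw [this]
  have h8 : (8:ℝ) = 2 ^ 2 * 2 := by norm_num
  rw [h8, Real.sqrt_mul (by positivity), Real.sqrt_sq (by norm_num)]
  ring

theorem T1B_key (P Q R : ℝ) (h : P ^ 2 + Q ^ 2 + R ^ 2 = 2) :
    1 ≤ |P| ∨ 1 ≤ |Q| ∨ 1 ≤ |R| ∨ 2 ≤ |P - Q - R| ∨ 2 ≤ |P - Q + R| ∨ 2 ≤ |P + Q + R| ∨
      2 ≤ |P + Q - R| := by
  by_contra hcon
  push Not at hcon
  obtain ⟨h1, h2, h3, h4, h5, h6, h7⟩ := hcon
  have hP2 : P ^ 2 ≤ |P| := by have := abs_nonneg P; nlinarith [sq_abs P]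
  have hQ2 : Q ^ 2 ≤ |Q| := by have := abs_nonneg Q; nlinarith [sq_abs Q]
  have hR2 : R ^ 2 ≤ |R| := by have := abs_nonneg R; nlinarith [sq_abs R]
  rw [abs_lt] at h4 h5 h6 h7
  have hsum : |P| + |Q| + |R| < 2 := by
    cases abs_cases P <;> cases abs_cases Q <;> cases abs_cases R <;> linarith
  linarith

theorem T1B_lbquad (v A B C D : E3) (hv : ‖v‖ = 1)
    (h : ({A, B, C, D} : Set E3) ⊆ {!₂[1, 0, 0], !₂[-1, 0, 0], !₂[0, 1, Real.sqrt 2], !₂[0, -1, Real.sqrt 2]}) :
    ENNReal.ofReal (|det3 (B - A) (D - C) v| / 2) ≤ μHE[2] (proj v '' K0) :=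
  (area_proj_hull4_ge v A B C D hv).trans (measure_mono (Set.image_mono (convexHull_mono h)))

theorem T1B_lbtri (v A B C : E3) (hv : ‖v‖ = 1)
    (h : ({A, B, C} : Set E3) ⊆ {!₂[1, 0, 0], !₂[-1, 0, 0], !₂[0, 1, Real.sqrt 2], !₂[0, -1, Real.sqrt 2]}) :
    ENNReal.ofReal (|det3 (B - A) (C - A) v| / 2) ≤ μHE[2] (proj v '' K0) :=
  (area_proj_triangle v A B C hv).symm.le.trans (measure_mono (Set.image_mono (convexHull_mono h)))

/-- T1l. Every shadow of the standard tetrahedron has area at least `√2`. -/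
theorem sqrt_two_le_area_proj_K0 (v : E3) (hv : ‖v‖ = 1) :
    ENNReal.ofReal (Real.sqrt 2) ≤ μHE[2] (proj v '' K0) := by
  have hv2 : v 0 ^ 2 + v 1 ^ 2 + v 2 ^ 2 = 1 := by
    have := EuclideanSpace.real_norm_sq_eq v
    rw [hv] at this
    simp [Fin.sum_univ_three] at this
    linarith
  set w := Real.sqrt 2 with hw
  have hww : w * w = 2 := Real.mul_self_sqrt (by norm_num)
  have hw0 : 0 < w := Real.sqrt_pos.mpr (by norm_num)
  have hkey := T1B_key (v 0 + v 1) (v 0 - v 1) (w * v 2) (by nlinarith)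
  have aux1 : ∀ d t : ℝ, d = 2 * w * t → 1 ≤ |t| → w ≤ |d| / 2 := by
    intro d t hd ht
    rw [hd, abs_mul, abs_of_pos (by positivity : 0 < 2 * w)]
    nlinarith
  have aux2 : ∀ d t : ℝ, d = w * t → 2 ≤ |t| → w ≤ |d| / 2 := by
    intro d t hd ht
    rw [hd, abs_mul, abs_of_pos hw0]
    nlinarith
  rcases hkey with h | h | h | h | h | h | h
  · refine le_trans (ENNReal.ofReal_le_ofReal ?_)
      (T1B_lbquad v !₂[1, 0, 0] !₂[0, 1, w] !₂[-1, 0, 0] !₂[0, -1, w] hv ?_)
    · refine aux1 _ _ ?_ h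
      simp [det3]; ring
    · intro x hx
      simp only [Set.mem_insert_iff, Set.mem_singleton_iff] at hx ⊢
      tauto
  · refine le_trans (ENNReal.ofReal_le_ofReal ?_)
      (T1B_lbquad v !₂[-1, 0, 0] !₂[0, 1, w] !₂[1, 0, 0] !₂[0, -1, w] hv ?_)
    · refine aux1 _ _ ?_ h
      simp [det3]; ring
    · intro x hx
      simp only [Set.mem_insert_iff, Set.mem_singleton_iff] at hx ⊢
      tauto
  · refine le_trans (ENNReal.ofReal_le_ofReal ?_)
      (T1B_lbquad v !₂[1, 0, 0] !₂[-1, 0, 0] !₂[0, 1, w] !₂[0, -1, w] hv ?_)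
    · refine aux1 _ _ ?_ h
      simp [det3]
      linear_combination (-2 * v 2) * hww
    · intro x hx
      simp only [Set.mem_insert_iff, Set.mem_singleton_iff] at hx ⊢
      tauto
  · refine le_trans (ENNReal.ofReal_le_ofReal ?_)
      (T1B_lbtri v !₂[1, 0, 0] !₂[-1, 0, 0] !₂[0, 1, w] hv ?_)
    · refine aux2 _ _ ?_ h
      simp [det3]
      linear_combination (v 2) * hww
    · intro x hx
      simp only [Set.mem_insert_iff, Set.mem_singleton_iff] at hx ⊢
      tauto
  · refine le_trans (ENNReal.ofReal_le_ofReal ?_)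
      (T1B_lbtri v !₂[1, 0, 0] !₂[-1, 0, 0] !₂[0, -1, w] hv ?_)
    · refine aux2 _ _ ?_ h
      simp [det3]
      linear_combination (-v 2) * hww
    · intro x hx
      simp only [Set.mem_insert_iff, Set.mem_singleton_iff] at hx ⊢
      tauto
  · refine le_trans (ENNReal.ofReal_le_ofReal ?_)
      (T1B_lbtri v !₂[1, 0, 0] !₂[0, 1, w] !₂[0, -1, w] hv ?_)
    · refine aux2 _ _ ?_ h
      simp [det3]
      linear_combination (-v 2) * hww
    · intro x hx
      simp only [Set.mem_insert_iff, Set.mem_singleton_iff] at hx ⊢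
      tauto
  · refine le_trans (ENNReal.ofReal_le_ofReal ?_)
      (T1B_lbtri v !₂[-1, 0, 0] !₂[0, 1, w] !₂[0, -1, w] hv ?_)
    · refine aux2 _ _ ?_ h
      simp [det3]
      linear_combination (v 2) * hww
    · intro x hx
      simp only [Set.mem_insert_iff, Set.mem_singleton_iff] at hx ⊢
      tauto

end Crest.Agent.R211
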