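import Crest.Agent.R211.CoverCore

/-!
Row 211, task T2: the explicit "twisted" cover of the standard tetrahedron `K0` by oblique
triangular cylinders, with total perpendicular cross-section `< √2 / 2`.
The cost of the cylinder over the triangle `PQR` in direction `d` is the area of the shadow of
the triangle along `d`, namely `|det3 (Q-P) (R-P) d| / (2 ‖d‖)`.
-/

open MeasureTheory

namespace Crest.Agent.R211

open Tw

theorem T2B_hull3 {P Q R : E3} {α β γ : ℝ} (hα : 0 ≤ α) (hβ : 0 ≤ β) (hγ : 0 ≤ γ)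
    (h : α + β + γ = 1) : α • P + β • Q + γ • R ∈ convexHull ℝ {P, Q, R} := by
  refine mem_convexHull_of_exists_fintype (ι := Fin 3) ![α, β, γ] ![P, Q, R] ?_ ?_ ?_ ?_
  · intro i; fin_cases i <;> simpa
  · simp [Fin.sum_univ_three, h]
  · intro i; fin_cases i <;> simp
  · simp [Fin.sum_univ_three]

theorem T2B_norm (a b e : ℝ) : ‖(!₂[a, b, e] : E3)‖ = Real.sqrt (a ^ 2 + b ^ 2 + e ^ 2) := by
  rw [EuclideanSpace.norm_eq]
  simp [Fin.sum_univ_three]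

/-- backward shift of the apex -/
noncomputable def T2B_a0 : ℝ := 3 * c * hh / 4
/-- height of the far side of triangle `i` -/
noncomputable def T2B_le (i : ℕ) : ℝ := Rhat i + c * hh / 2

noncomputable def T2B_PA (i : ℕ) : E3 := !₂[0, -(T2B_a0 * tag i), -(Real.sqrt 2 * T2B_a0)]
noncomputable def T2B_QA (i : ℕ) : E3 :=
  !₂[0, tag i * T2B_le i + hh / 2 * ell i, Real.sqrt 2 * T2B_le i]
noncomputable def T2B_RA (i : ℕ) : E3 :=
  !₂[0, tag i * T2B_le i - hh / 2 * ell i, Real.sqrt 2 * T2B_le i]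
noncomputable def T2B_dA (i : ℕ) : E3 := !₂[1, w1 (tag i), Real.sqrt 2 * w2 (tag i)]

/-- the symmetry of `K0` exchanging the two distinguished edges -/
noncomputable def T2B_sig (X : E3) : E3 := !₂[-X 1, X 0, Real.sqrt 2 - X 2]
/-- its linear part -/
noncomputable def T2B_sigL (X : E3) : E3 := !₂[-X 1, X 0, -X 2]

theorem T2B_ell_eq (i : ℕ) : ell i = T2B_le i + T2B_a0 := by
  unfold ell T2B_le T2B_a0; ring

theorem T2B_ell_pos (i : ℕ) : 0 < ell i := by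
  have h1 := T2A_c_pos
  have h2 := T2A_hh_pos
  have h3 : 0 < Kc := by rw [T2A_Kc_eq]; norm_num
  have h4 : 0 ≤ c ^ 2 / 4 * (tag i ^ 2 + tag i ^ 4) := by positivity
  have h5 : 0 < c ^ 2 * hh := by positivity
  have h6 : 0 < 5 * c * hh / 4 := by positivity
  unfold ell Rhat Rr
  linarith

theorem T2B_caseA (x y ζ t ρ : ℝ) (hx : |x| ≤ 1) (ht : |t| ≤ 1) (hρ : 0 ≤ ρ) (hρR : ρ ≤ Rr t)
    (h1 : ζ = ρ + x * w2 t) (h2 : y = ρ * t + x * w1 t) :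
    ∃ i, i < NN ∧ ∃ α β γ : ℝ, 0 ≤ α ∧ 0 ≤ β ∧ 0 ≤ γ ∧ α + β + γ = 1 ∧
      (!₂[x, y, Real.sqrt 2 * ζ] : E3) =
        α • T2B_PA i + β • T2B_QA i + γ • T2B_RA i + x • T2B_dA i := by
  obtain ⟨i, hi, hti⟩ := exists_piece t ht
  have hρi : ρ ≤ Rhat i := hρR.trans (Rr_le_Rhat t ht i hi hti)
  obtain ⟨hm1, hm2⟩ := piece_mem x t ρ i hx hti hρ hρi
  have hell := T2B_ell_eq i
  have hellp := T2B_ell_pos i
  have hhp := T2A_hh_pos
  obtain ⟨T, hT⟩ : ∃ T, T = tag i := ⟨_, rfl⟩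
  obtain ⟨ζ', hζ'⟩ : ∃ ζ', ζ' = ρ + x * (w2 t - w2 T) := ⟨_, rfl⟩
  obtain ⟨y', hy'⟩ : ∃ y', y' = ρ * t + x * (w1 t - w1 T) := ⟨_, rfl⟩
  obtain ⟨L, hL⟩ : ∃ L, L = ell i := ⟨_, rfl⟩
  obtain ⟨le, hle⟩ : ∃ le, le = T2B_le i := ⟨_, rfl⟩
  rw [← hT, ← hζ'] at hm1
  rw [← hT, ← hζ', ← hy'] at hm2
  rw [← hL, ← hle] at hell
  rw [← hL] at hellp
  have hm1' : ζ' ≤ le := by rw [hle]; unfold T2B_le; exact hm1
  have hm2' : |y' - T * ζ'| ≤ hh / 2 * (ζ' + T2B_a0) := by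
    unfold T2B_a0; exact hm2
  have hE : 0 < hh / 2 * L := by positivity
  obtain ⟨lam, hlamdef⟩ : ∃ lam, lam = (ζ' + T2B_a0) / L := ⟨_, rfl⟩
  obtain ⟨nu, hnudef⟩ : ∃ nu, nu = (y' - T * ζ') / (hh / 2 * L) := ⟨_, rfl⟩
  have hlam : lam * L = ζ' + T2B_a0 := by rw [hlamdef]; field_simp
  have hnu : nu * (hh / 2 * L) = y' - T * ζ' := by rw [hnudef]; field_simp
  obtain ⟨hm3, hm4⟩ := abs_le.mp hm2'
  have hlam1 : lam ≤ 1 := by
    apply le_of_mul_le_mul_right _ hellp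
    rw [hlam, one_mul, hell]; linarith
  have hlamE : lam * (hh / 2 * L) = hh / 2 * (ζ' + T2B_a0) := by rw [← hlam]; ring
  have hnu1 : nu ≤ lam := by
    apply le_of_mul_le_mul_right _ hE
    rw [hnu, hlamE]; exact hm4
  have hnu2 : -lam ≤ nu := by
    apply le_of_mul_le_mul_right _ hE
    rw [hnu, neg_mul, hlamE]; exact hm3
  refine ⟨i, hi, 1 - lam, (lam + nu) / 2, (lam - nu) / 2, by linarith, by linarith, by linarith,
    by ring, ?_⟩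
  unfold T2B_PA T2B_QA T2B_RA T2B_dA
  rw [← hT, ← hL, ← hle]
  ext k
  fin_cases k
  · simp
  · simp
    rw [hζ'] at hlam hnu
    rw [hy'] at hnu
    linear_combination h2 - T * hlam - hnu + (lam * T) * hell
  · simp
    rw [hζ'] at hlam
    linear_combination (Real.sqrt 2) * h1 - (Real.sqrt 2) * hlam + (Real.sqrt 2 * lam) * hell

theorem T2B_sig_comb (P Q R d : E3) (α β γ τ : ℝ) (h : α + β + γ = 1) :
    T2B_sig (α • P + β • Q + γ • R + τ • d) =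
      α • T2B_sig P + β • T2B_sig Q + γ • T2B_sig R + τ • T2B_sigL d := by
  unfold T2B_sig T2B_sigL
  ext k
  fin_cases k
  · simp; ring
  · simp
  · simp
    linear_combination (Real.sqrt 2) * (-h)

theorem T2B_K0_sub (X : E3) (hX : X ∈ K0) :
    |X 0| ≤ 1 - X 2 / Real.sqrt 2 ∧ |X 1| ≤ X 2 / Real.sqrt 2 := by
  have hs : 0 < Real.sqrt 2 := Real.sqrt_pos.mpr (by norm_num)
  have hconv : Convex ℝ {X : E3 | (X 0 + X 2 / Real.sqrt 2 ≤ 1 ∧ -X 0 + X 2 / Real.sqrt 2 ≤ 1) ∧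
      (X 1 ≤ X 2 / Real.sqrt 2 ∧ -X 1 ≤ X 2 / Real.sqrt 2)} := by
    intro A hA B hB a b ha hb hab
    obtain ⟨⟨hA1, hA2⟩, hA3, hA4⟩ := hA
    obtain ⟨⟨hB1, hB2⟩, hB3, hB4⟩ := hB
    have e : ∀ k : Fin 3, (a • A + b • B) k = a * A k + b * B k := by intro k; simp
    have e2 : (a * A 2 + b * B 2) / Real.sqrt 2 = a * (A 2 / Real.sqrt 2) + b * (B 2 / Real.sqrt 2) := by
      ring
    simp only [Set.mem_ofPred_eq, e, e2]
    refine ⟨⟨?_, ?_⟩, ?_, ?_⟩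
    · nlinarith [mul_le_mul_of_nonneg_left hA1 ha, mul_le_mul_of_nonneg_left hB1 hb]
    · nlinarith [mul_le_mul_of_nonneg_left hA2 ha, mul_le_mul_of_nonneg_left hB2 hb]
    · nlinarith [mul_le_mul_of_nonneg_left hA3 ha, mul_le_mul_of_nonneg_left hB3 hb]
    · nlinarith [mul_le_mul_of_nonneg_left hA4 ha, mul_le_mul_of_nonneg_left hB4 hb]
  have hsub : K0 ⊆ {X : E3 | (X 0 + X 2 / Real.sqrt 2 ≤ 1 ∧ -X 0 + X 2 / Real.sqrt 2 ≤ 1) ∧
      (X 1 ≤ X 2 / Real.sqrt 2 ∧ -X 1 ≤ X 2 / Real.sqrt 2)} := by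
    apply convexHull_min _ hconv
    intro Y hY
    simp only [Set.mem_insert_iff, Set.mem_singleton_iff] at hY
    rcases hY with rfl | rfl | rfl | rfl <;> simp
  obtain ⟨⟨h1, h2⟩, h3, h4⟩ := hsub hX
  constructor
  · rw [abs_le]; constructor <;> linarith
  · rw [abs_le]; constructor <;> linarith

theorem T2B_costA (i : ℕ) :
    |det3 (T2B_QA i - T2B_PA i) (T2B_RA i - T2B_PA i) (T2B_dA i)| / (2 * ‖T2B_dA i‖) =
      Real.sqrt 2 * (hh * ell i ^ 2 / (2 * Real.sqrt (1 + w1 (tag i) ^ 2 + 2 * w2 (tag i) ^ 2))) := by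
  have hs : 0 ≤ Real.sqrt 2 := Real.sqrt_nonneg 2
  have hs2 : Real.sqrt 2 ^ 2 = 2 := Real.sq_sqrt (by norm_num)
  have hn : ‖T2B_dA i‖ = Real.sqrt (1 + w1 (tag i) ^ 2 + 2 * w2 (tag i) ^ 2) := by
    unfold T2B_dA
    rw [T2B_norm]
    congr 1
    rw [mul_pow, hs2]; ring
  have hd : det3 (T2B_QA i - T2B_PA i) (T2B_RA i - T2B_PA i) (T2B_dA i) =
      Real.sqrt 2 * (hh * ell i ^ 2) := by
    have hell := T2B_ell_eq i
    unfold T2B_QA T2B_RA T2B_PA T2B_dA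
    simp [det3]
    rw [hell]
    ring
  rw [hn, hd, abs_of_nonneg (mul_nonneg hs (mul_nonneg T2A_hh_pos.le (sq_nonneg _)))]
  ring

theorem T2B_costB (i : ℕ) :
    |det3 (T2B_sig (T2B_QA i) - T2B_sig (T2B_PA i)) (T2B_sig (T2B_RA i) - T2B_sig (T2B_PA i))
        (T2B_sigL (T2B_dA i))| / (2 * ‖T2B_sigL (T2B_dA i)‖) =
      Real.sqrt 2 * (hh * ell i ^ 2 / (2 * Real.sqrt (1 + w1 (tag i) ^ 2 + 2 * w2 (tag i) ^ 2))) := by
  rw [← T2B_costA i]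
  have hn : ‖T2B_sigL (T2B_dA i)‖ = ‖T2B_dA i‖ := by
    unfold T2B_sigL T2B_dA
    rw [T2B_norm, T2B_norm]
    congr 1
    simp
    ring
  have hd : det3 (T2B_sig (T2B_QA i) - T2B_sig (T2B_PA i))
      (T2B_sig (T2B_RA i) - T2B_sig (T2B_PA i)) (T2B_sigL (T2B_dA i)) =
      - det3 (T2B_QA i - T2B_PA i) (T2B_RA i - T2B_PA i) (T2B_dA i) := by
    unfold T2B_sig T2B_sigL
    simp [det3]
    ring
  rw [hn, hd, abs_neg]

noncomputable def T2B_Pf (k : ℕ) : E3 := if k < NN then T2B_PA k else T2B_sig (T2B_PA (k - NN))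
noncomputable def T2B_Qf (k : ℕ) : E3 := if k < NN then T2B_QA k else T2B_sig (T2B_QA (k - NN))
noncomputable def T2B_Rf (k : ℕ) : E3 := if k < NN then T2B_RA k else T2B_sig (T2B_RA (k - NN))
noncomputable def T2B_df (k : ℕ) : E3 := if k < NN then T2B_dA k else T2B_sigL (T2B_dA (k - NN))

theorem T2B_df_ne (k : ℕ) : T2B_df k ≠ 0 := by
  unfold T2B_df
  split_ifs with h
  · intro h0
    have := congrArg (fun v : E3 => v 0) h0
    simp [T2B_dA] at this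
  · intro h0
    have := congrArg (fun v : E3 => v 1) h0
    simp [T2B_dA, T2B_sigL] at this

/-- T2 (main output). -/
theorem exists_cover_K0 :
    ∃ (m : ℕ) (P Q R d : Fin m → E3), m < 16000000 ∧ (∀ i, d i ≠ 0) ∧
      K0 ⊆ ⋃ i, cyl (convexHull ℝ {P i, Q i, R i}) (d i) ∧
      ∑ i, |det3 (Q i - P i) (R i - P i) (d i)| / (2 * ‖d i‖) ≤
        Real.sqrt 2 * (1 / 2 - 1 / 10 ^ 9) := by
  refine ⟨NN + NN, fun k => T2B_Pf k, fun k => T2B_Qf k, fun k => T2B_Rf k, fun k => T2B_df k,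
    by norm_num [NN], fun i => T2B_df_ne i, ?_, ?_⟩
  · intro X hX
    obtain ⟨hx, hy⟩ := T2B_K0_sub X hX
    have hs : 0 < Real.sqrt 2 := Real.sqrt_pos.mpr (by norm_num)
    obtain ⟨x, hxdef⟩ : ∃ x, x = X 0 := ⟨_, rfl⟩
    obtain ⟨y, hydef⟩ : ∃ y, y = X 1 := ⟨_, rfl⟩
    obtain ⟨ζ, hζdef⟩ : ∃ ζ, ζ = X 2 / Real.sqrt 2 := ⟨_, rfl⟩
    rw [← hxdef, ← hζdef] at hx
    rw [← hydef, ← hζdef] at hy
    have hXeq : X = !₂[x, y, Real.sqrt 2 * ζ] := by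
      ext k
      fin_cases k
      · simp [hxdef]
      · simp [hydef]
      · simp [hζdef]; field_simp
    have hζ0 : 0 ≤ ζ := le_trans (abs_nonneg _) hy
    have hζ1 : ζ ≤ 1 := by linarith [abs_nonneg x]
    have hx1 : |x| ≤ 1 := by linarith
    have hy1 : |y| ≤ 1 := by linarith
    obtain ⟨t, ρ, ht, hρ, h1, h2⟩ := exists_ray x y ζ hy
    obtain ⟨t', ρ', ht', hρ', h3, h4⟩ := exists_ray y (-x) (1 - ζ) (by rw [abs_neg]; exact hx)
    rcases dichotomy x y ζ t ρ t' ρ' ht ht' hρ hρ' h1 h2 h3 h4 with hA | hB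
    · obtain ⟨i, hi, α, β, γ, hα, hβ, hγ, hsum, heq⟩ := T2B_caseA x y ζ t ρ hx1 ht hρ hA h1 h2
      refine Set.mem_iUnion.mpr ⟨⟨i, by omega⟩, ?_⟩
      simp only [T2B_Pf, T2B_Qf, T2B_Rf, T2B_df, if_pos hi]
      exact ⟨_, T2B_hull3 hα hβ hγ hsum, x, by rw [hXeq, heq]⟩
    · obtain ⟨i, hi, α, β, γ, hα, hβ, hγ, hsum, heq⟩ :=
        T2B_caseA y (-x) (1 - ζ) t' ρ' hy1 ht' hρ' hB h3 h4
      refine Set.mem_iUnion.mpr ⟨⟨NN + i, by omega⟩, ?_⟩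
      have hni : ¬ (NN + i < NN) := by omega
      simp only [T2B_Pf, T2B_Qf, T2B_Rf, T2B_df, if_neg hni, Nat.add_sub_cancel_left]
      refine ⟨_, T2B_hull3 hα hβ hγ hsum, y, ?_⟩
      rw [← T2B_sig_comb _ _ _ _ _ _ _ _ hsum, ← heq, hXeq]
      unfold T2B_sig
      ext k
      fin_cases k
      · simp
      · simp
      · simp; ring
  · have e1 := Fin.sum_univ_eq_sum_range (fun k : ℕ =>
      |det3 (T2B_Qf k - T2B_Pf k) (T2B_Rf k - T2B_Pf k) (T2B_df k)| / (2 * ‖T2B_df k‖)) (NN + NN)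
    rw [e1, Finset.sum_range_add]
    have hA : ∑ k ∈ Finset.range NN,
        |det3 (T2B_Qf k - T2B_Pf k) (T2B_Rf k - T2B_Pf k) (T2B_df k)| / (2 * ‖T2B_df k‖) =
        Real.sqrt 2 * ∑ i ∈ Finset.range NN,
          hh * ell i ^ 2 / (2 * Real.sqrt (1 + w1 (tag i) ^ 2 + 2 * w2 (tag i) ^ 2)) := by
      rw [Finset.mul_sum]
      apply Finset.sum_congr rfl
      intro k hk
      have hk' : k < NN := Finset.mem_range.mp hk
      simp only [T2B_Pf, T2B_Qf, T2B_Rf, T2B_df, if_pos hk']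
      exact T2B_costA k
    have hB : ∑ k ∈ Finset.range NN,
        |det3 (T2B_Qf (NN + k) - T2B_Pf (NN + k)) (T2B_Rf (NN + k) - T2B_Pf (NN + k))
          (T2B_df (NN + k))| / (2 * ‖T2B_df (NN + k)‖) =
        Real.sqrt 2 * ∑ i ∈ Finset.range NN,
          hh * ell i ^ 2 / (2 * Real.sqrt (1 + w1 (tag i) ^ 2 + 2 * w2 (tag i) ^ 2)) := by
      rw [Finset.mul_sum]
      apply Finset.sum_congr rfl
      intro k _
      have hni : ¬ (NN + k < NN) := by omega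
      simp only [T2B_Pf, T2B_Qf, T2B_Rf, T2B_df, if_neg hni, Nat.add_sub_cancel_left]
      exact T2B_costB k
    rw [hA, hB]
    have hs : 0 ≤ Real.sqrt 2 := Real.sqrt_nonneg 2
    have := mul_le_mul_of_nonneg_left sum_bound hs
    nlinarith

end Crest.Agent.R211
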