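import Crest.Agent.R211.CoverDefs

/-!
Row 211, task T2A: the real-variable core of the twisted cover.

Coordinates on the tetrahedron `K0`: `(x, y, ζ)` with `z = √2 ζ`;
`K0 = {|x| ≤ 1 - ζ, |y| ≤ ζ}`.  Family A: fan of rays `(y, ζ) = x • w t + ρ • (t, 1)`,
`t ∈ [-1,1]`, `0 ≤ ρ ≤ Rr t`, in the slice at height `x`, where `w t = (w1 t, w2 t)`.
Family B is the image of family A under the symmetry `(x, y, ζ) ↦ (-y, x, 1 - ζ)` of `K0`.
-/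

namespace Crest.Agent.R211.Tw

theorem T2A_c_eq : c = 1 / 100 := rfl
theorem T2A_Kc_eq : Kc = 6 / 10 ^ 7 := rfl
theorem T2A_NN_eq : (NN : ℝ) = 1000000 := by norm_num [NN]
theorem T2A_hh_eq : hh = 2 / 1000000 := by rw [hh, T2A_NN_eq]
theorem T2A_NN_pos : (0 : ℝ) < (NN : ℝ) := by rw [T2A_NN_eq]; norm_num
theorem T2A_c_pos : 0 < c := by rw [T2A_c_eq]; norm_num
theorem T2A_hh_pos : 0 < hh := by rw [T2A_hh_eq]; norm_num

/-- T2A.1  Every point of the wedge `|y| ≤ ζ` lies on a ray of the twisted fan at height `x`.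
(`ρ = √(ζ² - 2cxy + c²x²)`, `t = (2y - cx)/(ζ + ρ)`, `t = 0` if `ζ + ρ = 0`.) -/
theorem exists_ray (x y ζ : ℝ) (hy : |y| ≤ ζ) :
    ∃ t ρ : ℝ, |t| ≤ 1 ∧ 0 ≤ ρ ∧ ζ = ρ + x * w2 t ∧ y = ρ * t + x * w1 t := by
  have hζ : 0 ≤ ζ := le_trans (abs_nonneg y) hy
  obtain ⟨hy1, hy2⟩ := abs_le.mp hy
  have hc : c ≠ 0 := by rw [T2A_c_eq]; norm_num
  have hD0 : 0 ≤ ζ ^ 2 - 2 * c * x * y + c ^ 2 * x ^ 2 := by
    have h1 : 0 ≤ (ζ - y) * (ζ + y) := mul_nonneg (by linarith) (by linarith)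
    nlinarith [sq_nonneg (y - c * x)]
  obtain ⟨ρ, hρdef⟩ : ∃ ρ, ρ = Real.sqrt (ζ ^ 2 - 2 * c * x * y + c ^ 2 * x ^ 2) := ⟨_, rfl⟩
  have hρ0 : 0 ≤ ρ := by rw [hρdef]; exact Real.sqrt_nonneg _
  have hρ2 : ρ ^ 2 = ζ ^ 2 - 2 * c * x * y + c ^ 2 * x ^ 2 := by
    rw [hρdef]; exact Real.sq_sqrt hD0
  by_cases hz : ζ + ρ = 0
  · have h1 : ζ = 0 := by linarith
    have h2 : ρ = 0 := by linarith
    have h3 : y = 0 := by linarith
    have h4 : x = 0 := by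
      rw [h1, h2, h3] at hρ2
      have : (c * x) ^ 2 = 0 := by nlinarith
      have := pow_eq_zero_iff (two_ne_zero) |>.mp this
      rcases mul_eq_zero.mp this with h | h
      · exact absurd h hc
      · exact h
    refine ⟨0, 0, by simp, le_refl _, ?_, ?_⟩
    · rw [h1, h4]; ring
    · rw [h3, h4]; ring
  · have hpos : 0 < ζ + ρ := lt_of_le_of_ne (by positivity) (Ne.symm hz)
    obtain ⟨t, htdef⟩ : ∃ t, t = (2 * y - c * x) / (ζ + ρ) := ⟨_, rfl⟩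
    have ht : t * (ζ + ρ) = 2 * y - c * x := by rw [htdef]; exact div_mul_cancel₀ _ hz
    have h1 : ζ - ρ = c * x * t := by
      have : (ζ - ρ - c * x * t) * (ζ + ρ) = 0 := by
        have : (ζ - ρ - c * x * t) * (ζ + ρ) = ζ ^ 2 - ρ ^ 2 - c * x * (t * (ζ + ρ)) := by ring
        rw [this, ht, hρ2]; ring
      rcases mul_eq_zero.mp this with h | h
      · linarith
      · exact absurd h hz
    refine ⟨t, ρ, ?_, hρ0, ?_, ?_⟩
    · rw [htdef, abs_le]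
      constructor
      · rw [le_div_iff₀ hpos]
        by_contra hcon
        rw [not_le] at hcon
        have hn : 2 * y - c * x < 0 := by linarith
        have h5 : ρ < -(2 * y - c * x) - ζ := by linarith
        have h6 : ρ ^ 2 < (-(2 * y - c * x) - ζ) ^ 2 := by
          apply pow_lt_pow_left₀ h5 hρ0 (by norm_num)
        have h7 : 0 ≤ -(2 * y - c * x) * (2 * y + 2 * ζ) :=
          mul_nonneg (by linarith) (by linarith)
        nlinarith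
      · rw [div_le_iff₀ hpos]
        by_contra hcon
        rw [not_le] at hcon
        have hn : 0 < 2 * y - c * x := by linarith
        have h5 : ρ < (2 * y - c * x) - ζ := by linarith
        have h6 : ρ ^ 2 < ((2 * y - c * x) - ζ) ^ 2 := by
          apply pow_lt_pow_left₀ h5 hρ0 (by norm_num)
        have h7 : 0 ≤ (2 * y - c * x) * (2 * ζ - 2 * y) :=
          mul_nonneg (by linarith) (by linarith)
        nlinarith
    · unfold w2; linarith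
    · unfold w1
      have h8 : x * (c * (t ^ 2 + 1) / 2) = (c * x * t) * t / 2 + c * x / 2 := by ring
      rw [h8, ← h1]
      have h9 : ρ * t + ((ζ - ρ) * t / 2 + c * x / 2) = (t * (ζ + ρ)) / 2 + c * x / 2 := by ring
      rw [h9, ht]; ring

/-- numeric core of the dichotomy -/
theorem T2A_dich_core (a b s ρ ρ' σ p p' : ℝ) (ha0 : 0 ≤ a) (ha1 : a ≤ 1) (hb0 : 0 ≤ b)
    (hb1 : b ≤ 1) (hs : |s| ≤ 1) (hσ : σ = ρ + ρ' - 1)
    (hpa : p = 1 / 100 * (a + 1) / 2) (hpb : p' = 1 / 100 * (b + 1) / 2)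
    (hA : 1 / 2 + (1 / 100 : ℝ) ^ 2 / 4 * (a + a ^ 2) + 6 / 10 ^ 7 < ρ)
    (hB : 1 / 2 + (1 / 100 : ℝ) ^ 2 / 4 * (b + b ^ 2) + 6 / 10 ^ 7 < ρ')
    (hid : σ * (1 + p * p') = 1 / 100 * (p' * ρ * a + p * ρ' * b - (ρ - ρ') * s)) : False := by
  have hp0 : 0 ≤ p := by rw [hpa]; positivity
  have hp0' : 0 ≤ p' := by rw [hpb]; positivity
  have haa : 0 ≤ a + a ^ 2 := by positivity
  have hbb : 0 ≤ b + b ^ 2 := by positivity
  have hhalf : 1 / 2 < ρ := by linarith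
  have hhalf' : 1 / 2 < ρ' := by linarith
  have hσpos : 0 < σ := by linarith
  have hρu : ρ ≤ 1 / 2 + σ := by linarith
  have hρu' : ρ' ≤ 1 / 2 + σ := by linarith
  have hdiff : -((ρ - ρ') * s) ≤ σ := by
    have h5 : |(ρ - ρ') * s| ≤ σ := by
      rw [abs_mul]
      have h6 : |ρ - ρ'| ≤ σ := by rw [abs_le]; constructor <;> linarith
      calc |ρ - ρ'| * |s| ≤ σ * 1 := mul_le_mul h6 hs (abs_nonneg _) hσpos.le
        _ = σ := mul_one _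
    linarith [neg_abs_le ((ρ - ρ') * s)]
  have hle1 : σ ≤ σ * (1 + p * p') := by
    have := mul_nonneg hσpos.le (mul_nonneg hp0 hp0')
    linarith
  have hG1 : p' * ρ * a ≤ (1 / 2 + σ) * (p' * a) := by
    have := mul_le_mul_of_nonneg_right hρu (mul_nonneg hp0' ha0)
    linarith
  have hG2 : p * ρ' * b ≤ (1 / 2 + σ) * (p * b) := by
    have := mul_le_mul_of_nonneg_right hρu' (mul_nonneg hp0 hb0)
    linarith
  obtain ⟨g, hg⟩ : ∃ g, g = 2 * a * b + a + b := ⟨_, rfl⟩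
  have hG : p' * a + p * b = (1 / 100 : ℝ) / 2 * g := by
    rw [hpa, hpb, hg]; ring
  have hab : 0 ≤ a * b := mul_nonneg ha0 hb0
  have hab1 : a * b ≤ 1 := by
    calc a * b ≤ 1 * 1 := mul_le_mul ha1 hb1 hb0 (by norm_num)
      _ = 1 := by norm_num
  have hσlow : (1 / 100 : ℝ) ^ 2 / 4 * g + 2 * (6 / 10 ^ 7) < σ := by
    have h7 : g ≤ a + a ^ 2 + (b + b ^ 2) := by rw [hg]; nlinarith [sq_nonneg (a - b)]
    linarith
  have hmain : σ ≤ 1 / 100 * ((1 / 2 + σ) * ((1 / 100 : ℝ) / 2 * g) + σ) := by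
    rw [← hG]
    linarith
  have hg0 : 0 ≤ g := by rw [hg]; linarith
  have hg4 : g ≤ 4 := by rw [hg]; linarith
  have h8 : σ * g ≤ σ * 4 := mul_le_mul_of_nonneg_left hg4 hσpos.le
  nlinarith

/-- T2A.2  Dichotomy: the A-ray or the B-ray through a point is short enough. -/
theorem dichotomy (x y ζ t ρ t' ρ' : ℝ) (ht : |t| ≤ 1) (ht' : |t'| ≤ 1) (hρ : 0 ≤ ρ)
    (hρ' : 0 ≤ ρ') (h1 : ζ = ρ + x * w2 t) (h2 : y = ρ * t + x * w1 t)
    (h3 : 1 - ζ = ρ' + y * w2 t') (h4 : -x = ρ' * t' + y * w1 t') :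
    ρ ≤ Rr t ∨ ρ' ≤ Rr t' := by
  by_contra hcon
  rw [not_or, not_le, not_le] at hcon
  obtain ⟨hA, hB⟩ := hcon
  obtain ⟨p, hp⟩ : ∃ p, p = w1 t := ⟨_, rfl⟩
  obtain ⟨p', hp'⟩ : ∃ p', p' = w1 t' := ⟨_, rfl⟩
  rw [← hp] at h2
  rw [← hp'] at h4
  unfold w2 at h1 h3
  have hx : x * (1 + p * p') = -ρ' * t' - p' * ρ * t := by
    linear_combination (-1) * h4 - p' * h2
  have hyy : y * (1 + p * p') = ρ * t - p * ρ' * t' := by
    linear_combination h2 - p * h4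
  have hσ1 : ρ + ρ' - 1 = -c * (x * t + y * t') := by linear_combination (-1) * h1 - h3
  have hid : (ρ + ρ' - 1) * (1 + p * p') =
      c * (p' * ρ * t ^ 2 + p * ρ' * t' ^ 2 - (ρ - ρ') * (t * t')) := by
    rw [hσ1]
    linear_combination (-c * t) * hx + (-c * t') * hyy
  have ha1 : t ^ 2 ≤ 1 := by
    have := sq_le_sq' (abs_le.mp ht).1 (abs_le.mp ht).2; simpa using this
  have hb1 : t' ^ 2 ≤ 1 := by
    have := sq_le_sq' (abs_le.mp ht').1 (abs_le.mp ht').2; simpa using this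
  have htt : |t * t'| ≤ 1 := by
    rw [abs_mul]; exact mul_le_one₀ ht (abs_nonneg _) ht'
  refine T2A_dich_core (t ^ 2) (t' ^ 2) (t * t') ρ ρ' (ρ + ρ' - 1) p p' (by positivity) ha1
    (by positivity) hb1 htt rfl ?_ ?_ ?_ ?_ ?_
  · rw [hp]; rfl
  · rw [hp']; rfl
  · have : Rr t = 1 / 2 + (1 / 100 : ℝ) ^ 2 / 4 * (t ^ 2 + (t ^ 2) ^ 2) + 6 / 10 ^ 7 := by
      unfold Rr; rw [T2A_c_eq, T2A_Kc_eq]; ring
    rw [← this]; exact hA
  · have : Rr t' = 1 / 2 + (1 / 100 : ℝ) ^ 2 / 4 * (t' ^ 2 + (t' ^ 2) ^ 2) + 6 / 10 ^ 7 := by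
      unfold Rr; rw [T2A_c_eq, T2A_Kc_eq]; ring
    rw [← this]; exact hB
  · rw [hid, T2A_c_eq]

theorem T2A_abs_tag_le (i : ℕ) (hi : i < NN) : |tag i| ≤ 1 := by
  have hN := T2A_NN_pos
  have h1 : (i : ℝ) + 1 ≤ (NN : ℝ) := by exact_mod_cast hi
  have h0 : (0 : ℝ) ≤ (i : ℝ) := Nat.cast_nonneg i
  unfold tag
  rw [abs_le]
  constructor
  · have : 0 ≤ (2 * (i : ℝ) + 1) / (NN : ℝ) := by positivity
    linarith
  · have : (2 * (i : ℝ) + 1) / (NN : ℝ) ≤ 2 := by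
      rw [div_le_iff₀ hN]; linarith
    linarith

/-- T2A.3  Every `t ∈ [-1,1]` lies in a piece. -/
theorem exists_piece (t : ℝ) (ht : |t| ≤ 1) : ∃ i : ℕ, i < NN ∧ |t - tag i| ≤ hh / 2 := by
  have hN := T2A_NN_pos
  obtain ⟨ht1, ht2⟩ := abs_le.mp ht
  obtain ⟨s, hs⟩ : ∃ s, s = (t + 1) * (NN : ℝ) / 2 := ⟨_, rfl⟩
  have hs0 : 0 ≤ s := by rw [hs]; apply div_nonneg (mul_nonneg (by linarith) hN.le) (by norm_num)
  have hsN : s ≤ (NN : ℝ) := by rw [hs]; nlinarith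
  have hts : t = -1 + 2 * s / (NN : ℝ) := by rw [hs]; field_simp; ring
  have key : ∀ i : ℕ, (i : ℝ) ≤ s → s ≤ (i : ℝ) + 1 → |t - tag i| ≤ hh / 2 := by
    intro i h1 h2
    have : t - tag i = (2 * s - 2 * (i : ℝ) - 1) / (NN : ℝ) := by
      rw [hts]; unfold tag; field_simp; ring
    rw [this, abs_div, abs_of_pos hN]
    unfold hh
    rw [div_div, div_le_div_iff₀ hN (by positivity)]
    have h3 : |2 * s - 2 * (i : ℝ) - 1| ≤ 1 := by rw [abs_le]; constructor <;> linarith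
    nlinarith
  by_cases hlt : s < (NN : ℝ)
  · refine ⟨⌊s⌋₊, ?_, key _ (Nat.floor_le hs0) (Nat.lt_floor_add_one s).le⟩
    exact (Nat.floor_lt hs0).mpr hlt
  · have hsN' : s = (NN : ℝ) := le_antisymm hsN (not_lt.mp hlt)
    have hNN1 : 1 ≤ NN := by norm_num [NN]
    refine ⟨NN - 1, by omega, key _ ?_ ?_⟩
    · rw [hsN', Nat.cast_sub hNN1]; simp
    · rw [hsN', Nat.cast_sub hNN1]; simp

/-- T2A.4  The cap on a piece. -/
theorem Rr_le_Rhat (t : ℝ) (ht : |t| ≤ 1) (i : ℕ) (hi : i < NN) (h : |t - tag i| ≤ hh / 2) :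
    Rr t ≤ Rhat i := by
  have hT := T2A_abs_tag_le i hi
  obtain ⟨T, hTdef⟩ : ∃ T, T = tag i := ⟨_, rfl⟩
  unfold Rhat
  rw [← hTdef] at h hT ⊢
  unfold Rr
  obtain ⟨ht1, ht2⟩ := abs_le.mp ht
  obtain ⟨hT1, hT2⟩ := abs_le.mp hT
  have hc2 : 0 < c ^ 2 := by have := T2A_c_pos; positivity
  have hfac : t ^ 2 + t ^ 4 - (T ^ 2 + T ^ 4) = (t - T) * ((t + T) * (1 + t ^ 2 + T ^ 2)) := by ring
  have ht2' : t ^ 2 ≤ 1 := by nlinarith
  have hT2' : T ^ 2 ≤ 1 := by nlinarith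
  have hb : |(t + T) * (1 + t ^ 2 + T ^ 2)| ≤ 6 := by
    rw [abs_mul]
    have h1 : |t + T| ≤ 2 := by rw [abs_le]; constructor <;> linarith
    have h2 : |1 + t ^ 2 + T ^ 2| ≤ 3 := by
      rw [abs_le]; constructor <;> nlinarith [sq_nonneg t, sq_nonneg T]
    calc |t + T| * |1 + t ^ 2 + T ^ 2| ≤ 2 * 3 := mul_le_mul h1 h2 (abs_nonneg _) (by norm_num)
      _ = 6 := by norm_num
  have hd : t ^ 2 + t ^ 4 - (T ^ 2 + T ^ 4) ≤ 3 * hh := by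
    rw [hfac]
    calc (t - T) * ((t + T) * (1 + t ^ 2 + T ^ 2)) ≤ |(t - T) * ((t + T) * (1 + t ^ 2 + T ^ 2))| :=
          le_abs_self _
      _ = |t - T| * |(t + T) * (1 + t ^ 2 + T ^ 2)| := abs_mul _ _
      _ ≤ hh / 2 * 6 := mul_le_mul h hb (abs_nonneg _) (by have := T2A_hh_pos; positivity)
      _ = 3 * hh := by ring
  have hhp := T2A_hh_pos
  nlinarith

/-- T2A.5  After subtracting the motion of the axis of piece `i`, the point of the ray `t`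
lies in the thin triangle `ζ' ≤ Rhat i + c h / 2`, `|y' - T ζ'| ≤ (h/2) (ζ' + 3 c h / 4)`. -/
theorem piece_mem (x t ρ : ℝ) (i : ℕ) (hx : |x| ≤ 1) (h : |t - tag i| ≤ hh / 2) (hρ : 0 ≤ ρ)
    (hρ' : ρ ≤ Rhat i) :
    ρ + x * (w2 t - w2 (tag i)) ≤ Rhat i + c * hh / 2 ∧
      |(ρ * t + x * (w1 t - w1 (tag i))) - tag i * (ρ + x * (w2 t - w2 (tag i)))| ≤
        hh / 2 * (ρ + x * (w2 t - w2 (tag i)) + 3 * c * hh / 4) := by
  obtain ⟨T, hTdef⟩ : ∃ T, T = tag i := ⟨_, rfl⟩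
  rw [← hTdef] at h ⊢
  obtain ⟨s, hs⟩ : ∃ s, s = t - T := ⟨_, rfl⟩
  obtain ⟨ν, hν⟩ : ∃ ν, ν = x * (c * s) := ⟨_, rfl⟩
  have hcp := T2A_c_pos
  have hhp := T2A_hh_pos
  rw [← hs] at h
  have hνabs : |ν| ≤ c * hh / 2 := by
    rw [hν, abs_mul, abs_mul, abs_of_pos hcp]
    calc |x| * (c * |s|) ≤ 1 * (c * (hh / 2)) :=
          mul_le_mul hx (mul_le_mul_of_nonneg_left h hcp.le) (by positivity) (by norm_num)
      _ = c * hh / 2 := by ring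
  have e1 : ρ + x * (w2 t - w2 T) = ρ + ν := by rw [hν, hs]; unfold w2; ring
  have e2 : (ρ * t + x * (w1 t - w1 T)) - T * (ρ + x * (w2 t - w2 T)) = s * (ρ + ν / 2) := by
    rw [hν, hs]; unfold w1 w2; ring
  rw [e2, e1]
  obtain ⟨hν1, hν2⟩ := abs_le.mp hνabs
  constructor
  · linarith
  · rw [abs_mul]
    have h3 : |ρ + ν / 2| ≤ ρ + ν + 3 * c * hh / 4 := by
      rw [abs_le]; constructor <;> linarith
    exact mul_le_mul h h3 (abs_nonneg _) (by positivity)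

theorem T2A_inv_sqrt (u : ℝ) (hu : 0 ≤ u) :
    1 / Real.sqrt (1 + u) ≤ 1 - u / 2 + 3 * u ^ 2 / 8 := by
  have hs : 0 < Real.sqrt (1 + u) := Real.sqrt_pos.mpr (by linarith)
  have hs2 : Real.sqrt (1 + u) ^ 2 = 1 + u := Real.sq_sqrt (by linarith)
  have hq : 0 < 1 - u / 2 + 3 * u ^ 2 / 8 := by nlinarith [sq_nonneg (u - 2 / 3)]
  rw [div_le_iff₀ hs]
  have h0 : 0 ≤ (1 - u / 2 + 3 * u ^ 2 / 8) * Real.sqrt (1 + u) := (mul_pos hq hs).le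
  rw [← one_le_sq_iff₀ h0, mul_pow, hs2]
  have h3 : 0 ≤ u ^ 3 * (5 / 8 - 15 / 64 * u + 9 / 64 * u ^ 2) := by
    apply mul_nonneg (by positivity)
    nlinarith [sq_nonneg (u - 5 / 6)]
  nlinarith

/-- antiderivative used for telescoping -/
noncomputable def T2A_G (T : ℝ) : ℝ :=
  1 / 8 * ((1 + 26 / 10 ^ 7) * T + (1 / 100 : ℝ) ^ 2 * (7 * T ^ 5 / 40 - T ^ 3 / 12 - T / 8))

theorem T2A_term (T : ℝ) (hT : |T| ≤ 1) :
    hh * (Rr T + c ^ 2 * hh + 5 * c * hh / 4) ^ 2 /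
        (2 * Real.sqrt (1 + w1 T ^ 2 + 2 * w2 T ^ 2)) ≤
      T2A_G (T + hh / 2) - T2A_G (T - hh / 2) := by
  obtain ⟨a, ha⟩ : ∃ a, a = T ^ 2 := ⟨_, rfl⟩
  have ha0 : 0 ≤ a := by rw [ha]; positivity
  have ha1 : a ≤ 1 := by
    rw [ha]; have := sq_le_sq' (abs_le.mp hT).1 (abs_le.mp hT).2; simpa using this
  obtain ⟨u, hu⟩ : ∃ u, u = (1 / 100 : ℝ) ^ 2 * ((a + 1) ^ 2 / 4 + 2 * a) := ⟨_, rfl⟩
  have hu' : 1 + w1 T ^ 2 + 2 * w2 T ^ 2 = 1 + u := by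
    rw [hu, ha]; unfold w1 w2; rw [T2A_c_eq]; ring
  have hu0 : 0 ≤ u := by rw [hu]; positivity
  have hu3 : u ≤ 3 * (1 / 100 : ℝ) ^ 2 := by rw [hu]; nlinarith
  obtain ⟨X, hX⟩ : ∃ X, X = (1 / 100 : ℝ) ^ 2 / 2 * (a + a ^ 2) + 12504 / 10 ^ 10 := ⟨_, rfl⟩
  have hell : Rr T + c ^ 2 * hh + 5 * c * hh / 4 = (1 + X) / 2 := by
    rw [hX, ha]; unfold Rr; rw [T2A_c_eq, T2A_Kc_eq, T2A_hh_eq]; ring
  have hX0 : 0 ≤ X := by rw [hX]; positivity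
  have hX1 : X ≤ (1 / 100 : ℝ) ^ 2 + 12504 / 10 ^ 10 := by rw [hX]; nlinarith
  rw [hu', hell]
  have hinv := T2A_inv_sqrt u hu0
  have hs : 0 < Real.sqrt (1 + u) := Real.sqrt_pos.mpr (by linarith)
  have hhp := T2A_hh_pos
  have e1 : hh * ((1 + X) / 2) ^ 2 / (2 * Real.sqrt (1 + u)) =
      hh / 8 * ((1 + X) ^ 2 * (1 / Real.sqrt (1 + u))) := by
    field_simp; ring
  rw [e1]
  have hY0 : 0 ≤ u / 2 - 3 * u ^ 2 / 8 := by nlinarith
  have h1 : (1 + X) ^ 2 * (1 / Real.sqrt (1 + u)) ≤ (1 + X) ^ 2 - (u / 2 - 3 * u ^ 2 / 8) := by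
    have h2 : (1 + X) ^ 2 * (1 / Real.sqrt (1 + u)) ≤ (1 + X) ^ 2 * (1 - u / 2 + 3 * u ^ 2 / 8) :=
      mul_le_mul_of_nonneg_left hinv (by positivity)
    have h3 : 1 ≤ (1 + X) ^ 2 := by nlinarith
    nlinarith
  have h4 : (1 + X) ^ 2 - (u / 2 - 3 * u ^ 2 / 8) ≤
      1 + (1 / 100 : ℝ) ^ 2 * (7 * a ^ 2 / 8 - a / 4 - 1 / 8) + 255 / 10 ^ 8 := by
    have hXX : X ^ 2 ≤ ((1 / 100 : ℝ) ^ 2 + 12504 / 10 ^ 10) ^ 2 := by
      apply pow_le_pow_left₀ hX0 hX1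
    have huu : u ^ 2 ≤ (3 * (1 / 100 : ℝ) ^ 2) ^ 2 := by
      apply pow_le_pow_left₀ hu0 hu3
    have e2 : 2 * X - u / 2 = (1 / 100 : ℝ) ^ 2 * (7 * a ^ 2 / 8 - a / 4 - 1 / 8)
        + 2 * (12504 / 10 ^ 10) := by rw [hX, hu]; ring
    nlinarith
  have h5 : hh / 8 * ((1 + X) ^ 2 * (1 / Real.sqrt (1 + u))) ≤
      hh / 8 * (1 + (1 / 100 : ℝ) ^ 2 * (7 * a ^ 2 / 8 - a / 4 - 1 / 8) + 255 / 10 ^ 8) :=
    mul_le_mul_of_nonneg_left (h1.trans h4) (by positivity)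
  refine h5.trans ?_
  rw [ha, T2A_hh_eq]
  unfold T2A_G
  nlinarith [sq_nonneg T]

/-- T2A.6  The total cost of one family (divided by `√2`). -/
theorem sum_bound :
    ∑ i ∈ Finset.range NN,
        hh * ell i ^ 2 / (2 * Real.sqrt (1 + w1 (tag i) ^ 2 + 2 * w2 (tag i) ^ 2)) ≤
      1 / 4 - 1 / (2 * 10 ^ 9) := by
  have hN := T2A_NN_pos
  have hstep : ∀ i ∈ Finset.range NN,
      hh * ell i ^ 2 / (2 * Real.sqrt (1 + w1 (tag i) ^ 2 + 2 * w2 (tag i) ^ 2)) ≤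
        T2A_G (-1 + 2 * ((i + 1 : ℕ) : ℝ) / (NN : ℝ)) - T2A_G (-1 + 2 * (i : ℝ) / (NN : ℝ)) := by
    intro i hi
    have hi' : i < NN := Finset.mem_range.mp hi
    have h := T2A_term (tag i) (T2A_abs_tag_le i hi')
    have e1 : tag i + hh / 2 = -1 + 2 * ((i + 1 : ℕ) : ℝ) / (NN : ℝ) := by
      unfold tag hh; push_cast; field_simp; ring
    have e2 : tag i - hh / 2 = -1 + 2 * (i : ℝ) / (NN : ℝ) := by
      unfold tag hh; field_simp; ring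
    rw [e1, e2] at h
    exact h
  refine (Finset.sum_le_sum hstep).trans ?_
  rw [Finset.sum_range_sub (fun i : ℕ => T2A_G (-1 + 2 * (i : ℝ) / (NN : ℝ)))]
  have e3 : -1 + 2 * (NN : ℝ) / (NN : ℝ) = 1 := by field_simp; ring
  have e4 : -1 + 2 * ((0 : ℕ) : ℝ) / (NN : ℝ) = -1 := by simp
  rw [e3, e4]
  unfold T2A_G
  norm_num

end Crest.Agent.R211.Tw
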