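import Crest.Agent.R211.Defs

/-!
Row 211, task T2A: parameters/definitions of the twisted cover (see CoverCore.lean).
-/

namespace Crest.Agent.R211.Tw

/-- twist parameter -/
noncomputable def c : ℝ := 1 / 100
/-- safety constant, `0.6 c³` -/
noncomputable def Kc : ℝ := 6 / 10 ^ 7
/-- radial cap of the fan -/
noncomputable def Rr (t : ℝ) : ℝ := 1 / 2 + c ^ 2 / 4 * (t ^ 2 + t ^ 4) + Kc
/-- `y`-component of the velocity of ray `t` -/
noncomputable def w1 (t : ℝ) : ℝ := c * (t ^ 2 + 1) / 2
/-- `ζ`-component of the velocity of ray `t` -/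
noncomputable def w2 (t : ℝ) : ℝ := c * t
/-- number of pieces per family -/
def NN : ℕ := 1000000
/-- width of a piece -/
noncomputable def hh : ℝ := 2 / (NN : ℝ)
/-- midpoint of piece `i` -/
noncomputable def tag (i : ℕ) : ℝ := -1 + (2 * (i : ℝ) + 1) / (NN : ℝ)
/-- cap used on piece `i` -/
noncomputable def Rhat (i : ℕ) : ℝ := Rr (tag i) + c ^ 2 * hh
/-- length of the covering triangle of piece `i` -/
noncomputable def ell (i : ℕ) : ℝ := Rhat i + 5 * c * hh / 4

end Crest.Agent.R211.Tw
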