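import Mathlib

/-!
Row 211 (S0324 -- S0329): shared definitions.  No proofs here.
-/

open MeasureTheory

namespace Crest.Agent.R211

/-- Euclidean 3-space. -/
abbrev E3 : Type := EuclideanSpace ℝ (Fin 3)
/-- Euclidean plane. -/
abbrev E2 : Type := EuclideanSpace ℝ (Fin 2)

/-- Gram determinant of two vectors: the squared area of the parallelogram they span. -/
noncomputable def gram (a b : E3) : ℝ := ‖a‖ ^ 2 * ‖b‖ ^ 2 - (inner ℝ a b) ^ 2

/-- Triple product `det [a, b, c]`. -/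
def det3 (a b c : E3) : ℝ :=
  a 0 * (b 1 * c 2 - b 2 * c 1) - a 1 * (b 0 * c 2 - b 2 * c 0) + a 2 * (b 0 * c 1 - b 1 * c 0)

/-- Planar determinant. -/
def det2 (a b : E2) : ℝ := a 0 * b 1 - a 1 * b 0

/-- The map `y ↦ y - ⟪y, u⟫ u` (orthogonal projection onto `u^⊥` when `‖u‖ = 1`). -/
noncomputable def proj (u y : E3) : E3 := y - inner ℝ y u • u

/-- The standard regular tetrahedron of the statements. -/
noncomputable def K0 : Set E3 :=
  convexHull ℝ {!₂[1, 0, 0], !₂[-1, 0, 0], !₂[0, 1, Real.sqrt 2], !₂[0, -1, Real.sqrt 2]}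

/-- The (two-sided infinite) cylinder over the set `B` in direction `d`. -/
def cyl (B : Set E3) (d : E3) : Set E3 := {x | ∃ b ∈ B, ∃ t : ℝ, x = b + t • d}

/-- The closed parallelogram `c + [0,1] a + [0,1] b`. -/
def pgram (c a b : E3) : Set E3 :=
  {x | ∃ s ∈ Set.Icc (0 : ℝ) 1, ∃ t ∈ Set.Icc (0 : ℝ) 1, x = c + s • a + t • b}

end Crest.Agent.R211
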