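import Crest.Agent.R211.Packing

/-!
Row 211, task T4C (part 1): the coarse axis-parallel grid and the upper Riemann sum over the cells
meeting a compact set.
-/

open MeasureTheory Metric

namespace Crest.Agent.R211

/-- The grid cell with index `kl` of the grid of mesh `r`. -/
def gcell (r : ℝ) (kl : ℤ × ℤ) : Set E2 := cell (kl.1 * r) (kl.2 * r) r

theorem T4C_norm_le_abs_add (x : E2) : ‖x‖ ≤ |x 0| + |x 1| := by
  rw [EuclideanSpace.norm_eq, Fin.sum_univ_two]
  apply Real.sqrt_le_iff.2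
  constructor
  · positivity
  · simp only [Real.norm_eq_abs, sq_abs]
    nlinarith [abs_nonneg (x 0), abs_nonneg (x 1), sq_abs (x 0), sq_abs (x 1)]

theorem T4C_abs_coord_le_norm (x : E2) (i : Fin 2) : |x i| ≤ ‖x‖ := by
  have := PiLp.norm_apply_le (p := 2) x i
  simpa using this

theorem mem_gcell_floor {r : ℝ} (hr : 0 < r) (q : E2) :
    q ∈ gcell r (⌊q 0 / r⌋, ⌊q 1 / r⌋) := by
  have h0 := Int.floor_le (q 0 / r)
  have h0' := Int.lt_floor_add_one (q 0 / r)
  have h1 := Int.floor_le (q 1 / r)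
  have h1' := Int.lt_floor_add_one (q 1 / r)
  rw [le_div_iff₀ hr] at h0 h1
  rw [div_lt_iff₀ hr] at h0' h1'
  refine ⟨h0, by linarith, h1, by linarith⟩

theorem eq_of_mem_gcell {r : ℝ} (hr : 0 < r) {q : E2} {kl : ℤ × ℤ} (h : q ∈ gcell r kl) :
    kl = (⌊q 0 / r⌋, ⌊q 1 / r⌋) := by
  obtain ⟨h0, h0', h1, h1'⟩ := h
  ext
  · symm
    rw [Int.floor_eq_iff]
    constructor
    · rw [le_div_iff₀ hr]; exact h0
    · rw [div_lt_iff₀ hr]; linarith
  · symm
    rw [Int.floor_eq_iff]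
    constructor
    · rw [le_div_iff₀ hr]; exact h1
    · rw [div_lt_iff₀ hr]; linarith

theorem gcell_disjoint {r : ℝ} (hr : 0 < r) {kl kl' : ℤ × ℤ} (h : kl ≠ kl') :
    Disjoint (gcell r kl) (gcell r kl') := by
  rw [Set.disjoint_left]
  intro q hq hq'
  exact h ((eq_of_mem_gcell hr hq).trans (eq_of_mem_gcell hr hq').symm)

theorem dist_le_of_mem_gcell {r : ℝ} {q q' : E2} {kl : ℤ × ℤ} (h : q ∈ gcell r kl)
    (h' : q' ∈ gcell r kl) : dist q q' ≤ 2 * r := by
  obtain ⟨h0, h0', h1, h1'⟩ := h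
  obtain ⟨g0, g0', g1, g1'⟩ := h'
  rw [dist_eq_norm]
  refine (T4C_norm_le_abs_add _).trans ?_
  have e0 : |(q - q') 0| ≤ r := by
    simp only [PiLp.sub_apply]
    rw [abs_le]; constructor <;> linarith
  have e1 : |(q - q') 1| ≤ r := by
    simp only [PiLp.sub_apply]
    rw [abs_le]; constructor <;> linarith
  linarith

theorem measurableSet_gcell (r : ℝ) (kl : ℤ × ℤ) : MeasurableSet (gcell r kl) :=
  measurableSet_cell _ _ _

theorem volume_real_gcell {r : ℝ} (hr : 0 < r) (kl : ℤ × ℤ) :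
    volume.real (gcell r kl) = r ^ 2 := by
  unfold gcell
  rw [Measure.real, volume_cell _ _ _ hr.le, ENNReal.toReal_ofReal (by positivity)]

theorem volume_gcell_ne_top {r : ℝ} (hr : 0 < r) (kl : ℤ × ℤ) :
    volume (gcell r kl) ≠ ⊤ := by
  unfold gcell
  rw [volume_cell _ _ _ hr.le]
  exact ENNReal.ofReal_ne_top

/-- The cells meeting a bounded set are finitely many. -/
theorem finite_cells {r : ℝ} (hr : 0 < r) {D : Set E2} (hD : Bornology.IsBounded D) :
    {kl : ℤ × ℤ | (D ∩ gcell r kl).Nonempty}.Finite := by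
  obtain ⟨ρ, hρ⟩ := hD.subset_closedBall (0 : E2)
  set n : ℤ := ⌈ρ / r⌉ + 1 with hn
  apply Set.Finite.subset (Set.finite_Icc ((-n, -n) : ℤ × ℤ) (n, n))
  rintro kl ⟨q, hqD, hq⟩
  have hq0 : ‖q‖ ≤ ρ := by simpa using hρ hqD
  have hkl := eq_of_mem_gcell hr hq
  have key : ∀ i : Fin 2, -n ≤ ⌊q i / r⌋ ∧ ⌊q i / r⌋ ≤ n := by
    intro i
    have hi := (T4C_abs_coord_le_norm q i).trans hq0
    rw [abs_le] at hi
    have h1 : q i / r ≤ ρ / r := by gcongr; exact hi.2
    have h2 : -(ρ / r) ≤ q i / r := by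
      rw [← neg_div]; gcongr; exact hi.1
    have h3 : ρ / r ≤ (⌈ρ / r⌉ : ℝ) := Int.le_ceil _
    constructor
    · rw [Int.le_floor]
      push_cast [hn]
      linarith
    · have : (⌊q i / r⌋ : ℝ) ≤ q i / r := Int.floor_le _
      have h4 : (⌊q i / r⌋ : ℝ) ≤ (n : ℝ) := by
        push_cast [hn]; linarith
      exact_mod_cast h4
  rw [hkl]
  exact ⟨⟨(key 0).1, (key 1).1⟩, ⟨(key 0).2, (key 1).2⟩⟩

/-- Upper Riemann sum over the cells of mesh `r` meeting the compact set `D`. -/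
theorem coarse_grid {D : Set E2} (hD : IsCompact D) (f : E2 → ℝ) (hf : ContinuousOn f D)
    (hf1 : ∀ q ∈ D, f q ≤ 1) {r ε₁ ε₃ : ℝ} (hr : 0 < r) (hε₁ : 0 ≤ ε₁)
    (H1 : volume.real (cthickening (2 * r) D) ≤ volume.real D + ε₃)
    (H2 : ∀ q ∈ D, ∀ q' ∈ D, dist q q' ≤ 2 * r → f q' ≤ f q + ε₁) :
    ∃ (C : Finset (ℤ × ℤ)) (pt : ℤ × ℤ → E2), (∀ kl ∈ C, pt kl ∈ D ∧ pt kl ∈ gcell r kl) ∧
      (∀ p ∈ D, ∃ kl ∈ C, p ∈ gcell r kl) ∧
      ∑ kl ∈ C, r ^ 2 * (f (pt kl) + ε₁) ≤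
        (∫ p in D, f p) + 2 * ε₁ * volume.real D + (1 + ε₁) * ε₃ := by
  classical
  set C : Finset (ℤ × ℤ) := (finite_cells hr hD.isBounded).toFinset with hC
  have memC : ∀ kl, kl ∈ C ↔ (D ∩ gcell r kl).Nonempty := by
    intro kl; simp [hC]
  set pt : ℤ × ℤ → E2 := fun kl =>
    if h : (D ∩ gcell r kl).Nonempty then h.some else 0 with hpt
  have hptmem : ∀ kl ∈ C, pt kl ∈ D ∧ pt kl ∈ gcell r kl := by
    intro kl hkl
    have h := (memC kl).1 hkl
    simp only [hpt, dif_pos h]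
    exact h.some_mem
  have hcov : ∀ p ∈ D, ∃ kl ∈ C, p ∈ gcell r kl := by
    intro p hp
    refine ⟨(⌊p 0 / r⌋, ⌊p 1 / r⌋), (memC _).2 ⟨p, hp, mem_gcell_floor hr p⟩, mem_gcell_floor hr p⟩
  refine ⟨C, pt, hptmem, hcov, ?_⟩
  have hDm : MeasurableSet D := hD.measurableSet
  have hDfin : volume D ≠ ⊤ := hD.measure_lt_top.ne
  have hmeas : ∀ kl ∈ C, MeasurableSet (D ∩ gcell r kl) :=
    fun kl _ => hDm.inter (measurableSet_gcell r kl)
  have hdisj : (C : Set (ℤ × ℤ)).PairwiseDisjoint (fun kl => D ∩ gcell r kl) := by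
    intro kl _ kl' _ hne
    exact (gcell_disjoint hr hne).mono Set.inter_subset_right Set.inter_subset_right
  have hdisj' : (C : Set (ℤ × ℤ)).PairwiseDisjoint (fun kl => gcell r kl) := by
    intro kl _ kl' _ hne
    exact gcell_disjoint hr hne
  have hDeq : D = ⋃ kl ∈ C, D ∩ gcell r kl := by
    ext p
    simp only [Set.mem_iUnion, Set.mem_inter_iff, exists_prop]
    constructor
    · intro hp
      obtain ⟨kl, hkl, hpk⟩ := hcov p hp
      exact ⟨kl, hkl, hp, hpk⟩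
    · rintro ⟨kl, _, hp, _⟩
      exact hp
  have hfin : ∀ kl ∈ C, volume (D ∩ gcell r kl) ≠ ⊤ := fun kl _ =>
    (measure_ne_top_of_subset Set.inter_subset_left hDfin)
  -- F1
  have F1 : ∑ kl ∈ C, volume.real (D ∩ gcell r kl) = volume.real D := by
    rw [← measureReal_biUnion_finset hdisj hmeas hfin, ← hDeq]
  -- F2
  have hKfin : volume (cthickening (2 * r) D) ≠ ⊤ := (hD.cthickening).measure_lt_top.ne
  have F2 : ∑ _kl ∈ C, r ^ 2 ≤ volume.real D + ε₃ := by
    have h1 : ∑ kl ∈ C, volume.real (gcell r kl) = volume.real (⋃ kl ∈ C, gcell r kl) :=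
      (measureReal_biUnion_finset hdisj' (fun kl _ => measurableSet_gcell r kl)
        (fun kl _ => volume_gcell_ne_top hr kl)).symm
    have h2 : (⋃ kl ∈ C, gcell r kl) ⊆ cthickening (2 * r) D := by
      intro q hq
      simp only [Set.mem_iUnion, exists_prop] at hq
      obtain ⟨kl, hkl, hq⟩ := hq
      obtain ⟨hp1, hp2⟩ := hptmem kl hkl
      exact mem_cthickening_of_dist_le q (pt kl) _ D hp1 (dist_le_of_mem_gcell hq hp2)
    calc ∑ _kl ∈ C, r ^ 2 = ∑ kl ∈ C, volume.real (gcell r kl) := by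
          apply Finset.sum_congr rfl
          intro kl _
          rw [volume_real_gcell hr]
      _ = volume.real (⋃ kl ∈ C, gcell r kl) := h1
      _ ≤ volume.real (cthickening (2 * r) D) := measureReal_mono h2 hKfin
      _ ≤ _ := H1
  -- F3
  have hint : IntegrableOn f D volume := hf.integrableOn_compact hD
  have F3 : ∑ kl ∈ C, volume.real (D ∩ gcell r kl) * (f (pt kl) - ε₁) ≤ ∫ p in D, f p := by
    have h1 : ∫ p in D, f p = ∑ kl ∈ C, ∫ p in D ∩ gcell r kl, f p := by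
      conv_lhs => rw [hDeq]
      exact integral_biUnion_finset C hmeas hdisj
        (fun kl _ => hint.mono_set Set.inter_subset_left)
    rw [h1]
    apply Finset.sum_le_sum
    intro kl hkl
    have := setIntegral_ge_of_const_le (μ := volume) (f := f) (c := f (pt kl) - ε₁)
      (hmeas kl hkl) (hfin kl hkl) (fun q hq => by
        have := H2 q hq.1 (pt kl) (hptmem kl hkl).1
          (dist_le_of_mem_gcell hq.2 (hptmem kl hkl).2)
        linarith) (hint.mono_set Set.inter_subset_left)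
    simpa [smul_eq_mul] using this
  have hvle : ∀ kl ∈ C, volume.real (D ∩ gcell r kl) ≤ r ^ 2 := by
    intro kl _
    rw [← volume_real_gcell hr kl]
    exact measureReal_mono Set.inter_subset_right (volume_gcell_ne_top hr kl)
  have key : ∀ kl ∈ C, r ^ 2 * (f (pt kl) + ε₁) ≤
      volume.real (D ∩ gcell r kl) * (f (pt kl) - ε₁) + 2 * ε₁ * volume.real (D ∩ gcell r kl)
        + (1 + ε₁) * (r ^ 2 - volume.real (D ∩ gcell r kl)) := by
    intro kl hkl
    have h1 := hvle kl hkl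
    have h2 := hf1 _ (hptmem kl hkl).1
    nlinarith
  calc ∑ kl ∈ C, r ^ 2 * (f (pt kl) + ε₁)
      ≤ ∑ kl ∈ C, (volume.real (D ∩ gcell r kl) * (f (pt kl) - ε₁)
        + 2 * ε₁ * volume.real (D ∩ gcell r kl)
        + (1 + ε₁) * (r ^ 2 - volume.real (D ∩ gcell r kl))) := Finset.sum_le_sum key
    _ = ∑ kl ∈ C, volume.real (D ∩ gcell r kl) * (f (pt kl) - ε₁)
        + 2 * ε₁ * ∑ kl ∈ C, volume.real (D ∩ gcell r kl)
        + (1 + ε₁) * (∑ _kl ∈ C, r ^ 2 - ∑ kl ∈ C, volume.real (D ∩ gcell r kl)) := by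
          rw [Finset.sum_add_distrib, Finset.sum_add_distrib, ← Finset.mul_sum, ← Finset.mul_sum,
            Finset.sum_sub_distrib]
    _ ≤ _ := by
          rw [F1]
          have : (1 + ε₁) * (∑ _kl ∈ C, r ^ 2 - volume.real D) ≤ (1 + ε₁) * ε₃ := by
            apply mul_le_mul_of_nonneg_left _ (by linarith)
            linarith
          linarith

end Crest.Agent.R211
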