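import Crest.Agent.R211.Defs

/-!
Row 211, task T4A: ingredients of S0326 (staircase lattice covering, zero-diagonal frame of a
trace-free matrix, local covering by the mean value inequality).   (helper27; no sorry)
-/

open MeasureTheory

namespace Crest.Agent.R211

theorem lattice_cover_aux (t₁ t₂ u v : ℝ) (h1 : 0 ≤ t₁) (h2 : 0 ≤ t₂) (h : t₁ * t₂ < 1) :
    ∃ i j : ℤ, 0 ≤ u - i - t₁ * j ∧ u - i - t₁ * j ≤ 1 ∧ 0 ≤ v - j - t₂ * i ∧ v - j - t₂ * i ≤ 1 := by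
  set κ : ℝ := 1 - t₁ * t₂ with hκ
  have hκ0 : 0 < κ := by rw [hκ]; linarith
  let I : ℤ → ℤ := fun j => ⌊u - t₁ * j⌋
  let ψ : ℤ → ℝ := fun j => v - j - t₂ * (I j)
  have hI1 : ∀ j : ℤ, ((I j : ℤ) : ℝ) ≤ u - t₁ * j := fun j => Int.floor_le _
  have hI2 : ∀ j : ℤ, u - t₁ * j < (I j : ℝ) + 1 := fun j => Int.lt_floor_add_one _
  have hbdd : ∃ b : ℤ, ∀ z : ℤ, 0 ≤ ψ z → z ≤ b := by
    refine ⟨⌈(v - t₂ * u + t₂) / κ⌉, fun z hz => ?_⟩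
    have h3 : t₂ * (u - t₁ * z - 1) ≤ t₂ * (I z : ℝ) :=
      mul_le_mul_of_nonneg_left (by linarith [hI2 z]) h2
    have h4 : (z : ℝ) * κ ≤ v - t₂ * u + t₂ := by
      have : ψ z = v - z - t₂ * (I z) := rfl
      rw [hκ]; nlinarith
    have h5 : (z : ℝ) ≤ (v - t₂ * u + t₂) / κ := by
      rw [le_div_iff₀ hκ0]; exact h4
    exact_mod_cast (h5.trans (Int.le_ceil _))
  have hinh : ∃ z : ℤ, 0 ≤ ψ z := by
    refine ⟨⌊(v - t₂ * u) / κ⌋, ?_⟩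
    set z : ℤ := ⌊(v - t₂ * u) / κ⌋ with hz
    have h3 : t₂ * (I z : ℝ) ≤ t₂ * (u - t₁ * z) := mul_le_mul_of_nonneg_left (hI1 z) h2
    have h5 : (z : ℝ) ≤ (v - t₂ * u) / κ := Int.floor_le _
    have h4 : (z : ℝ) * κ ≤ v - t₂ * u := by rwa [le_div_iff₀ hκ0] at h5
    have : ψ z = v - z - t₂ * (I z) := rfl
    rw [this]; rw [hκ] at h4; nlinarith
  obtain ⟨j, hj0, hjmax⟩ := Int.exists_greatest_of_bdd hbdd hinh
  refine ⟨I j, j, by linarith [hI1 j], by linarith [hI2 j], hj0, ?_⟩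
  have hlt : ψ (j + 1) < 0 := by
    by_contra hcon
    have := hjmax (j + 1) (not_lt.mp hcon)
    omega
  have hmono : I (j + 1) ≤ I j := by
    apply Int.floor_le_floor
    push_cast
    nlinarith
  have hmono' : ((I (j + 1) : ℤ) : ℝ) ≤ (I j : ℝ) := by exact_mod_cast hmono
  have e1 : ψ (j + 1) = v - ((j : ℝ) + 1) - t₂ * (I (j + 1)) := by
    simp only [ψ]; push_cast; ring
  have e2 : ψ j = v - j - t₂ * (I j) := rfl
  have h6 : t₂ * (I (j + 1) : ℝ) ≤ t₂ * (I j : ℝ) := mul_le_mul_of_nonneg_left hmono' h2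
  rw [e1] at hlt
  linarith

theorem lattice_cover_uv (t₁ t₂ u v : ℝ) (h0 : 0 ≤ t₁ * t₂) (h : t₁ * t₂ < 1) :
    ∃ i j : ℤ, 0 ≤ u - i - t₁ * j ∧ u - i - t₁ * j ≤ 1 ∧ 0 ≤ v - j - t₂ * i ∧ v - j - t₂ * i ≤ 1 := by
  rcases mul_nonneg_iff.mp h0 with ⟨h1, h2⟩ | ⟨h1, h2⟩
  · exact lattice_cover_aux t₁ t₂ u v h1 h2 h
  · obtain ⟨i, j, a1, a2, a3, a4⟩ := lattice_cover_aux (-t₁) (-t₂) u (1 - v) (by linarith) (by linarith)
      (by nlinarith)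
    refine ⟨i, -j, ?_, ?_, ?_, ?_⟩ <;> push_cast <;> linarith

/-- T4A.1  Staircase covering -/
theorem lattice_cover (t₁ t₂ θ₁ θ₂ : ℝ) (h0 : 0 ≤ t₁ * t₂) (h1 : t₁ * t₂ < 1) :
    ∃ i j : ℤ, 0 ≤ (θ₁ - i) + t₁ * (θ₂ - j) ∧ (θ₁ - i) + t₁ * (θ₂ - j) ≤ 1 ∧
      0 ≤ (θ₂ - j) + t₂ * (θ₁ - i) ∧ (θ₂ - j) + t₂ * (θ₁ - i) ≤ 1 := by
  obtain ⟨i, j, a1, a2, a3, a4⟩ := lattice_cover_uv t₁ t₂ (θ₁ + t₁ * θ₂) (θ₂ + t₂ * θ₁) h0 h1
  exact ⟨i, j, by linarith, by linarith, by linarith, by linarith⟩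

theorem E2_decomp (z : E2) :
    z = z 0 • (EuclideanSpace.single 0 1 : E2) + z 1 • (EuclideanSpace.single 1 1 : E2) := by
  ext i; fin_cases i <;> simp

theorem trace_eq (A : E2 →L[ℝ] E2) :
    LinearMap.trace ℝ _ A.toLinearMap =
      (A (EuclideanSpace.single 0 1)) 0 + (A (EuclideanSpace.single 1 1)) 1 := by
  rw [LinearMap.trace_eq_matrix_trace ℝ (EuclideanSpace.basisFun (Fin 2) ℝ).toBasis, Matrix.trace_fin_two]
  simp [LinearMap.toMatrix_apply]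

theorem det_eq (A : E2 →L[ℝ] E2) :
    LinearMap.det A.toLinearMap =
      (A (EuclideanSpace.single 0 1)) 0 * (A (EuclideanSpace.single 1 1)) 1
       - (A (EuclideanSpace.single 1 1)) 0 * (A (EuclideanSpace.single 0 1)) 1 := by
  rw [← LinearMap.det_toMatrix (EuclideanSpace.basisFun (Fin 2) ℝ).toBasis, Matrix.det_fin_two]
  simp [LinearMap.toMatrix_apply]



theorem exists_frame (A : E2 →L[ℝ] E2) (htr : LinearMap.trace ℝ _ A.toLinearMap = 0) :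
    ∃ (f₁ f₂ : E2) (β γ : ℝ), ‖f₁‖ = 1 ∧ ‖f₂‖ = 1 ∧ inner ℝ f₁ f₂ = 0 ∧
      A f₁ = γ • f₂ ∧ A f₂ = β • f₁ ∧ LinearMap.det A.toLinearMap = -(β * γ) ∧
      |β| ≤ ‖A‖ ∧ |γ| ≤ ‖A‖ := by
  set a11 := (A (EuclideanSpace.single 0 1)) 0 with h11
  set a21 := (A (EuclideanSpace.single 0 1)) 1 with h21
  set a12 := (A (EuclideanSpace.single 1 1)) 0 with h12
  set a22 := (A (EuclideanSpace.single 1 1)) 1 with h22
  have htr' : a11 + a22 = 0 := by rw [← htr, trace_eq]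
  have hdet : LinearMap.det A.toLinearMap = a11 * a22 - a12 * a21 := det_eq A
  -- IVT
  let q : ℝ → ℝ := fun φ => a11 * (Real.cos φ ^ 2 - Real.sin φ ^ 2) + (a12 + a21) * (Real.sin φ * Real.cos φ)
  have hq : Continuous q := by fun_prop
  have h0 : q 0 = a11 := by simp [q]
  have h1 : q (Real.pi / 2) = -a11 := by simp [q]
  have hmem : (0 : ℝ) ∈ Set.uIcc (q 0) (q (Real.pi / 2)) := by
    rw [h0, h1, Set.mem_uIcc]
    rcases le_total a11 0 with h | h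
    · left; constructor <;> linarith
    · right; constructor <;> linarith
  obtain ⟨φ, -, hφ⟩ := intermediate_value_uIcc hq.continuousOn hmem
  set c := Real.cos φ with hc
  set s := Real.sin φ with hs
  have hcs : c ^ 2 + s ^ 2 = 1 := Real.cos_sq_add_sin_sq φ
  have hq0 : a11 * (c ^ 2 - s ^ 2) + (a12 + a21) * (s * c) = 0 := hφ
  have hA : ∀ z : E2, A z = !₂[z 0 * a11 + z 1 * a12, z 0 * a21 + z 1 * a22] := by
    intro z
    conv_lhs => rw [E2_decomp z]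
    rw [map_add, map_smul, map_smul]
    ext i; fin_cases i <;> simp [h11, h12, h21, h22]
  have ha22 : a22 = -a11 := by linarith
  set X := c * a11 + s * a12 with hX
  set Y := c * a21 + s * a22 with hY
  set X' := -s * a11 + c * a12 with hX'
  set Y' := -s * a21 + c * a22 with hY'
  have d1 : c * X + s * Y = 0 := by rw [hX, hY, ha22]; linarith
  have d2 : -s * X' + c * Y' = 0 := by rw [hX', hY', ha22]; linarith
  have n1 : ‖(!₂[c, s] : E2)‖ = 1 := by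
    rw [EuclideanSpace.norm_eq]; simp [Fin.sum_univ_two, hcs]
  have n2 : ‖(!₂[-s, c] : E2)‖ = 1 := by
    rw [EuclideanSpace.norm_eq]; simp [Fin.sum_univ_two]; linarith
  have e1 : A !₂[c, s] = (-s * X + c * Y) • (!₂[-s, c] : E2) := by
    rw [hA]
    ext i; fin_cases i
    · simp; linear_combination c * d1 - X * hcs - hX
    · simp; linear_combination s * d1 - Y * hcs - hY
  have e2 : A !₂[-s, c] = (c * X' + s * Y') • (!₂[c, s] : E2) := by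
    rw [hA]
    ext i; fin_cases i
    · simp; linear_combination -s * d2 - X' * hcs - hX'
    · simp; linear_combination c * d2 - Y' * hcs - hY'
  refine ⟨!₂[c, s], !₂[-s, c], c * X' + s * Y', -s * X + c * Y, n1, n2, ?_, e1, e2, ?_, ?_, ?_⟩
  · simp [PiLp.inner_apply, Fin.sum_univ_two]; ring
  · rw [hdet]
    have key : (c * X + s * Y) * (-s * X' + c * Y') - (c * X' + s * Y') * (-s * X + c * Y)
        = (a11 * a22 - a12 * a21) * (c ^ 2 + s ^ 2) ^ 2 := by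
      rw [hX, hY, hX', hY']; ring
    rw [d1, d2, hcs] at key
    linarith
  · have := A.le_opNorm !₂[-s, c]
    rw [e2, norm_smul, n1, n2] at this
    simpa using this
  · have := A.le_opNorm !₂[c, s]
    rw [e1, norm_smul, n1, n2] at this
    simpa using this

theorem exists_onb (f₁ f₂ : E2) (hf₁ : ‖f₁‖ = 1) (hf₂ : ‖f₂‖ = 1) (hf : inner ℝ f₁ f₂ = 0) :
    ∃ b : OrthonormalBasis (Fin 2) ℝ E2, b 0 = f₁ ∧ b 1 = f₂ := by
  have hon : Orthonormal ℝ ![f₁, f₂] := by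
    rw [orthonormal_iff_ite]
    intro i j
    fin_cases i <;> fin_cases j <;> simp [hf₁, hf₂, hf, real_inner_comm]
  have hcard : Module.finrank ℝ E2 = Fintype.card (Fin 2) := by simp
  obtain ⟨b, hb⟩ := Orthonormal.exists_orthonormalBasis_extension_of_card_eq (s := Set.univ) hcard
    (v := ![f₁, f₂]) (hon.comp (fun x : (Set.univ : Set (Fin 2)) => (x : Fin 2)) Subtype.val_injective)
  exact ⟨b, by simpa using hb 0 (Set.mem_univ _), by simpa using hb 1 (Set.mem_univ _)⟩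

theorem frame_decomp (f₁ f₂ : E2) (hf₁ : ‖f₁‖ = 1) (hf₂ : ‖f₂‖ = 1) (hf : inner ℝ f₁ f₂ = 0) (z : E2) :
    z = inner ℝ f₁ z • f₁ + inner ℝ f₂ z • f₂ := by
  obtain ⟨b, h0, h1⟩ := exists_onb f₁ f₂ hf₁ hf₂ hf
  have := b.sum_repr' z
  rw [Fin.sum_univ_two, h0, h1] at this
  exact this.symm

theorem frame_norm_sq (f₁ f₂ : E2) (hf₁ : ‖f₁‖ = 1) (hf₂ : ‖f₂‖ = 1) (hf : inner ℝ f₁ f₂ = 0) (x y : ℝ) :
    ‖x • f₁ + y • f₂‖ ^ 2 = x ^ 2 + y ^ 2 := by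
  rw [norm_add_sq_real, norm_smul, norm_smul, hf₁, hf₂, inner_smul_left, inner_smul_right, hf]
  simp

theorem solve_bound (x y t₁ t₂ κ B : ℝ) (hκ : 0 < κ) (hB : 0 ≤ B) (ht : t₁ * t₂ ≤ 1 - κ)
    (h1 : |t₁| ≤ B) (a1 : 0 ≤ x + t₁ * y) (a2 : x + t₁ * y ≤ 1)
    (a3 : 0 ≤ y + t₂ * x) (a4 : y + t₂ * x ≤ 1) : |x| ≤ (1 + B) / κ := by
  have e : x * (1 - t₁ * t₂) = (x + t₁ * y) - t₁ * (y + t₂ * x) := by ring
  have h2 : |(x + t₁ * y) - t₁ * (y + t₂ * x)| ≤ 1 + B := by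
    have h3 : |t₁ * (y + t₂ * x)| ≤ B := by
      rw [abs_mul]
      have : |y + t₂ * x| ≤ 1 := abs_le.mpr ⟨by linarith, a4⟩
      calc |t₁| * |y + t₂ * x| ≤ B * 1 := mul_le_mul h1 this (abs_nonneg _) hB
        _ = B := mul_one B
    have h4 : |x + t₁ * y| ≤ 1 := abs_le.mpr ⟨by linarith, a2⟩
    calc |(x + t₁ * y) - t₁ * (y + t₂ * x)| ≤ |x + t₁ * y| + |t₁ * (y + t₂ * x)| := abs_sub _ _
      _ ≤ 1 + B := add_le_add h4 h3
  rw [← e, abs_mul] at h2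
  have h5 : κ ≤ |1 - t₁ * t₂| := le_trans (by linarith) (le_abs_self _)
  rw [le_div_iff₀ hκ]
  calc |x| * κ ≤ |x| * |1 - t₁ * t₂| := mul_le_mul_of_nonneg_left h5 (abs_nonneg _)
    _ ≤ 1 + B := h2

theorem local_cover (V : E2 → E2) (p₀ f₁ f₂ : E2) (A : E2 →L[ℝ] E2) (W : Set E2)
    (hW : Convex ℝ W) (hf₁ : ‖f₁‖ = 1) (hf₂ : ‖f₂‖ = 1) (hf : inner ℝ f₁ f₂ = 0)
    (β γ : ℝ) (hA₁ : A f₁ = γ • f₂) (hA₂ : A f₂ = β • f₁)
    (L M κ ω δ τ : ℝ) (hL : 0 < L) (hκ : 0 < κ) (hδ : 0 < δ) (hM : 0 ≤ M) (hω0 : 0 ≤ ω)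
    (hβγ : 0 ≤ β * γ) (hκ' : L ^ 2 * (β * γ) ≤ 1 - κ) (hβ : |β| ≤ M) (hγ : |γ| ≤ M)
    (hd : ∀ q ∈ W, DifferentiableAt ℝ V q) (hω : ∀ q ∈ W, ‖fderiv ℝ V q - A‖ ≤ ω)
    (hτ : L * ω * (Real.sqrt 2 * (1 + L * M) / κ) ≤ τ)
    (p : E2) (hp : Metric.closedBall p (Real.sqrt 2 * (1 + L * M) / κ * δ) ⊆ W)
    (s : ℝ) (hs : |s| ≤ L) :
    ∃ (i j : ℤ) (μ₁ μ₂ : ℝ), -τ ≤ μ₁ ∧ μ₁ ≤ 1 + τ ∧ -τ ≤ μ₂ ∧ μ₂ ≤ 1 + τ ∧
      ‖p - (p₀ + (δ * i) • f₁ + (δ * j) • f₂)‖ ≤ Real.sqrt 2 * (1 + L * M) / κ * δ ∧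
      p + s • V p = (p₀ + (δ * i) • f₁ + (δ * j) • f₂) +
        s • V (p₀ + (δ * i) • f₁ + (δ * j) • f₂) + (δ * μ₁) • f₁ + (δ * μ₂) • f₂ := by
  set B : ℝ := (1 + L * M) / κ with hB
  have hLM : 0 ≤ L * M := mul_nonneg hL.le hM
  have hB0 : 0 ≤ B := div_nonneg (by linarith) hκ.le
  have hC : Real.sqrt 2 * (1 + L * M) / κ = Real.sqrt 2 * B := by rw [hB]; ring
  rw [hC] at hτ hp ⊢
  set C₁ : ℝ := Real.sqrt 2 * B with hC₁
  have hC₁0 : 0 ≤ C₁ := mul_nonneg (Real.sqrt_nonneg _) hB0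
  set θ₁ : ℝ := inner ℝ f₁ (p - p₀) / δ with hθ₁
  set θ₂ : ℝ := inner ℝ f₂ (p - p₀) / δ with hθ₂
  have hs2 : s ^ 2 ≤ L ^ 2 := sq_le_sq' (by linarith [(abs_le.mp hs).1]) (abs_le.mp hs).2
  have ht0 : 0 ≤ (s * β) * (s * γ) := by
    have : (s * β) * (s * γ) = s ^ 2 * (β * γ) := by ring
    rw [this]; exact mul_nonneg (sq_nonneg s) hβγ
  have ht1 : (s * β) * (s * γ) ≤ 1 - κ := by
    have : (s * β) * (s * γ) = s ^ 2 * (β * γ) := by ring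
    rw [this]
    exact le_trans (mul_le_mul_of_nonneg_right hs2 hβγ) hκ'
  obtain ⟨i, j, a1, a2, a3, a4⟩ := lattice_cover (s * β) (s * γ) θ₁ θ₂ ht0 (by linarith)
  set x : ℝ := θ₁ - i with hx
  set y : ℝ := θ₂ - j with hy
  set c : E2 := p₀ + (δ * i) • f₁ + (δ * j) • f₂ with hc
  have hsβ : |s * β| ≤ L * M := by
    rw [abs_mul]; exact mul_le_mul hs hβ (abs_nonneg _) hL.le
  have hsγ : |s * γ| ≤ L * M := by
    rw [abs_mul]; exact mul_le_mul hs hγ (abs_nonneg _) hL.le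
  have hxB : |x| ≤ B := solve_bound x y (s * β) (s * γ) κ (L * M) hκ hLM ht1 hsβ a1 a2 a3 a4
  have hyB : |y| ≤ B := solve_bound y x (s * γ) (s * β) κ (L * M) hκ hLM (by linarith [mul_comm (s*β) (s*γ)])
    hsγ a3 a4 a1 a2
  have hq : p - c = (δ * x) • f₁ + (δ * y) • f₂ := by
    have h1 := frame_decomp f₁ f₂ hf₁ hf₂ hf (p - p₀)
    have e1 : inner ℝ f₁ (p - p₀) = δ * θ₁ := by rw [hθ₁]; field_simp
    have e2 : inner ℝ f₂ (p - p₀) = δ * θ₂ := by rw [hθ₂]; field_simp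
    rw [e1, e2] at h1
    have : p - c = (p - p₀) - (δ * i) • f₁ - (δ * j) • f₂ := by rw [hc]; abel
    rw [this, h1, hx, hy]
    module
  have hqn : ‖p - c‖ ≤ C₁ * δ := by
    have h1 : ‖p - c‖ ^ 2 = (δ * x) ^ 2 + (δ * y) ^ 2 := by
      rw [hq]; exact frame_norm_sq f₁ f₂ hf₁ hf₂ hf _ _
    have hx2 : x ^ 2 ≤ B ^ 2 := sq_le_sq' (by linarith [(abs_le.mp hxB).1]) (abs_le.mp hxB).2
    have hy2 : y ^ 2 ≤ B ^ 2 := sq_le_sq' (by linarith [(abs_le.mp hyB).1]) (abs_le.mp hyB).2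
    have h2 : ‖p - c‖ ^ 2 ≤ (C₁ * δ) ^ 2 := by
      have e2 : (C₁ * δ) ^ 2 = 2 * B ^ 2 * δ ^ 2 := by
        rw [hC₁, mul_pow, mul_pow, Real.sq_sqrt (by norm_num : (0:ℝ) ≤ 2)]
      rw [h1, e2]
      have : 0 ≤ δ ^ 2 := sq_nonneg δ
      nlinarith
    exact (pow_le_pow_iff_left₀ (norm_nonneg _) (mul_nonneg hC₁0 hδ.le) (by norm_num)).mp h2
  have hpW : p ∈ W := hp (Metric.mem_closedBall_self (mul_nonneg hC₁0 hδ.le))
  have hcW : c ∈ W := hp (by rw [Metric.mem_closedBall, dist_comm, dist_eq_norm]; exact hqn)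
  set err : E2 := V p - V c - A (p - c) with herr
  have herrn : ‖err‖ ≤ ω * ‖p - c‖ := hW.norm_image_sub_le_of_norm_fderiv_le' hd hω hcW hpW
  have herrn' : ‖s • err‖ ≤ τ * δ := by
    rw [norm_smul, Real.norm_eq_abs]
    calc |s| * ‖err‖ ≤ L * (ω * (C₁ * δ)) :=
          mul_le_mul hs (herrn.trans (mul_le_mul_of_nonneg_left hqn hω0)) (norm_nonneg _) hL.le
      _ = (L * ω * C₁) * δ := by ring
      _ ≤ τ * δ := mul_le_mul_of_nonneg_right hτ hδ.le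
  set E₁ : ℝ := inner ℝ f₁ (s • err) with hE₁
  set E₂ : ℝ := inner ℝ f₂ (s • err) with hE₂
  have hE₁b : |E₁| ≤ τ * δ := by
    have := abs_real_inner_le_norm f₁ (s • err)
    rw [hf₁, one_mul] at this
    exact this.trans herrn'
  have hE₂b : |E₂| ≤ τ * δ := by
    have := abs_real_inner_le_norm f₂ (s • err)
    rw [hf₂, one_mul] at this
    exact this.trans herrn'
  have hdiv : ∀ E : ℝ, |E| ≤ τ * δ → -τ ≤ E / δ ∧ E / δ ≤ τ := by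
    intro E hE
    constructor
    · rw [le_div_iff₀ hδ]; linarith [(abs_le.mp hE).1]
    · rw [div_le_iff₀ hδ]; exact (abs_le.mp hE).2
  refine ⟨i, j, (x + s * β * y) + E₁ / δ, (y + s * γ * x) + E₂ / δ, ?_, ?_, ?_, ?_, hqn, ?_⟩
  · linarith [(hdiv E₁ hE₁b).1]
  · linarith [(hdiv E₁ hE₁b).2]
  · linarith [(hdiv E₂ hE₂b).1]
  · linarith [(hdiv E₂ hE₂b).2]
  · have hdec := frame_decomp f₁ f₂ hf₁ hf₂ hf (s • err)
    rw [← hE₁, ← hE₂] at hdec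
    have hVp : V p = V c + A (p - c) + err := by rw [herr]; abel
    have hAq : A (p - c) = (δ * x * γ) • f₂ + (δ * y * β) • f₁ := by
      rw [hq, map_add, map_smul, map_smul, hA₁, hA₂, smul_smul, smul_smul]
    have hp' : p = c + ((δ * x) • f₁ + (δ * y) • f₂) := by rw [← hq]; abel
    have m1 : δ * ((x + s * β * y) + E₁ / δ) = δ * x + s * (δ * y * β) + E₁ := by field_simp
    have m2 : δ * ((y + s * γ * x) + E₂ / δ) = δ * y + s * (δ * x * γ) + E₂ := by field_simp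
    rw [m1, m2, hVp, hAq, smul_add, smul_add, hdec]
    conv_lhs => rw [hp']
    module

end Crest.Agent.R211
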