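import Crest.Agent.R211.Defs

/-!
Row 211, tasks T4A.1 and T4A.2 (helper28): staircase lattice covering and the zero-diagonal frame
of a trace-free operator of the plane.
-/

open MeasureTheory

namespace Crest.Agent.R211

/-- T4A.1  Staircase covering: unit squares placed at the points of the lattice generated by
`(1, t₂)` and `(t₁, 1)` cover the plane as soon as `0 ≤ t₁ t₂ < 1`. -/
theorem lattice_coverA (t₁ t₂ θ₁ θ₂ : ℝ) (h0 : 0 ≤ t₁ * t₂) (h1 : t₁ * t₂ < 1) :
    ∃ i j : ℤ, 0 ≤ (θ₁ - i) + t₁ * (θ₂ - j) ∧ (θ₁ - i) + t₁ * (θ₂ - j) ≤ 1 ∧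
      0 ≤ (θ₂ - j) + t₂ * (θ₁ - i) ∧ (θ₂ - j) + t₂ * (θ₁ - i) ≤ 1 := by
  set a : ℝ := θ₁ + t₁ * θ₂ with ha
  set b : ℝ := θ₂ + t₂ * θ₁ with hb
  set D : ℝ := 1 - t₁ * t₂ with hD
  have hDpos : 0 < D := by rw [hD]; linarith
  set c : ℝ := b - t₂ * a with hc
  let f : ℤ → ℤ := fun j => ⌊a - t₁ * j⌋
  let ψ : ℤ → ℝ := fun j => b - j - t₂ * (f j)
  have hf1 : ∀ j : ℤ, (f j : ℝ) ≤ a - t₁ * j := fun j => Int.floor_le _
  have hf2 : ∀ j : ℤ, a - t₁ * j < (f j : ℝ) + 1 := fun j => Int.lt_floor_add_one _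
  -- two-sided estimate of ψ
  have hdev : ∀ j : ℤ, |t₂ * (f j) - t₂ * (a - t₁ * j)| ≤ |t₂| := by
    intro j
    rw [← mul_sub, abs_mul]
    have : |(f j : ℝ) - (a - t₁ * j)| ≤ 1 := by
      rw [abs_le]; constructor <;> linarith [hf1 j, hf2 j]
    calc |t₂| * |(f j : ℝ) - (a - t₁ * j)| ≤ |t₂| * 1 :=
          mul_le_mul_of_nonneg_left this (abs_nonneg _)
      _ = |t₂| := mul_one _
  have hψlo : ∀ j : ℤ, c - D * j - |t₂| ≤ ψ j := by
    intro j
    have := (abs_le.mp (hdev j)).2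
    simp only [ψ, hc, hD]
    nlinarith
  have hψhi : ∀ j : ℤ, ψ j ≤ c - D * j + |t₂| := by
    intro j
    have := (abs_le.mp (hdev j)).1
    simp only [ψ, hc, hD]
    nlinarith
  -- steps are at least -1
  have hstep : ∀ j : ℤ, ψ j - 1 ≤ ψ (j + 1) := by
    intro j
    have key : t₂ * ((f (j + 1) : ℝ) - (f j : ℝ)) ≤ 0 := by
      rcases lt_trichotomy t₁ 0 with ht | ht | ht
      · have ht2 : t₂ ≤ 0 := by
          by_contra hcon
          rw [not_le] at hcon
          have := mul_neg_of_neg_of_pos ht hcon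
          linarith
        have hmono : f j ≤ f (j + 1) := by
          apply Int.floor_le_floor
          push_cast
          nlinarith
        have : (0 : ℝ) ≤ (f (j + 1) : ℝ) - (f j : ℝ) := by
          have : (f j : ℝ) ≤ (f (j + 1) : ℝ) := by exact_mod_cast hmono
          linarith
        exact mul_nonpos_of_nonpos_of_nonneg ht2 this
      · have : f (j + 1) = f j := by
          simp only [f, ht, zero_mul]
        rw [this]; simp
      · have ht2 : 0 ≤ t₂ := by
          by_contra hcon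
          rw [not_le] at hcon
          have := mul_neg_of_pos_of_neg ht hcon
          linarith
        have hmono : f (j + 1) ≤ f j := by
          apply Int.floor_le_floor
          push_cast
          nlinarith
        have : (f (j + 1) : ℝ) - (f j : ℝ) ≤ 0 := by
          have : (f (j + 1) : ℝ) ≤ (f j : ℝ) := by exact_mod_cast hmono
          linarith
        exact mul_nonpos_of_nonneg_of_nonpos ht2 this
    simp only [ψ]
    push_cast
    nlinarith
  -- greatest j with ψ j ≥ 0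
  obtain ⟨j, hj0, hjmax⟩ := Int.exists_greatest_of_bdd (P := fun j : ℤ => 0 ≤ ψ j)
    ⟨⌈(c + |t₂|) / D⌉, by
      intro z hz
      have h2 := hψhi z
      have h3 : (z : ℝ) ≤ (c + |t₂|) / D := by
        rw [le_div_iff₀ hDpos]
        have hz' : 0 ≤ ψ z := hz
        nlinarith
      exact_mod_cast h3.trans (Int.le_ceil _)⟩
    ⟨⌊(c - |t₂|) / D⌋, by
      have h2 := hψlo ⌊(c - |t₂|) / D⌋
      have h3 : ((⌊(c - |t₂|) / D⌋ : ℤ) : ℝ) ≤ (c - |t₂|) / D := Int.floor_le _
      rw [le_div_iff₀ hDpos] at h3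
      show 0 ≤ ψ _
      nlinarith⟩
  have hj1 : ψ (j + 1) < 0 := by
    by_contra hcon
    rw [not_lt] at hcon
    have := hjmax (j + 1) hcon
    omega
  have hj2 := hstep j
  refine ⟨f j, j, ?_, ?_, ?_, ?_⟩
  · have := hf1 j
    simp only [ha] at this
    nlinarith
  · have := hf2 j
    simp only [ha] at this
    nlinarith
  · have : 0 ≤ ψ j := hj0
    simp only [ψ, hb] at this
    nlinarith
  · have : ψ j ≤ 1 := by linarith
    simp only [ψ, hb] at this
    nlinarith


theorem trace_det_coords (A : E2 →L[ℝ] E2) :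
    LinearMap.trace ℝ _ A.toLinearMap =
        (A (EuclideanSpace.single 0 1)) 0 + (A (EuclideanSpace.single 1 1)) 1 ∧
    LinearMap.det A.toLinearMap =
        (A (EuclideanSpace.single 0 1)) 0 * (A (EuclideanSpace.single 1 1)) 1 -
        (A (EuclideanSpace.single 1 1)) 0 * (A (EuclideanSpace.single 0 1)) 1 := by
  constructor
  · rw [LinearMap.trace_eq_matrix_trace ℝ (EuclideanSpace.basisFun (Fin 2) ℝ).toBasis,
      Matrix.trace_fin_two]
    simp [LinearMap.toMatrix_apply]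
  · rw [← LinearMap.det_toMatrix (EuclideanSpace.basisFun (Fin 2) ℝ).toBasis, Matrix.det_fin_two]
    simp [LinearMap.toMatrix_apply]

/-- a unit vector `(c, s)` on which the trace-free quadratic form vanishes -/
theorem exists_cs (p m : ℝ) : ∃ c s : ℝ, c ^ 2 + s ^ 2 = 1 ∧ p * (c ^ 2 - s ^ 2) + m * (c * s) = 0 := by
  let g : ℝ → ℝ := fun φ => p * (Real.cos φ ^ 2 - Real.sin φ ^ 2) + m * (Real.cos φ * Real.sin φ)
  have hg : Continuous g := by fun_prop
  have h0 : g 0 = p := by simp [g]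
  have h1 : g (Real.pi / 2) = -p := by simp [g]
  have hmem : (0 : ℝ) ∈ Set.uIcc (g 0) (g (Real.pi / 2)) := by
    rw [h0, h1, Set.mem_uIcc]
    rcases le_total 0 p with hp | hp
    · right; constructor <;> linarith
    · left; constructor <;> linarith
  obtain ⟨φ, -, hφ⟩ := intermediate_value_uIcc (a := 0) (b := Real.pi / 2) hg.continuousOn hmem
  exact ⟨Real.cos φ, Real.sin φ, Real.cos_sq_add_sin_sq φ, hφ⟩

theorem apply_coords (A : E2 →L[ℝ] E2) (x y : ℝ) :
    A !₂[x, y] = x • A (EuclideanSpace.single 0 1) + y • A (EuclideanSpace.single 1 1) := by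
  have : (!₂[x, y] : E2) = x • EuclideanSpace.single 0 1 + y • EuclideanSpace.single 1 1 := by
    ext i; fin_cases i <;> simp
  rw [this, map_add, map_smul, map_smul]

theorem exists_frameA (A : E2 →L[ℝ] E2) (htr : LinearMap.trace ℝ _ A.toLinearMap = 0) :
    ∃ (f₁ f₂ : E2) (β γ : ℝ), ‖f₁‖ = 1 ∧ ‖f₂‖ = 1 ∧ inner ℝ f₁ f₂ = 0 ∧
      A f₁ = γ • f₂ ∧ A f₂ = β • f₁ ∧ LinearMap.det A.toLinearMap = -(β * γ) ∧
      |β| ≤ ‖A‖ ∧ |γ| ≤ ‖A‖ := by
  obtain ⟨htr', hdet'⟩ := trace_det_coords A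
  rw [htr'] at htr
  set u := A (EuclideanSpace.single 0 1) with hu
  set v := A (EuclideanSpace.single 1 1) with hv
  obtain ⟨c, s, hcs, hg⟩ := exists_cs (u 0) (v 0 + u 1)
  have hv1 : v 1 = - u 0 := by linarith
  have hn1 : ‖(!₂[c, s] : E2)‖ = 1 := by
    rw [EuclideanSpace.norm_eq, Real.sqrt_eq_one]
    simp [Fin.sum_univ_two, hcs]
  have hn2 : ‖(!₂[-s, c] : E2)‖ = 1 := by
    rw [EuclideanSpace.norm_eq, Real.sqrt_eq_one]
    simp [Fin.sum_univ_two]
    linarith
  have hA1 : A !₂[c, s] = (-2 * u 0 * c * s - v 0 * s ^ 2 + u 1 * c ^ 2) • (!₂[-s, c] : E2) := by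
    rw [apply_coords]
    ext i; fin_cases i
    · simp
      linear_combination (-(c * u 0 + s * v 0)) * hcs + c * hg
    · simp
      linear_combination (-(c * u 1 - s * u 0)) * hcs + s * hg + s * hv1
  have hA2 : A !₂[-s, c] = (-2 * u 0 * c * s + v 0 * c ^ 2 - u 1 * s ^ 2) • (!₂[c, s] : E2) := by
    rw [apply_coords]
    ext i; fin_cases i
    · simp
      linear_combination (-(-(s * u 0) + c * v 0)) * hcs + s * hg
    · simp
      linear_combination (-(-(s * u 1) - c * u 0)) * hcs - c * hg + c * hv1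
  refine ⟨!₂[c, s], !₂[-s, c], _, _, hn1, hn2, ?_, hA1, hA2, ?_, ?_, ?_⟩
  · simp [PiLp.inner_apply, Fin.sum_univ_two]; ring
  · rw [hdet']
    linear_combination (u 0 ^ 2 + v 0 * u 1) * (c ^ 2 + s ^ 2 + 1) * hcs
      - (u 0 * (c ^ 2 - s ^ 2) + (v 0 + u 1) * (c * s)) * hg + u 0 * hv1
  · have h := A.le_opNorm !₂[-s, c]
    rw [hA2, norm_smul, hn1, hn2, mul_one, mul_one, Real.norm_eq_abs] at h
    exact h
  · have h := A.le_opNorm !₂[c, s]
    rw [hA1, norm_smul, hn1, hn2, mul_one, mul_one, Real.norm_eq_abs] at h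
    exact h

end Crest.Agent.R211
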