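import Crest.Agent.R211.AreaA

/-!
Row 211, task T7: relatively open, bounded bases slightly larger than a compact base.
Used by S0327 (part 2) and S0329.
-/

open MeasureTheory

namespace Crest.Agent.R211

/-- T7. A compact subset `T` of the plane `u^⊥` is contained in a bounded relatively open subset
of that plane whose area exceeds the area of `T` by at most `η`. -/
theorem exists_open_base (u : E3) (hu : ‖u‖ = 1) (T : Set E3) (hT : IsCompact T)
    (hTu : ∀ x ∈ T, inner ℝ x u = 0) (η : ℝ) (hη : 0 < η) :
    ∃ B : Set E3, Bornology.IsBounded B ∧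
      (∃ O : Set E3, IsOpen O ∧ B = O ∩ {x | inner ℝ x u = 0}) ∧ T ⊆ B ∧
      μHE[2] B ≤ μHE[2] T + ENNReal.ofReal η := by
  obtain ⟨U, hU⟩ := exists_planeIso u hu
  set T' : Set E2 := U ⁻¹' T with hT'
  have hTim : T = U '' T' := by
    rw [hT', Set.image_preimage_eq_inter_range, hU]
    exact (Set.inter_eq_left.mpr hTu).symm
  have hT'c : IsCompact T' :=
    U.isometry.isClosedEmbedding.isCompact_preimage hT
  have htend := tendsto_measure_cthickening_of_isCompact (μ := (volume : Measure E2)) hT'c
  have hlt : volume T' < volume T' + ENNReal.ofReal η :=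
    ENNReal.lt_add_right hT'c.measure_lt_top.ne (by simpa using hη)
  have hev := (tendsto_order.1 htend).2 _ hlt
  obtain ⟨ε, hε, hball⟩ := Metric.eventually_nhds_iff.1 hev
  set τ : ℝ := ε / 2 with hτ
  have hτ0 : 0 < τ := by positivity
  have hτm : volume (Metric.cthickening τ T') < volume T' + ENNReal.ofReal η := by
    apply hball
    rw [Real.dist_eq, sub_zero, abs_of_pos hτ0]
    linarith
  refine ⟨Metric.thickening τ T ∩ {x | inner ℝ x u = 0}, ?_, ⟨_, Metric.isOpen_thickening, rfl⟩,
    ?_, ?_⟩
  · exact (hT.isBounded.thickening).subset Set.inter_subset_left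
  · intro x hx
    exact ⟨Metric.self_subset_thickening hτ0 T hx, hTu x hx⟩
  · have hsub : Metric.thickening τ T ∩ {x | inner ℝ x u = 0} ⊆ U '' Metric.cthickening τ T' := by
      rintro x ⟨hx1, hx2⟩
      have hxr : x ∈ Set.range U := by rw [hU]; exact hx2
      obtain ⟨x', rfl⟩ := hxr
      obtain ⟨y, hy, hd⟩ := Metric.mem_thickening_iff.1 hx1
      rw [hTim] at hy
      obtain ⟨y', hy', rfl⟩ := hy
      refine ⟨x', ?_, rfl⟩
      apply Metric.thickening_subset_cthickening
      rw [Metric.mem_thickening_iff]
      exact ⟨y', hy', by rwa [U.isometry.dist_eq] at hd⟩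
    calc μHE[2] (Metric.thickening τ T ∩ {x | inner ℝ x u = 0})
        ≤ μHE[2] (U '' Metric.cthickening τ T') := measure_mono hsub
      _ = volume (Metric.cthickening τ T') := area_image_planeIso U _
      _ ≤ volume T' + ENNReal.ofReal η := hτm.le
      _ = μHE[2] T + ENNReal.ofReal η := by
          conv_rhs => rw [hTim, area_image_planeIso]

end Crest.Agent.R211
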