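import Crest.Agent.R211.AreaA

/-!
Row 211, task T4B: measure-theoretic ingredients of S0326 (volumes of cells, packing bound).
-/

open MeasureTheory

namespace Crest.Agent.R211

/-- Half-open axis-parallel square cell with lower-left corner `(x₀, y₀)` and side `r`. -/
def cell (x₀ y₀ r : ℝ) : Set E2 := {q : E2 | x₀ ≤ q 0 ∧ q 0 < x₀ + r ∧ y₀ ≤ q 1 ∧ q 1 < y₀ + r}

theorem T4B_cell_eq (x₀ y₀ r : ℝ) :
    cell x₀ y₀ r = (fun x : E2 => (x 0, x 1)) ⁻¹' (Set.Ico x₀ (x₀ + r) ×ˢ Set.Ico y₀ (y₀ + r)) := by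
  ext x; simp [cell]; tauto

/-- T4B.0a -/
theorem measurableSet_cell (x₀ y₀ r : ℝ) : MeasurableSet (cell x₀ y₀ r) := by
  rw [T4B_cell_eq]
  exact T1A_mp_E2.measurable (measurableSet_Ico.prod measurableSet_Ico)

/-- T4B.0b -/
theorem volume_cell (x₀ y₀ r : ℝ) (hr : 0 ≤ r) :
    volume (cell x₀ y₀ r) = ENNReal.ofReal (r ^ 2) := by
  rw [T4B_cell_eq, T1A_mp_E2.measure_preimage (measurableSet_Ico.prod measurableSet_Ico).nullMeasurableSet,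
    Measure.volume_eq_prod, Measure.prod_prod]
  simp only [Real.volume_Ico, add_sub_cancel_left]
  rw [← ENNReal.ofReal_mul hr, sq]

theorem T4B_inner₁ (f₁ f₂ : E2) (hf₁ : ‖f₁‖ = 1) (hf : inner ℝ f₁ f₂ = 0) (a b : ℝ) :
    inner ℝ (a • f₁ + b • f₂) f₁ = a := by
  rw [inner_add_left, inner_smul_left, inner_smul_left, real_inner_self_eq_norm_sq, hf₁,
    real_inner_comm, hf]
  simp

theorem T4B_inner₂ (f₁ f₂ : E2) (hf₂ : ‖f₂‖ = 1) (hf : inner ℝ f₁ f₂ = 0) (a b : ℝ) :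
    inner ℝ (a • f₁ + b • f₂) f₂ = b := by
  rw [inner_add_left, inner_smul_left, inner_smul_left, real_inner_self_eq_norm_sq, hf₂, hf]
  simp

/-- T4B.1  Only finitely many fine lattice points lie in a bounded set. -/
theorem lattice_finite (p₀ f₁ f₂ : E2) (hf₁ : ‖f₁‖ = 1) (hf₂ : ‖f₂‖ = 1)
    (hf : inner ℝ f₁ f₂ = 0) (δ : ℝ) (hδ : 0 < δ) (S : Set E2) (hS : Bornology.IsBounded S) :
    {ij : ℤ × ℤ | p₀ + (δ * ij.1) • f₁ + (δ * ij.2) • f₂ ∈ S}.Finite := by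
  obtain ⟨M, hM⟩ := hS.subset_closedBall p₀
  refine (Set.finite_Icc ((-⌈M / δ⌉, -⌈M / δ⌉) : ℤ × ℤ) (⌈M / δ⌉, ⌈M / δ⌉)).subset ?_
  rintro ⟨i, j⟩ hij
  have h1 := hM hij
  simp only [Metric.mem_closedBall, dist_eq_norm] at h1
  have h2 : p₀ + (δ * (i : ℝ)) • f₁ + (δ * (j : ℝ)) • f₂ - p₀ = (δ * (i : ℝ)) • f₁ + (δ * (j : ℝ)) • f₂ := by
    abel
  rw [h2] at h1
  have key : ∀ k : ℤ, |δ * (k : ℝ)| ≤ M → -⌈M / δ⌉ ≤ k ∧ k ≤ ⌈M / δ⌉ := by
    intro k hk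
    rw [abs_mul, abs_of_pos hδ] at hk
    have hk' : |(k : ℝ)| ≤ M / δ := by
      rw [le_div_iff₀ hδ]; linarith
    have hk'' : |(k : ℝ)| ≤ (⌈M / δ⌉ : ℝ) := hk'.trans (Int.le_ceil _)
    have := abs_le.mp hk''
    constructor
    · have h := this.1
      exact_mod_cast h
    · have h := this.2
      exact_mod_cast h
  have hi : |δ * (i : ℝ)| ≤ M := by
    have := abs_real_inner_le_norm ((δ * (i : ℝ)) • f₁ + (δ * (j : ℝ)) • f₂) f₁
    rw [T4B_inner₁ f₁ f₂ hf₁ hf, hf₁, mul_one] at this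
    exact this.trans h1
  have hj : |δ * (j : ℝ)| ≤ M := by
    have := abs_real_inner_le_norm ((δ * (i : ℝ)) • f₁ + (δ * (j : ℝ)) • f₂) f₂
    rw [T4B_inner₂ f₁ f₂ hf₂ hf, hf₂, mul_one] at this
    exact this.trans h1
  exact ⟨⟨(key i hi).1, (key j hj).1⟩, ⟨(key i hi).2, (key j hj).2⟩⟩

theorem T4B_abs_det2 (f₁ f₂ : E2) (hf₁ : ‖f₁‖ = 1) (hf₂ : ‖f₂‖ = 1)
    (hf : inner ℝ f₁ f₂ = 0) : |det2 f₁ f₂| = 1 := by
  have h1 : f₁ 0 ^ 2 + f₁ 1 ^ 2 = 1 := by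
    have := EuclideanSpace.norm_sq_eq f₁
    rw [hf₁, Fin.sum_univ_two] at this
    simpa using this.symm
  have h2 : f₂ 0 ^ 2 + f₂ 1 ^ 2 = 1 := by
    have := EuclideanSpace.norm_sq_eq f₂
    rw [hf₂, Fin.sum_univ_two] at this
    simpa using this.symm
  have h3 : f₁ 0 * f₂ 0 + f₁ 1 * f₂ 1 = 0 := by
    have := hf
    rw [PiLp.inner_apply, Fin.sum_univ_two] at this
    simp at this
    linarith
  have h4 : det2 f₁ f₂ ^ 2 = 1 := by
    unfold det2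
    nlinarith [h1, h2, h3]
  exact (pow_eq_one_iff_of_nonneg (abs_nonneg _) two_ne_zero).mp (by rw [sq_abs]; exact h4)

theorem T4B_abs_coord_le (f : E2) (hf : ‖f‖ = 1) (k : Fin 2) : |f k| ≤ 1 := by
  have := PiLp.norm_apply_le f k
  rwa [hf, Real.norm_eq_abs] at this

/-- bound for a coordinate of the offset inside a fine cell -/
theorem T4B_offset (a b δ x y : ℝ) (hδ : 0 < δ) (ha0 : 0 ≤ a) (ha1 : a < 1) (hb0 : 0 ≤ b)
    (hb1 : b < 1) (hx : |x| ≤ 1) (hy : |y| ≤ 1) :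
    -(2 * δ) < a * (δ * x) + b * (δ * y) ∧ a * (δ * x) + b * (δ * y) < 2 * δ := by
  obtain ⟨hx1, hx2⟩ := abs_le.mp hx
  obtain ⟨hy1, hy2⟩ := abs_le.mp hy
  have h1 : a * (δ * x) ≤ a * δ := by
    have : δ * x ≤ δ := by nlinarith
    nlinarith
  have h2 : -(a * δ) ≤ a * (δ * x) := by
    have : -δ ≤ δ * x := by nlinarith
    nlinarith
  have h3 : b * (δ * y) ≤ b * δ := by
    have : δ * y ≤ δ := by nlinarith
    nlinarith
  have h4 : -(b * δ) ≤ b * (δ * y) := by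
    have : -δ ≤ δ * y := by nlinarith
    nlinarith
  have h5 : a * δ < δ := by nlinarith
  have h6 : b * δ < δ := by nlinarith
  constructor <;> linarith

/-- T4B.2  Packing bound: the fine lattice points lying in an axis-parallel square of side `ℓ`
number at most `(ℓ + 4 δ)² / δ²`. -/
theorem packing (p₀ f₁ f₂ : E2) (hf₁ : ‖f₁‖ = 1) (hf₂ : ‖f₂‖ = 1)
    (hf : inner ℝ f₁ f₂ = 0) (δ : ℝ) (hδ : 0 < δ) (x₀ y₀ ℓ : ℝ) (hℓ : 0 ≤ ℓ)
    (I : Finset (ℤ × ℤ))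
    (hI : ∀ ij ∈ I, x₀ ≤ (p₀ + (δ * ij.1) • f₁ + (δ * ij.2) • f₂) 0 ∧
      (p₀ + (δ * ij.1) • f₁ + (δ * ij.2) • f₂) 0 ≤ x₀ + ℓ ∧
      y₀ ≤ (p₀ + (δ * ij.1) • f₁ + (δ * ij.2) • f₂) 1 ∧
      (p₀ + (δ * ij.1) • f₁ + (δ * ij.2) • f₂) 1 ≤ y₀ + ℓ) :
    (I.card : ℝ) * δ ^ 2 ≤ (ℓ + 4 * δ) ^ 2 := by
  set G : E2 → E2 := fun x => p₀ + T1A_Lab (δ • f₁) (δ • f₂) x with hG
  have hGapp : ∀ x, G x = p₀ + ((δ * x 0) • f₁ + (δ * x 1) • f₂) := by
    intro x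
    simp only [hG, T1A_Lab, LinearMap.coe_mk, AddHom.coe_mk, smul_smul, mul_comm δ]
  have hG1 : ∀ x, inner ℝ (G x - p₀) f₁ = δ * x 0 := by
    intro x
    rw [hGapp, add_sub_cancel_left, T4B_inner₁ f₁ f₂ hf₁ hf]
  have hG2 : ∀ x, inner ℝ (G x - p₀) f₂ = δ * x 1 := by
    intro x
    rw [hGapp, add_sub_cancel_left, T4B_inner₂ f₁ f₂ hf₂ hf]
  have hinj : Function.Injective G := by
    intro x y hxy
    have h1 := hG1 x
    have h2 := hG2 x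
    rw [hxy, hG1] at h1
    rw [hxy, hG2] at h2
    have h1' := mul_left_cancel₀ hδ.ne' h1
    have h2' := mul_left_cancel₀ hδ.ne' h2
    ext k
    fin_cases k
    · exact h1'.symm
    · exact h2'.symm
  have hcont : Continuous G := by
    have : Continuous (T1A_Lab (δ • f₁) (δ • f₂)) := LinearMap.continuous_of_finiteDimensional _
    exact continuous_const.add this
  set S : ℤ × ℤ → Set E2 := fun ij => G '' cell ij.1 ij.2 1 with hS
  have hSmeas : ∀ ij, MeasurableSet (S ij) := fun ij =>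
    (hcont.measurableEmbedding hinj).measurableSet_image.mpr (measurableSet_cell _ _ _)
  have hSvol : ∀ ij, volume (S ij) = ENNReal.ofReal (δ ^ 2) := by
    intro ij
    have hd : |det2 (δ • f₁) (δ • f₂)| = δ ^ 2 := by
      have : det2 (δ • f₁) (δ • f₂) = δ ^ 2 * det2 f₁ f₂ := by
        simp only [det2, PiLp.smul_apply, smul_eq_mul]; ring
      rw [this, abs_mul, T4B_abs_det2 f₁ f₂ hf₁ hf₂ hf, mul_one, abs_of_nonneg (by positivity)]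
    rw [hS]
    simp only [hG]
    rw [T1A_volume_affine_image, volume_cell _ _ _ zero_le_one, hd]
    simp
  have hSdisj : (I : Set (ℤ × ℤ)).PairwiseDisjoint S := by
    intro ij _ ij' _ hne
    rw [Function.onFun, Set.disjoint_left]
    rintro _ ⟨x, hx, rfl⟩ ⟨y, hy, hxy⟩
    have hyx : y = x := hinj hxy
    subst hyx
    apply hne
    obtain ⟨a1, a2, a3, a4⟩ := hx
    obtain ⟨b1, b2, b3, b4⟩ := hy
    have e1 : ij.1 = ij'.1 := by
      have h1 : ⌊y 0⌋ = ij.1 := Int.floor_eq_iff.mpr ⟨a1, a2⟩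
      have h2 : ⌊y 0⌋ = ij'.1 := Int.floor_eq_iff.mpr ⟨b1, b2⟩
      rw [← h1, h2]
    have e2 : ij.2 = ij'.2 := by
      have h1 : ⌊y 1⌋ = ij.2 := Int.floor_eq_iff.mpr ⟨a3, a4⟩
      have h2 : ⌊y 1⌋ = ij'.2 := Int.floor_eq_iff.mpr ⟨b3, b4⟩
      rw [← h1, h2]
    exact Prod.ext e1 e2
  have hSsub : (⋃ ij ∈ I, S ij) ⊆ cell (x₀ - 2 * δ) (y₀ - 2 * δ) (ℓ + 4 * δ) := by
    refine Set.iUnion₂_subset fun ij hij => ?_
    rintro _ ⟨x, ⟨a1, a2, a3, a4⟩, rfl⟩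
    obtain ⟨c1, c2, c3, c4⟩ := hI ij hij
    have hk : ∀ k : Fin 2, G x k = (p₀ + (δ * ij.1) • f₁ + (δ * ij.2) • f₂) k +
        ((x 0 - ij.1) * (δ * f₁ k) + (x 1 - ij.2) * (δ * f₂ k)) := by
      intro k
      rw [hGapp]
      simp only [PiLp.add_apply, PiLp.smul_apply, smul_eq_mul]
      ring
    have o0 := T4B_offset (x 0 - ij.1) (x 1 - ij.2) δ (f₁ 0) (f₂ 0) hδ (by linarith) (by linarith)
      (by linarith) (by linarith) (T4B_abs_coord_le f₁ hf₁ 0) (T4B_abs_coord_le f₂ hf₂ 0)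
    have o1 := T4B_offset (x 0 - ij.1) (x 1 - ij.2) δ (f₁ 1) (f₂ 1) hδ (by linarith) (by linarith)
      (by linarith) (by linarith) (T4B_abs_coord_le f₁ hf₁ 1) (T4B_abs_coord_le f₂ hf₂ 1)
    refine ⟨?_, ?_, ?_, ?_⟩
    · rw [hk 0]; linarith [o0.1]
    · rw [hk 0]; linarith [o0.2]
    · rw [hk 1]; linarith [o1.1]
    · rw [hk 1]; linarith [o1.2]
  have hmain : ENNReal.ofReal ((I.card : ℝ) * δ ^ 2) ≤ ENNReal.ofReal ((ℓ + 4 * δ) ^ 2) := by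
    calc ENNReal.ofReal ((I.card : ℝ) * δ ^ 2) = ∑ ij ∈ I, volume (S ij) := by
          simp only [hSvol, Finset.sum_const, nsmul_eq_mul]
          rw [ENNReal.ofReal_mul (by positivity), ENNReal.ofReal_natCast]
      _ = volume (⋃ ij ∈ I, S ij) := (measure_biUnion_finset hSdisj fun ij _ => hSmeas ij).symm
      _ ≤ volume (cell (x₀ - 2 * δ) (y₀ - 2 * δ) (ℓ + 4 * δ)) := measure_mono hSsub
      _ = ENNReal.ofReal ((ℓ + 4 * δ) ^ 2) := volume_cell _ _ _ (by positivity)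
  exact (ENNReal.ofReal_le_ofReal_iff (by positivity)).mp hmain

end Crest.Agent.R211
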