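import Crest.Agent.R211.Perp

/-!
Row 211, task T3A (second part): padding a cover by perpendicular triangular cylinders to a
prescribed number of cylinders and a prescribed (larger) total area.
-/

open MeasureTheory

namespace Crest.Agent.R211

/-- The first coordinate vector. -/
noncomputable abbrev T3A_e0 : E3 := EuclideanSpace.single 0 1

theorem T3A_norm_e0 : ‖T3A_e0‖ = 1 := by simp [T3A_e0]

theorem T3A_area_zero :
    (μHE[2] (convexHull ℝ {(0 : E3), (0 : E3), (0 : E3)})).toReal = 0 := by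
  rw [area_triangle T3A_e0 0 0 0 T3A_norm_e0 (by simp) (by simp) (by simp)]
  simp [gram]

theorem T3A_area_spare (s : ℝ) (hs : 0 ≤ s) :
    (μHE[2] (convexHull ℝ {(0 : E3), (!₂[0, s, 0] : E3), (!₂[0, 0, 2] : E3)})).toReal = s := by
  rw [area_triangle T3A_e0 0 _ _ T3A_norm_e0 (by simp) (by simp [T3A_e0, PiLp.inner_apply])
    (by simp [T3A_e0, PiLp.inner_apply])]
  have hg : gram ((!₂[0, s, 0] : E3) - 0) ((!₂[0, 0, 2] : E3) - 0) = (2 * s) ^ 2 := by
    simp only [gram, sub_zero, EuclideanSpace.norm_sq_eq, PiLp.inner_apply, Fin.sum_univ_three]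
    simp
    ring
  rw [hg, Real.sqrt_sq (by positivity), ENNReal.toReal_ofReal (by positivity)]
  ring

/-- Padding lemma. -/
theorem T3A_pad (K : Set E3) (m n : ℕ) (hmn : m < n) (u p q r : Fin m → E3)
    (hu : ∀ i, ‖u i‖ = 1)
    (hperp : ∀ i, inner ℝ (p i) (u i) = 0 ∧ inner ℝ (q i) (u i) = 0 ∧ inner ℝ (r i) (u i) = 0)
    (hcov : K ⊆ ⋃ i, cyl (convexHull ℝ {p i, q i, r i}) (u i))
    (A : ℝ) (hA : ∑ i, (μHE[2] (convexHull ℝ {p i, q i, r i})).toReal ≤ A) :
    ∃ (u' p' q' r' : Fin n → E3), (∀ i, ‖u' i‖ = 1) ∧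
      (∀ i, inner ℝ (p' i) (u' i) = 0 ∧ inner ℝ (q' i) (u' i) = 0 ∧ inner ℝ (r' i) (u' i) = 0) ∧
      K ⊆ ⋃ i, cyl (convexHull ℝ {p' i, q' i, r' i}) (u' i) ∧
      ∑ i, (μHE[2] (convexHull ℝ {p' i, q' i, r' i})).toReal = A := by
  obtain ⟨k, rfl⟩ : ∃ k, n = m + (k + 1) := by
    obtain ⟨k, hk⟩ := Nat.exists_eq_add_of_lt hmn
    exact ⟨k, by omega⟩
  set s : ℝ := A - ∑ i, (μHE[2] (convexHull ℝ {p i, q i, r i})).toReal with hs
  have hs0 : 0 ≤ s := sub_nonneg.mpr hA
  refine ⟨Fin.append u (fun _ => T3A_e0), Fin.append p (fun _ => 0),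
    Fin.append q (Fin.cons (!₂[0, s, 0] : E3) (fun _ => 0)),
    Fin.append r (Fin.cons (!₂[0, 0, 2] : E3) (fun _ => 0)), ?_, ?_, ?_, ?_⟩
  · intro i
    refine Fin.addCases (fun i => ?_) (fun i => ?_) i
    · simpa using hu i
    · simp
  · intro i
    refine Fin.addCases (fun i => ?_) (fun i => ?_) i
    · simpa using hperp i
    · refine Fin.cases ?_ (fun i => ?_) i
      · simp [PiLp.inner_apply]
      · simp
  · refine hcov.trans (Set.iUnion_subset fun i => ?_)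
    refine Set.Subset.trans ?_ (Set.subset_iUnion _ (Fin.castAdd (k + 1) i))
    simp
  · rw [Fin.sum_univ_add, Fin.sum_univ_succ]
    simp only [Fin.append_left, Fin.append_right, Fin.cons_zero, Fin.cons_succ]
    rw [T3A_area_spare s hs0, T3A_area_zero]
    simp [hs]

end Crest.Agent.R211
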