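import Crest.Agent.R211.Area
import Crest.Agent.R211.Cover

/-!
Row 211, task T3A (first part): the twisted cover in the normal form of the statements
(unit axes, bases perpendicular to the axes, areas as `μHE[2]`).
-/

open MeasureTheory

namespace Crest.Agent.R211

/-- `proj u` as a linear map. -/
theorem T3A_isLinearMap_proj (u : E3) : IsLinearMap ℝ (proj u) where
  map_add x y := by
    simp only [proj, inner_add_left, add_smul]; abel
  map_smul c x := by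
    simp only [proj, inner_smul_left, smul_sub, smul_smul]; simp

theorem T3A_proj_sub (u x y : E3) : proj u x - proj u y = proj u (x - y) :=
  ((T3A_isLinearMap_proj u).map_sub x y).symm

theorem T3A_inner_proj (u y : E3) (hu : ‖u‖ = 1) : inner ℝ (proj u y) u = 0 := by
  simp [proj, inner_sub_left, inner_smul_left, hu]

theorem T3A_image_proj_hull3 (u P Q R : E3) :
    proj u '' convexHull ℝ {P, Q, R} = convexHull ℝ {proj u P, proj u Q, proj u R} := by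
  rw [(T3A_isLinearMap_proj u).image_convexHull]
  simp [Set.image_insert_eq]

theorem T3A_det3_smul (a b d : E3) (c : ℝ) : det3 a b (c • d) = c * det3 a b d := by
  simp only [det3, PiLp.smul_apply, smul_eq_mul]; ring

theorem T3A_cyl_subset (P Q R d : E3) (hd : d ≠ 0) :
    cyl (convexHull ℝ {P, Q, R}) d ⊆
      cyl (convexHull ℝ {proj (‖d‖⁻¹ • d) P, proj (‖d‖⁻¹ • d) Q, proj (‖d‖⁻¹ • d) R})
        (‖d‖⁻¹ • d) := by
  rintro x ⟨b, hb, t, rfl⟩
  refine ⟨proj (‖d‖⁻¹ • d) b, ?_, inner ℝ b (‖d‖⁻¹ • d) + t * ‖d‖, ?_⟩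
  · rw [← T3A_image_proj_hull3]
    exact ⟨b, hb, rfl⟩
  · have hn : ‖d‖ ≠ 0 := norm_ne_zero_iff.mpr hd
    simp only [proj, smul_smul]
    rw [add_mul, mul_assoc t, mul_inv_cancel₀ hn, mul_one, add_smul]
    abel

theorem T3A_area (P Q R d : E3) (hd : d ≠ 0) :
    (μHE[2] (convexHull ℝ {proj (‖d‖⁻¹ • d) P, proj (‖d‖⁻¹ • d) Q, proj (‖d‖⁻¹ • d) R})).toReal =
      |det3 (Q - P) (R - P) d| / (2 * ‖d‖) := by
  have hu : ‖‖d‖⁻¹ • d‖ = 1 := norm_smul_inv_norm hd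
  have hn : 0 < ‖d‖ := norm_pos_iff.mpr hd
  rw [area_triangle (‖d‖⁻¹ • d) _ _ _ hu (T3A_inner_proj _ _ hu) (T3A_inner_proj _ _ hu)
    (T3A_inner_proj _ _ hu), T3A_proj_sub, T3A_proj_sub, gram_proj _ _ _ hu, Real.sqrt_sq_eq_abs,
    ENNReal.toReal_ofReal (by positivity), T3A_det3_smul, abs_mul, abs_of_pos (inv_pos.mpr hn)]
  field_simp

theorem exists_perp_cover_K0 :
    ∃ (m : ℕ) (u p q r : Fin m → E3), m < 16000000 ∧ (∀ i, ‖u i‖ = 1) ∧
      (∀ i, inner ℝ (p i) (u i) = 0 ∧ inner ℝ (q i) (u i) = 0 ∧ inner ℝ (r i) (u i) = 0) ∧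
      K0 ⊆ ⋃ i, cyl (convexHull ℝ {p i, q i, r i}) (u i) ∧
      ∑ i, (μHE[2] (convexHull ℝ {p i, q i, r i})).toReal ≤
        Real.sqrt 2 * (1 / 2 - 1 / 10 ^ 9) := by
  obtain ⟨m, P, Q, R, d, hm, hd, hcov, hsum⟩ := exists_cover_K0
  have hu : ∀ i, ‖‖d i‖⁻¹ • d i‖ = 1 := fun i => norm_smul_inv_norm (hd i)
  refine ⟨m, fun i => ‖d i‖⁻¹ • d i, fun i => proj (‖d i‖⁻¹ • d i) (P i),
    fun i => proj (‖d i‖⁻¹ • d i) (Q i), fun i => proj (‖d i‖⁻¹ • d i) (R i), hm, hu,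
    fun i => ⟨T3A_inner_proj _ _ (hu i), T3A_inner_proj _ _ (hu i), T3A_inner_proj _ _ (hu i)⟩,
    ?_, ?_⟩
  · refine hcov.trans (Set.iUnion_mono fun i => T3A_cyl_subset _ _ _ _ (hd i))
  · simp only [T3A_area _ _ _ _ (hd _)]
    exact hsum

end Crest.Agent.R211
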