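import Crest.Agent.R211.OpenBase

/-!
Row 211, task T5: one sheared square cylinder of S0326, mapped by `(x, ξ) ↦ (x, ξ₀, h ξ₁)`, is
contained in a cylinder with a bounded relatively open base of controlled area.
-/

open MeasureTheory

namespace Crest.Agent.R211

theorem T5_isCompact_pgram (c a b : E3) : IsCompact (pgram c a b) := by
  have h : pgram c a b =
      (fun p : ℝ × ℝ => c + p.1 • a + p.2 • b) '' (Set.Icc (0 : ℝ) 1 ×ˢ Set.Icc (0 : ℝ) 1) := by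
    ext x
    constructor
    · rintro ⟨s, hs, t, ht, rfl⟩
      exact ⟨(s, t), ⟨hs, ht⟩, rfl⟩
    · rintro ⟨⟨s, t⟩, ⟨hs, ht⟩, rfl⟩
      exact ⟨s, hs, t, ht, rfl⟩
  rw [h]
  apply (isCompact_Icc.prod isCompact_Icc).image
  fun_prop

theorem T5_inner_proj (u x : E3) (hu : ‖u‖ = 1) : inner ℝ (proj u x) u = 0 := by
  unfold proj
  rw [inner_sub_left, inner_smul_left, real_inner_self_eq_norm_sq, hu]
  simp

theorem T5_det2_sq (a b : E2) (hb : ‖b‖ = ‖a‖) (hab : inner ℝ a b = 0) :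
    |a 0 * b 1 - a 1 * b 0| = ‖a‖ ^ 2 := by
  have h1 : ‖a‖ ^ 2 = a 0 ^ 2 + a 1 ^ 2 := by
    rw [EuclideanSpace.real_norm_sq_eq]; simp [Fin.sum_univ_two]
  have h2 : ‖b‖ ^ 2 = b 0 ^ 2 + b 1 ^ 2 := by
    rw [EuclideanSpace.real_norm_sq_eq]; simp [Fin.sum_univ_two]
  have h3 : a 0 * b 0 + a 1 * b 1 = 0 := by
    have := hab
    simp only [PiLp.inner_apply, Fin.sum_univ_two, RCLike.inner_apply, conj_trivial] at this
    linarith
  rw [hb] at h2
  have h4 : (a 0 * b 1 - a 1 * b 0) ^ 2 = (‖a‖ ^ 2) ^ 2 := by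
    have : (a 0 * b 1 - a 1 * b 0) ^ 2 =
        (a 0 ^ 2 + a 1 ^ 2) * (b 0 ^ 2 + b 1 ^ 2) - (a 0 * b 0 + a 1 * b 1) ^ 2 := by ring
    rw [this, h3, ← h1, ← h2]; ring
  rw [← Real.sqrt_sq_eq_abs, h4, Real.sqrt_sq (by positivity)]

/-- T5. One piece. -/
theorem T5_piece (h : ℝ) (hh : 0 < h) (c a b g : E2) (hb : ‖b‖ = ‖a‖) (hab : inner ℝ a b = 0)
    (η : ℝ) (hη : 0 < η) :
    ∃ (u : E3) (B : Set E3), ‖u‖ = 1 ∧ Bornology.IsBounded B ∧
      (∃ O : Set E3, IsOpen O ∧ B = O ∩ {x | inner ℝ x u = 0}) ∧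
      (∀ x s t : ℝ, s ∈ Set.Icc (0 : ℝ) 1 → t ∈ Set.Icc (0 : ℝ) 1 → ∃ y ∈ B, ∃ τ : ℝ,
        (!₂[x, c 0 + s * a 0 + t * b 0 + x * g 0, h * (c 1 + s * a 1 + t * b 1 + x * g 1)] : E3)
          = y + τ • u) ∧
      (μHE[2] B).toReal ≤ h * (‖a‖ ^ 2 / Real.sqrt (1 + g 0 ^ 2 + h ^ 2 * g 1 ^ 2)) + η := by
  set N : ℝ := Real.sqrt (1 + g 0 ^ 2 + h ^ 2 * g 1 ^ 2) with hN
  have hpos : 0 < 1 + g 0 ^ 2 + h ^ 2 * g 1 ^ 2 := by positivity
  have hN0 : 0 < N := Real.sqrt_pos.mpr hpos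
  have hN2 : N ^ 2 = 1 + g 0 ^ 2 + h ^ 2 * g 1 ^ 2 := Real.sq_sqrt hpos.le
  set d : E3 := !₂[1, g 0, h * g 1] with hd
  have hdn : ‖d‖ = N := by
    rw [hN, EuclideanSpace.norm_eq]
    congr 1
    simp [Fin.sum_univ_three, hd]
    ring
  set u : E3 := N⁻¹ • d with hu
  have hun : ‖u‖ = 1 := by
    rw [hu, norm_smul, hdn, Real.norm_eq_abs, abs_of_pos (inv_pos.mpr hN0)]
    exact inv_mul_cancel₀ hN0.ne'
  set C : E3 := !₂[0, c 0, h * c 1] with hC
  set A : E3 := !₂[0, a 0, h * a 1] with hA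
  set B' : E3 := !₂[0, b 0, h * b 1] with hB'
  obtain ⟨B, hBb, hBo, hTB, hBa⟩ := exists_open_base u hun (pgram (proj u C) (proj u A) (proj u B'))
    (T5_isCompact_pgram _ _ _) (by
      rintro x ⟨s, _, t, _, rfl⟩
      rw [inner_add_left, inner_add_left, inner_smul_left, inner_smul_left, T5_inner_proj _ _ hun,
        T5_inner_proj _ _ hun, T5_inner_proj _ _ hun]
      simp) η hη
  refine ⟨u, B, hun, hBb, hBo, ?_, ?_⟩
  · intro x s t hs ht
    refine ⟨proj u C + s • proj u A + t • proj u B', hTB ⟨s, hs, t, ht, rfl⟩,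
      inner ℝ C u + s * inner ℝ A u + t * inner ℝ B' u + x * N, ?_⟩
    have hdu : d = N • u := by
      rw [hu, smul_smul, mul_inv_cancel₀ hN0.ne', one_smul]
    have h1 : (!₂[x, c 0 + s * a 0 + t * b 0 + x * g 0,
        h * (c 1 + s * a 1 + t * b 1 + x * g 1)] : E3) = C + s • A + t • B' + x • d := by
      ext i
      fin_cases i <;> simp [hC, hA, hB', hd] <;> ring
    rw [h1, hdu]
    unfold proj
    module
  · have harea : μHE[2] (pgram (proj u C) (proj u A) (proj u B')) =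
        ENNReal.ofReal (h * (‖a‖ ^ 2 / N)) := by
      rw [area_pgram u _ _ _ hun (T5_inner_proj _ _ hun) (T5_inner_proj _ _ hun)
        (T5_inner_proj _ _ hun), gram_proj u A B' hun, Real.sqrt_sq_eq_abs]
      congr 1
      have : det3 A B' u = h * ((a 0 * b 1 - a 1 * b 0) / N) := by
        simp [det3, hA, hB', hu, hd]
        field_simp
        ring
      rw [this, abs_mul, abs_div, T5_det2_sq a b hb hab, abs_of_pos hh, abs_of_pos hN0]
    rw [harea, ← ENNReal.ofReal_add (by positivity) hη.le] at hBa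
    exact ENNReal.toReal_le_of_le_ofReal (by positivity) hBa

end Crest.Agent.R211
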