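import Crest.Agent.R211.S0326Main

/-!
Row 211, task T4C (part 3): one coarse cell.
-/

open MeasureTheory Metric

namespace Crest.Agent.R211

theorem T4C_cell (V : E2 → E2) (L h M κ : ℝ) (hL : 0 < L) (hM : 0 ≤ M) (hκ : 0 < κ)
    (p₀ : E2) (kl : ℤ × ℤ) (r δ τ ω ε₁ : ℝ) (hr : 0 < r) (hδ : 0 < δ) (hτ0 : 0 ≤ τ) (hω0 : 0 ≤ ω)
    (hε₁ : 0 ≤ ε₁)
    (hp₀ : p₀ ∈ gcell r kl)
    (htr : LinearMap.trace ℝ _ (fderiv ℝ V p₀).toLinearMap = 0)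
    (hdet0 : LinearMap.det (fderiv ℝ V p₀).toLinearMap ≤ 0)
    (hdetκ : L ^ 2 * (-LinearMap.det (fderiv ℝ V p₀).toLinearMap) ≤ 1 - κ)
    (hMp : ‖fderiv ℝ V p₀‖ ≤ M)
    (hBδ : Real.sqrt 2 * (1 + L * M) / κ * δ ≤ r)
    (hd : ∀ q, dist q p₀ ≤ 4 * r → DifferentiableAt ℝ V q)
    (hω : ∀ q, dist q p₀ ≤ 4 * r → ‖fderiv ℝ V q - fderiv ℝ V p₀‖ ≤ ω)
    (hJ : ∀ q, dist q p₀ ≤ 4 * r → Jw h (V q) ≤ Jw h (V p₀) + ε₁)
    (hτ : L * ω * (Real.sqrt 2 * (1 + L * M) / κ) ≤ τ) :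
    ∃ (I : Finset (ℤ × ℤ)) (f₁ f₂ : E2), ‖f₁‖ = 1 ∧ ‖f₂‖ = 1 ∧ inner ℝ f₁ f₂ = 0 ∧
      (∀ p ∈ gcell r kl, ∀ s : ℝ, |s| ≤ L → ∃ ij ∈ I, ∃ x ∈ Set.Icc (0 : ℝ) 1,
        ∃ y ∈ Set.Icc (0 : ℝ) 1,
         p + s • V p = (lat p₀ f₁ f₂ δ ij - (τ * δ) • (f₁ + f₂)) + x • (((1 + 2 * τ) * δ) • f₁)
            + y • (((1 + 2 * τ) * δ) • f₂) + s • V (lat p₀ f₁ f₂ δ ij)) ∧
      ∑ ij ∈ I, ((1 + 2 * τ) * δ) ^ 2 * Jw h (V (lat p₀ f₁ f₂ δ ij)) ≤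
        (1 + 2 * τ) ^ 2 * (r + 2 * (Real.sqrt 2 * (1 + L * M) / κ * δ) + 4 * δ) ^ 2 *
          (Jw h (V p₀) + ε₁) := by
  classical
  set B : ℝ := Real.sqrt 2 * (1 + L * M) / κ with hB
  have hB0 : 0 ≤ B := by rw [hB]; positivity
  obtain ⟨f₁, f₂, β, γ, hf₁, hf₂, hf, hA₁, hA₂, hdet, hβ, hγ⟩ := exists_frame (fderiv ℝ V p₀) htr
  have hβγ : 0 ≤ β * γ := by rw [hdet] at hdet0; linarith
  have hκ' : L ^ 2 * (β * γ) ≤ 1 - κ := by rw [hdet] at hdetκ; simpa using hdetκ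
  -- the index set
  set x₀ : ℝ := kl.1 * r - B * δ with hx₀
  set y₀ : ℝ := kl.2 * r - B * δ with hy₀
  set ℓ : ℝ := r + 2 * (B * δ) with hℓ
  have hℓ0 : 0 ≤ ℓ := by rw [hℓ]; positivity
  set S : Set E2 := {q : E2 | x₀ ≤ q 0 ∧ q 0 ≤ x₀ + ℓ ∧ y₀ ≤ q 1 ∧ q 1 ≤ y₀ + ℓ} with hS
  obtain ⟨g0, g0', g1, g1'⟩ := hp₀
  have hSdist : ∀ q ∈ S, dist q p₀ ≤ 4 * r := by
    rintro q ⟨q0, q0', q1, q1'⟩
    rw [dist_eq_norm]
    refine (T4C_norm_le_abs_add _).trans ?_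
    have e0 : |(q - p₀) 0| ≤ 2 * r := by
      simp only [PiLp.sub_apply]
      rw [abs_le]; constructor <;> linarith
    have e1 : |(q - p₀) 1| ≤ 2 * r := by
      simp only [PiLp.sub_apply]
      rw [abs_le]; constructor <;> linarith
    linarith
  have hSb : Bornology.IsBounded S :=
    (Metric.isBounded_closedBall (x := p₀) (r := 4 * r)).subset (fun q hq => hSdist q hq)
  have hfin := lattice_finite p₀ f₁ f₂ hf₁ hf₂ hf δ hδ S hSb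
  set I : Finset (ℤ × ℤ) := hfin.toFinset with hI
  have memI : ∀ ij, ij ∈ I ↔ lat p₀ f₁ f₂ δ ij ∈ S := by
    intro ij; simp [hI, lat]
  refine ⟨I, f₁, f₂, hf₁, hf₂, hf, ?_, ?_⟩
  · intro p hp s hs
    have hpd : dist p p₀ ≤ 2 * r := dist_le_of_mem_gcell hp ⟨g0, g0', g1, g1'⟩
    obtain ⟨i, j, μ₁, μ₂, m1, m1', m2, m2', hnorm, heq⟩ :=
      local_cover V p₀ f₁ f₂ (fderiv ℝ V p₀) (closedBall p₀ (3 * r)) (convex_closedBall _ _)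
        hf₁ hf₂ hf β γ hA₁ hA₂ L M κ ω δ τ hL hκ hδ hM hω0 hβγ hκ' (hβ.trans hMp) (hγ.trans hMp)
        (fun q hq => hd q (by rw [mem_closedBall] at hq; linarith))
        (fun q hq => hω q (by rw [mem_closedBall] at hq; linarith)) hτ p
        (by
          intro q hq
          rw [mem_closedBall] at hq ⊢
          have := dist_triangle q p p₀
          linarith) s hs
    have hτ1 : 0 < 1 + 2 * τ := by linarith
    refine ⟨(i, j), ?_, (μ₁ + τ) / (1 + 2 * τ), ?_, (μ₂ + τ) / (1 + 2 * τ), ?_, ?_⟩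
    · rw [memI]
      obtain ⟨p0, p0', p1, p1'⟩ := hp
      have c0 := (T4C_abs_coord_le_norm _ 0).trans hnorm
      have c1 := (T4C_abs_coord_le_norm _ 1).trans hnorm
      simp only [PiLp.sub_apply] at c0 c1
      rw [abs_le] at c0 c1
      refine ⟨?_, ?_, ?_, ?_⟩ <;> simp only [lat] <;> linarith [c0.1, c0.2, c1.1, c1.2]
    · constructor
      · apply div_nonneg <;> linarith
      · rw [div_le_one hτ1]; linarith
    · constructor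
      · apply div_nonneg <;> linarith
      · rw [div_le_one hτ1]; linarith
    · rw [heq]
      simp only [lat]
      have e1 : ((μ₁ + τ) / (1 + 2 * τ)) • (((1 + 2 * τ) * δ) • f₁) = ((μ₁ + τ) * δ) • f₁ := by
        rw [smul_smul]; congr 1; field_simp
      have e2 : ((μ₂ + τ) / (1 + 2 * τ)) • (((1 + 2 * τ) * δ) • f₂) = ((μ₂ + τ) * δ) • f₂ := by
        rw [smul_smul]; congr 1; field_simp
      rw [e1, e2]
      module
  · have hpack := packing p₀ f₁ f₂ hf₁ hf₂ hf δ hδ x₀ y₀ ℓ hℓ0 I (fun ij hij => (memI ij).1 hij)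
    have hJ0 : 0 ≤ Jw h (V p₀) + ε₁ := by have := Jw_pos h (V p₀); linarith
    calc ∑ ij ∈ I, ((1 + 2 * τ) * δ) ^ 2 * Jw h (V (lat p₀ f₁ f₂ δ ij))
        ≤ ∑ ij ∈ I, ((1 + 2 * τ) * δ) ^ 2 * (Jw h (V p₀) + ε₁) := by
          apply Finset.sum_le_sum
          intro ij hij
          apply mul_le_mul_of_nonneg_left _ (by positivity)
          exact hJ _ (hSdist _ ((memI ij).1 hij))
      _ = (1 + 2 * τ) ^ 2 * ((I.card : ℝ) * δ ^ 2) * (Jw h (V p₀) + ε₁) := by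
          rw [Finset.sum_const, nsmul_eq_mul]; ring
      _ ≤ (1 + 2 * τ) ^ 2 * (r + 2 * (B * δ) + 4 * δ) ^ 2 * (Jw h (V p₀) + ε₁) := by
          apply mul_le_mul_of_nonneg_right _ hJ0
          apply mul_le_mul_of_nonneg_left hpack (by positivity)

end Crest.Agent.R211
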