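import Crest.Agent.R211.Defs

/-!
Row 211, task T4C (S0326 assembly): P3, P4 (helper24).
-/

open MeasureTheory Metric

namespace Crest.Agent.R211

/-- P3: uniform continuity of `F ∘ V` near `D`. -/
theorem T4C_unif_compB (D U : Set E2) (hD : IsCompact D) (V : E2 → E2) (hU : IsOpen U)
    (hDU : D ⊆ U) (hV : ContDiffOn ℝ 1 V U) (F : E2 → ℝ) (hF : Continuous F)
    (ε₁ : ℝ) (hε₁ : 0 < ε₁) :
    ∃ r : ℝ, 0 < r ∧ ∀ p ∈ D, ∀ q, dist q p ≤ r → |F (V q) - F (V p)| ≤ ε₁ := by
  obtain ⟨r₀, hr₀, hsub⟩ := hD.exists_cthickening_subset_open hU hDU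
  have hK : IsCompact (cthickening r₀ D) := hD.cthickening
  have hcont : ContinuousOn (fun q => F (V q)) (cthickening r₀ D) :=
    hF.comp_continuousOn (hV.continuousOn.mono hsub)
  have hu := Metric.uniformContinuousOn_iff_le.mp
    (hK.uniformContinuousOn_of_continuous hcont) ε₁ hε₁
  obtain ⟨δ, hδ, hδ'⟩ := hu
  refine ⟨min r₀ δ, lt_min hr₀ hδ, ?_⟩
  intro p hp q hq
  have hpK : p ∈ cthickening r₀ D := self_subset_cthickening D hp
  have hqK : q ∈ cthickening r₀ D := by
    refine mem_cthickening_of_dist_le q p r₀ D hp ?_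
    exact hq.trans (min_le_left _ _)
  have := hδ' q hqK p hpK (hq.trans (min_le_right _ _))
  simpa [Real.dist_eq] using this

/-- P4: outer regularity of a compact set through closed thickenings. -/
theorem T4C_volB (D : Set E2) (hD : IsCompact D) (ε₃ : ℝ) (hε₃ : 0 < ε₃) :
    ∃ r : ℝ, 0 < r ∧ volume.real (cthickening r D) ≤ volume.real D + ε₃ := by
  have hfin : volume D ≠ ⊤ := hD.measure_lt_top.ne
  have ht := tendsto_measure_cthickening_of_isCompact (μ := (volume : Measure E2)) hD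
  have hlt : volume D < volume D + ENNReal.ofReal ε₃ :=
    ENNReal.lt_add_right hfin (by simpa using hε₃)
  have hev := (tendsto_order.1 ht).2 _ hlt
  obtain ⟨δ, hδ, hδ'⟩ := Metric.eventually_nhds_iff.mp hev
  refine ⟨δ / 2, by positivity, ?_⟩
  have h1 : volume (cthickening (δ / 2) D) < volume D + ENNReal.ofReal ε₃ := by
    apply hδ'
    rw [Real.dist_eq, sub_zero, abs_of_pos (by positivity)]
    linarith
  have h2 : (volume (cthickening (δ / 2) D)).toReal ≤ (volume D + ENNReal.ofReal ε₃).toReal :=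
    ENNReal.toReal_mono (ENNReal.add_ne_top.mpr ⟨hfin, ENNReal.ofReal_ne_top⟩) h1.le
  rw [ENNReal.toReal_add hfin ENNReal.ofReal_ne_top, ENNReal.toReal_ofReal hε₃.le] at h2
  exact h2

end Crest.Agent.R211
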