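import Crest.Agent.R211.S0326ParamsA
import Crest.Agent.R211.S0326ParamsB

/-!
Row 211, task T4C (S0326 assembly): the compactness / uniform continuity inputs P1..P4.
-/

open MeasureTheory Metric

namespace Crest.Agent.R211

/-- P1 (owner helper28): uniform bounds for the derivative on `D`. -/
theorem T4C_bounds (D U : Set E2) (hD : IsCompact D) (V : E2 → E2) (hU : IsOpen U) (hDU : D ⊆ U)
    (hV : ContDiffOn ℝ 1 V U) (L : ℝ) (hL : 0 < L)
    (hdet : ∀ p ∈ D, -(L ^ 2)⁻¹ < LinearMap.det (fderiv ℝ V p).toLinearMap) :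
    ∃ M κ : ℝ, 0 ≤ M ∧ 0 < κ ∧ ∀ p ∈ D, ‖fderiv ℝ V p‖ ≤ M ∧
      L ^ 2 * (-LinearMap.det (fderiv ℝ V p).toLinearMap) ≤ 1 - κ := by
  exact T4C_boundsA D U hD V hU hDU hV L hL hdet

/-- P2 (owner helper28): uniform continuity of the derivative near `D`. -/
theorem T4C_unif_fderiv (D U : Set E2) (hD : IsCompact D) (V : E2 → E2) (hU : IsOpen U)
    (hDU : D ⊆ U) (hV : ContDiffOn ℝ 1 V U) (ω : ℝ) (hω : 0 < ω) :
    ∃ r : ℝ, 0 < r ∧ cthickening r D ⊆ U ∧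
      ∀ p ∈ D, ∀ q, dist q p ≤ r → ‖fderiv ℝ V q - fderiv ℝ V p‖ ≤ ω := by
  exact T4C_unif_fderivA D U hD V hU hDU hV ω hω

/-- P3 (owner helper24): uniform continuity of `F ∘ V` near `D`. -/
theorem T4C_unif_comp (D U : Set E2) (hD : IsCompact D) (V : E2 → E2) (hU : IsOpen U)
    (hDU : D ⊆ U) (hV : ContDiffOn ℝ 1 V U) (F : E2 → ℝ) (hF : Continuous F)
    (ε₁ : ℝ) (hε₁ : 0 < ε₁) :
    ∃ r : ℝ, 0 < r ∧ ∀ p ∈ D, ∀ q, dist q p ≤ r → |F (V q) - F (V p)| ≤ ε₁ := by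
  exact T4C_unif_compB D U hD V hU hDU hV F hF ε₁ hε₁

/-- P4 (owner helper24): outer regularity of a compact set through closed thickenings. -/
theorem T4C_vol (D : Set E2) (hD : IsCompact D) (ε₃ : ℝ) (hε₃ : 0 < ε₃) :
    ∃ r : ℝ, 0 < r ∧ volume.real (cthickening r D) ≤ volume.real D + ε₃ := by
  exact T4C_volB D hD ε₃ hε₃

end Crest.Agent.R211
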