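import Crest.Agent.R211.S0326Cell
import Crest.Agent.R211.S0326Params

/-!
Row 211, task T4C (part 4): final assembly of S0326.
-/

open MeasureTheory Metric

namespace Crest.Agent.R211

theorem T4C_arith (ε v Iv s ε₁ ε₃ X : ℝ) (hε : 0 < ε) (hv : 0 ≤ v) (hI0 : 0 ≤ Iv) (hIv : Iv ≤ v)
    (hs0 : 0 ≤ s) (hs1 : s ≤ 1) (hs : s * (4 * (v + 1)) ≤ ε) (he0 : 0 ≤ ε₁) (he1 : ε₁ ≤ 1)
    (he : ε₁ * (16 * (v + 1)) ≤ ε) (h3 : ε₃ = ε / 16)
    (hX : X ≤ Iv + 2 * ε₁ * v + (1 + ε₁) * ε₃) (hX0 : 0 ≤ X) :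
    (1 + 2 * (s / 40)) ^ 2 * (1 + s / 20) ^ 2 * X ≤ Iv + ε := by
  have hθ : (1 + 2 * (s / 40)) ^ 2 * (1 + s / 20) ^ 2 ≤ 1 + s := by
    nlinarith [mul_nonneg hs0 hs0, mul_nonneg hs0 (sub_nonneg.2 hs1),
      mul_nonneg (mul_nonneg hs0 hs0) (sub_nonneg.2 hs1),
      mul_nonneg (mul_nonneg (mul_nonneg hs0 hs0) hs0) (sub_nonneg.2 hs1)]
  have h1 : 2 * ε₁ * v ≤ ε / 8 := by nlinarith
  have h2 : (1 + ε₁) * ε₃ ≤ ε / 8 := by rw [h3]; nlinarith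
  have hX1 : X ≤ Iv + ε / 4 := by linarith
  have h4 : s * v ≤ ε / 4 := by nlinarith
  have h5 : s * X ≤ ε / 2 := by
    have : s * X ≤ s * (v + ε / 4) := mul_le_mul_of_nonneg_left (by linarith) hs0
    nlinarith
  calc (1 + 2 * (s / 40)) ^ 2 * (1 + s / 20) ^ 2 * X ≤ (1 + s) * X :=
        mul_le_mul_of_nonneg_right hθ hX0
    _ ≤ Iv + ε := by linarith

theorem T4C_main
    (D : Set E2) (hD : IsCompact D)
    (V : E2 → E2) (U : Set E2)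
    (hU : IsOpen U) (hDU : D ⊆ U) (hV : ContDiffOn ℝ 1 V U) (L h : ℝ) (hL : 0 < L) (hh : 0 < h)
    (htr : ∀ p ∈ D, LinearMap.trace ℝ _ (fderiv ℝ V p).toLinearMap = 0)
    (hdet : ∀ p ∈ D, -(L ^ 2)⁻¹ < LinearMap.det (fderiv ℝ V p).toLinearMap ∧
      LinearMap.det (fderiv ℝ V p).toLinearMap ≤ 0)
    (ε : ℝ) (hε : 0 < ε) :
    ∃ (k : ℕ) (c a b g : Fin k → E2),
      (∀ i, a i ≠ 0 ∧ ‖b i‖ = ‖a i‖ ∧ inner ℝ (a i) (b i) = 0) ∧
      {z : ℝ × E2 | ∃ p ∈ D, abs z.1 ≤ L ∧ z.2 = p + z.1 • V p} ⊆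
        ⋃ i, {z : ℝ × E2 | ∃ x ∈ Set.Icc (0 : ℝ) 1, ∃ y ∈ Set.Icc (0 : ℝ) 1,
          z.2 = c i + x • a i + y • b i + z.1 • g i} ∧
      ∑ i, ‖a i‖ ^ 2 / Real.sqrt (1 + (g i 0) ^ 2 + h ^ 2 * (g i 1) ^ 2) ≤
        (∫ p in D, 1 / Real.sqrt (1 + (V p 0) ^ 2 + h ^ 2 * (V p 1) ^ 2)) + ε := by
  classical
  obtain ⟨M, κ, hM, hκ, hMκ⟩ := T4C_bounds D U hD V hU hDU hV L hL (fun p hp => (hdet p hp).1)
  set B : ℝ := Real.sqrt 2 * (1 + L * M) / κ with hB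
  have hB0 : 0 < B := by rw [hB]; positivity
  set v : ℝ := volume.real D with hv
  have hv0 : 0 ≤ v := measureReal_nonneg
  have hv1 : 0 < v + 1 := by linarith
  set s : ℝ := min 1 (ε / (4 * (v + 1))) with hs
  have hs0 : 0 < s := lt_min one_pos (by positivity)
  have hs1 : s ≤ 1 := min_le_left _ _
  have hs2 : s * (4 * (v + 1)) ≤ ε := by
    have : s ≤ ε / (4 * (v + 1)) := min_le_right _ _
    rwa [le_div_iff₀ (by positivity)] at this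
  set τ : ℝ := s / 40 with hτ
  have hτ0 : 0 < τ := by rw [hτ]; positivity
  set ε₁ : ℝ := min 1 (ε / (16 * (v + 1))) with hε₁
  have he0 : 0 < ε₁ := lt_min one_pos (by positivity)
  have he1 : ε₁ ≤ 1 := min_le_left _ _
  have he2 : ε₁ * (16 * (v + 1)) ≤ ε := by
    have : ε₁ ≤ ε / (16 * (v + 1)) := min_le_right _ _
    rwa [le_div_iff₀ (by positivity)] at this
  set ε₃ : ℝ := ε / 16 with hε₃
  have h30 : 0 < ε₃ := by rw [hε₃]; positivity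
  set ω : ℝ := τ / (L * B) with hω
  have hω0 : 0 < ω := by rw [hω]; positivity
  have hωτ : L * ω * B ≤ τ := by
    rw [hω]; apply le_of_eq; field_simp
  obtain ⟨r₁, hr₁, hr₁U, hr₁ω⟩ := T4C_unif_fderiv D U hD V hU hDU hV ω hω0
  obtain ⟨r₂, hr₂, hr₂J⟩ := T4C_unif_comp D U hD V hU hDU hV (Jw h) (continuous_Jw h) ε₁ he0
  obtain ⟨r₃, hr₃, hr₃v⟩ := T4C_vol D hD ε₃ h30
  set r : ℝ := min r₁ (min r₂ r₃) / 4 with hr
  have hr0 : 0 < r := by rw [hr]; have := lt_min hr₁ (lt_min hr₂ hr₃); positivity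
  have hrr₁ : 4 * r ≤ r₁ := by rw [hr]; have := min_le_left r₁ (min r₂ r₃); linarith
  have hrr₂ : 4 * r ≤ r₂ := by
    rw [hr]; have := (min_le_right r₁ (min r₂ r₃)).trans (min_le_left _ _); linarith
  have hrr₃ : 4 * r ≤ r₃ := by
    rw [hr]; have := (min_le_right r₁ (min r₂ r₃)).trans (min_le_right _ _); linarith
  set δ : ℝ := r * (s / 20) / (2 * B + 4) with hδ
  have hδ0 : 0 < δ := by rw [hδ]; positivity
  have hδ1 : (2 * B + 4) * δ = r * (s / 20) := by rw [hδ]; field_simp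
  have hBδ : B * δ ≤ r := by nlinarith
  set f : E2 → ℝ := fun p => Jw h (V p) with hf
  have hfc : ContinuousOn f D := (continuous_Jw h).comp_continuousOn (hV.continuousOn.mono hDU)
  have H1 : volume.real (cthickening (2 * r) D) ≤ volume.real D + ε₃ := by
    refine le_trans ?_ hr₃v
    exact measureReal_mono (cthickening_mono (by linarith) D) (hD.cthickening).measure_lt_top.ne
  have H2 : ∀ q ∈ D, ∀ q' ∈ D, dist q q' ≤ 2 * r → f q' ≤ f q + ε₁ := by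
    intro q hq q' _ hqq'
    have := hr₂J q hq q' (by rw [dist_comm]; linarith)
    have := (abs_le.1 this).2
    simp only [hf]; linarith
  obtain ⟨C, pt, hpt, hcov, hsum⟩ := coarse_grid hD f hfc (fun q _ => Jw_le_one h _) hr0 he0.le H1 H2
  have key : ∀ kl ∈ C, ∃ (I : Finset (ℤ × ℤ)) (f₁ f₂ : E2), ‖f₁‖ = 1 ∧ ‖f₂‖ = 1 ∧
      inner ℝ f₁ f₂ = 0 ∧
      (∀ p ∈ gcell r kl, ∀ s : ℝ, |s| ≤ L → ∃ ij ∈ I, ∃ x ∈ Set.Icc (0 : ℝ) 1,
        ∃ y ∈ Set.Icc (0 : ℝ) 1,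
         p + s • V p = (lat (pt kl) f₁ f₂ δ ij - (τ * δ) • (f₁ + f₂))
            + x • (((1 + 2 * τ) * δ) • f₁)
            + y • (((1 + 2 * τ) * δ) • f₂) + s • V (lat (pt kl) f₁ f₂ δ ij)) ∧
      ∑ ij ∈ I, ((1 + 2 * τ) * δ) ^ 2 * Jw h (V (lat (pt kl) f₁ f₂ δ ij)) ≤
        (1 + 2 * τ) ^ 2 * (r + 2 * (B * δ) + 4 * δ) ^ 2 * (Jw h (V (pt kl)) + ε₁) := by
    intro kl hkl
    obtain ⟨hptD, hptc⟩ := hpt kl hkl
    have hUq : ∀ q, dist q (pt kl) ≤ 4 * r → q ∈ U := by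
      intro q hq
      apply hr₁U
      apply mem_cthickening_of_dist_le q (pt kl) r₁ D hptD (by linarith)
    exact T4C_cell V L h M κ hL hM hκ (pt kl) kl r δ τ ω ε₁ hr0 hδ0 hτ0.le hω0.le he0.le hptc
      (htr _ hptD) (hdet _ hptD).2 (hMκ _ hptD).2 (hMκ _ hptD).1 hBδ
      (fun q hq => (hV.differentiableOn (by norm_num)).differentiableAt (hU.mem_nhds (hUq q hq)))
      (fun q hq => hr₁ω _ hptD q (by linarith))
      (fun q hq => by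
        have := hr₂J _ hptD q (by linarith)
        have := (abs_le.1 this).2
        linarith) hωτ
  choose! I f₁ f₂ hf₁ hf₂ hf₁₂ hcover hcost using key
  have hτδ : 0 < (1 + 2 * τ) * δ := by positivity
  have hIv : (∫ p in D, 1 / Real.sqrt (1 + (V p 0) ^ 2 + h ^ 2 * (V p 1) ^ 2)) = ∫ p in D, f p := rfl
  rw [hIv]
  apply T4C_fin_of_finset (C.sigma I)
    (fun x => lat (pt x.1) (f₁ x.1) (f₂ x.1) δ x.2 - (τ * δ) • (f₁ x.1 + f₂ x.1))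
    (fun x => ((1 + 2 * τ) * δ) • f₁ x.1) (fun x => ((1 + 2 * τ) * δ) • f₂ x.1)
    (fun x => V (lat (pt x.1) (f₁ x.1) (f₂ x.1) δ x.2)) h
  · rintro ⟨kl, ij⟩ hx
    have hkl : kl ∈ C := (Finset.mem_sigma.1 hx).1
    refine ⟨?_, ?_, ?_⟩
    · intro h0
      have : ‖((1 + 2 * τ) * δ) • f₁ kl‖ = 0 := by rw [h0]; simp
      rw [norm_smul, hf₁ kl hkl, Real.norm_eq_abs, abs_of_pos hτδ] at this
      linarith
    · simp only [norm_smul, hf₁ kl hkl, hf₂ kl hkl]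
    · simp only [inner_smul_left, inner_smul_right, hf₁₂ kl hkl, mul_zero]
  · rintro ⟨σ, ξ⟩ ⟨p, hp, hσ, hξ⟩
    obtain ⟨kl, hkl, hpc⟩ := hcov p hp
    obtain ⟨ij, hij, x, hx, y, hy, hxy⟩ := hcover kl hkl p hpc σ hσ
    refine ⟨⟨kl, ij⟩, Finset.mem_sigma.2 ⟨hkl, hij⟩, x, hx, y, hy, ?_⟩
    simp only at hξ ⊢
    rw [hξ, hxy]
  · rw [Finset.sum_sigma]
    have hIv0 : 0 ≤ ∫ p in D, f p := by
      apply setIntegral_nonneg hD.measurableSet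
      intro p _
      exact (Jw_pos h _).le
    have hIv1 : ∫ p in D, f p ≤ v := by
      have h1 : ∫ p in D, f p ≤ ∫ p in D, (1 : ℝ) := by
        apply setIntegral_mono_on (hfc.integrableOn_compact hD)
          (integrableOn_const (hD.measure_lt_top.ne)) hD.measurableSet
        intro p _
        exact Jw_le_one h _
      simpa [hv] using h1
    have hX0 : 0 ≤ ∑ kl ∈ C, r ^ 2 * (f (pt kl) + ε₁) := by
      apply Finset.sum_nonneg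
      intro kl _
      have := Jw_pos h (V (pt kl))
      simp only [hf]
      positivity
    have hfinal := T4C_arith ε v (∫ p in D, f p) s ε₁ ε₃ _ hε hv0 hIv0 hIv1 hs0.le hs1 hs2 he0.le he1
      he2 rfl hsum hX0
    refine le_trans ?_ hfinal
    rw [Finset.mul_sum]
    apply Finset.sum_le_sum
    intro kl hkl
    have e1 : r + 2 * (B * δ) + 4 * δ = r * (1 + s / 20) := by linarith
    have := hcost kl hkl
    rw [e1] at this
    calc ∑ ij ∈ I kl, ‖((1 + 2 * τ) * δ) • f₁ kl‖ ^ 2 /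
          Real.sqrt (1 + (V (lat (pt kl) (f₁ kl) (f₂ kl) δ ij) 0) ^ 2 +
            h ^ 2 * (V (lat (pt kl) (f₁ kl) (f₂ kl) δ ij) 1) ^ 2)
        = ∑ ij ∈ I kl, ((1 + 2 * τ) * δ) ^ 2 * Jw h (V (lat (pt kl) (f₁ kl) (f₂ kl) δ ij)) := by
          apply Finset.sum_congr rfl
          intro ij _
          rw [norm_smul, hf₁ kl hkl, Real.norm_eq_abs, abs_of_pos hτδ, Jw]
          ring
      _ ≤ (1 + 2 * τ) ^ 2 * (r * (1 + s / 20)) ^ 2 * (Jw h (V (pt kl)) + ε₁) := this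
      _ = (1 + 2 * (s / 40)) ^ 2 * (1 + s / 20) ^ 2 * (r ^ 2 * (f (pt kl) + ε₁)) := by
          simp only [hf, hτ]; ring

end Crest.Agent.R211
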