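import Crest.Agent.R211.Grid
import Crest.Agent.R211.Lattice

/-!
Row 211, task T4C (part 2): assembly of S0326.
-/

open MeasureTheory Metric

namespace Crest.Agent.R211

/-- The weight `J_h(g) = (1 + g₀² + h² g₁²)^(-1/2)`. -/
noncomputable def Jw (h : ℝ) (g : E2) : ℝ := 1 / Real.sqrt (1 + (g 0) ^ 2 + h ^ 2 * (g 1) ^ 2)

theorem Jw_pos (h : ℝ) (g : E2) : 0 < Jw h g := by
  unfold Jw; positivity

theorem Jw_le_one (h : ℝ) (g : E2) : Jw h g ≤ 1 := by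
  unfold Jw
  rw [div_le_one (by positivity)]
  rw [show (1 : ℝ) = Real.sqrt 1 by simp]
  apply Real.sqrt_le_sqrt
  have : 0 ≤ (g 0) ^ 2 + h ^ 2 * (g 1) ^ 2 := by positivity
  simp only [Real.sqrt_one]
  linarith

theorem continuous_Jw (h : ℝ) : Continuous (Jw h) := by
  unfold Jw
  apply Continuous.div continuous_const
  · apply Continuous.sqrt
    fun_prop
  · intro g
    positivity

/-- Fine lattice point. -/
noncomputable def lat (p₀ f₁ f₂ : E2) (δ : ℝ) (ij : ℤ × ℤ) : E2 :=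
  p₀ + (δ * ij.1) • f₁ + (δ * ij.2) • f₂

/-- Passing from a family indexed by a finset to a family indexed by `Fin k`. -/
theorem T4C_fin_of_finset {ι : Type*} (S : Finset ι) (c a b g : ι → E2) (h : ℝ)
    (E : Set (ℝ × E2)) (bound : ℝ)
    (h1 : ∀ i ∈ S, a i ≠ 0 ∧ ‖b i‖ = ‖a i‖ ∧ inner ℝ (a i) (b i) = 0)
    (h2 : ∀ z ∈ E, ∃ i ∈ S, ∃ x ∈ Set.Icc (0 : ℝ) 1, ∃ y ∈ Set.Icc (0 : ℝ) 1,
      z.2 = c i + x • a i + y • b i + z.1 • g i)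
    (h3 : ∑ i ∈ S, ‖a i‖ ^ 2 / Real.sqrt (1 + (g i 0) ^ 2 + h ^ 2 * (g i 1) ^ 2) ≤ bound) :
    ∃ (k : ℕ) (c' a' b' g' : Fin k → E2),
      (∀ i, a' i ≠ 0 ∧ ‖b' i‖ = ‖a' i‖ ∧ inner ℝ (a' i) (b' i) = 0) ∧
      E ⊆ ⋃ i, {z : ℝ × E2 | ∃ x ∈ Set.Icc (0 : ℝ) 1, ∃ y ∈ Set.Icc (0 : ℝ) 1,
          z.2 = c' i + x • a' i + y • b' i + z.1 • g' i} ∧
      ∑ i, ‖a' i‖ ^ 2 / Real.sqrt (1 + (g' i 0) ^ 2 + h ^ 2 * (g' i 1) ^ 2) ≤ bound := by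
  classical
  let e : Fin S.card ≃ S := S.equivFin.symm
  refine ⟨S.card, fun i => c (e i), fun i => a (e i), fun i => b (e i), fun i => g (e i),
    fun i => h1 _ (e i).2, ?_, ?_⟩
  · intro z hz
    obtain ⟨i, hi, x, hx, y, hy, hxy⟩ := h2 z hz
    simp only [Set.mem_iUnion, Set.mem_setOf_eq]
    refine ⟨e.symm ⟨i, hi⟩, x, hx, y, hy, ?_⟩
    simpa using hxy
  · have : ∑ i : Fin S.card, ‖a (e i)‖ ^ 2 /
        Real.sqrt (1 + (g (e i) 0) ^ 2 + h ^ 2 * (g (e i) 1) ^ 2) =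
        ∑ i ∈ S, ‖a i‖ ^ 2 / Real.sqrt (1 + (g i 0) ^ 2 + h ^ 2 * (g i 1) ^ 2) := by
      rw [Equiv.sum_comp e (fun i : S => ‖a i‖ ^ 2 /
        Real.sqrt (1 + (g i 0) ^ 2 + h ^ 2 * (g i 1) ^ 2))]
      exact Finset.sum_coe_sort S (fun i => ‖a i‖ ^ 2 /
        Real.sqrt (1 + (g i 0) ^ 2 + h ^ 2 * (g i 1) ^ 2))
    rw [this]
    exact h3

end Crest.Agent.R211
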