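import Crest.Agent.R211.Defs

/-!
Row 211, task T4C (S0326 assembly): the compactness / uniform continuity inputs P1, P2.
-/

open MeasureTheory Metric

namespace Crest.Agent.R211

/-- P1: uniform bounds for the derivative on `D`. -/
theorem T4C_boundsA (D U : Set E2) (hD : IsCompact D) (V : E2 → E2) (hU : IsOpen U) (hDU : D ⊆ U)
    (hV : ContDiffOn ℝ 1 V U) (L : ℝ) (hL : 0 < L)
    (hdet : ∀ p ∈ D, -(L ^ 2)⁻¹ < LinearMap.det (fderiv ℝ V p).toLinearMap) :
    ∃ M κ : ℝ, 0 ≤ M ∧ 0 < κ ∧ ∀ p ∈ D, ‖fderiv ℝ V p‖ ≤ M ∧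
      L ^ 2 * (-LinearMap.det (fderiv ℝ V p).toLinearMap) ≤ 1 - κ := by
  have hc : ContinuousOn (fderiv ℝ V) D :=
    (hV.continuousOn_fderiv_of_isOpen hU le_rfl).mono hDU
  have hL2 : 0 < L ^ 2 := by positivity
  rcases D.eq_empty_or_nonempty with rfl | hne
  · exact ⟨0, 1, le_rfl, one_pos, fun p hp => absurd hp (Set.notMem_empty p)⟩
  have hcn : ContinuousOn (fun p => ‖fderiv ℝ V p‖) D := hc.norm
  have hcd : ContinuousOn (fun p => L ^ 2 * (-(fderiv ℝ V p).det)) D :=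
    continuousOn_const.mul (ContinuousLinearMap.continuous_det.comp_continuousOn hc).neg
  obtain ⟨p₁, hp₁, h₁⟩ := hD.exists_isMaxOn hne hcn
  obtain ⟨p₂, hp₂, h₂⟩ := hD.exists_isMaxOn hne hcd
  refine ⟨‖fderiv ℝ V p₁‖, 1 - L ^ 2 * (-(fderiv ℝ V p₂).det), norm_nonneg _, ?_, fun p hp =>
    ⟨h₁ hp, ?_⟩⟩
  · have := hdet p₂ hp₂
    have h3 : L ^ 2 * (-(fderiv ℝ V p₂).det) < L ^ 2 * (L ^ 2)⁻¹ := by
      apply mul_lt_mul_of_pos_left _ hL2
      have e : (fderiv ℝ V p₂).det = LinearMap.det (fderiv ℝ V p₂).toLinearMap := rfl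
      rw [e]; linarith
    rw [mul_inv_cancel₀ hL2.ne'] at h3
    linarith
  · have := h₂ hp
    simp only [Set.mem_ofPred_eq] at this
    have e : (fderiv ℝ V p).det = LinearMap.det (fderiv ℝ V p).toLinearMap := rfl
    rw [e] at this
    linarith

/-- P2: uniform continuity of the derivative near `D`. -/
theorem T4C_unif_fderivA (D U : Set E2) (hD : IsCompact D) (V : E2 → E2) (hU : IsOpen U)
    (hDU : D ⊆ U) (hV : ContDiffOn ℝ 1 V U) (ω : ℝ) (hω : 0 < ω) :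
    ∃ r : ℝ, 0 < r ∧ cthickening r D ⊆ U ∧
      ∀ p ∈ D, ∀ q, dist q p ≤ r → ‖fderiv ℝ V q - fderiv ℝ V p‖ ≤ ω := by
  obtain ⟨r₀, hr₀, hsub⟩ := hD.exists_cthickening_subset_open hU hDU
  have hK : IsCompact (cthickening r₀ D) := hD.cthickening
  have hc : ContinuousOn (fderiv ℝ V) (cthickening r₀ D) :=
    (hV.continuousOn_fderiv_of_isOpen hU le_rfl).mono hsub
  have huc := hK.uniformContinuousOn_of_continuous hc
  rw [Metric.uniformContinuousOn_iff] at huc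
  obtain ⟨δ, hδ, hδ'⟩ := huc ω hω
  refine ⟨min r₀ (δ / 2), lt_min hr₀ (by positivity),
    (cthickening_mono (min_le_left _ _) D).trans hsub, fun p hp q hq => ?_⟩
  have hpK : p ∈ cthickening r₀ D := self_subset_cthickening D hp
  have hqK : q ∈ cthickening r₀ D :=
    mem_cthickening_of_dist_le q p r₀ D hp (hq.trans (min_le_left _ _))
  have := hδ' q hqK p hpK (lt_of_le_of_lt (hq.trans (min_le_right _ _)) (by linarith))
  rw [dist_eq_norm] at this
  exact this.le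

end Crest.Agent.R211
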