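import Crest.Agent.R211.Area

/-!
Row 211, S0328: geometry of one piece of the ruled fan.
-/

open MeasureTheory Set

namespace Crest.Agent.R211.S0328

open Crest.Agent.R211

/-- Increments of `w` in the frame `(a, b)`. -/
theorem w_increment (a b : E3) (α β : ℝ) (w : ℝ → E3) (lam : ℝ → ℝ)
    (hlam : ContinuousOn lam (Icc α β))
    (hw' : ∀ t ∈ Icc α β, HasDerivWithinAt w (lam t • (a + t • b)) (Icc α β) t)
    (Λ : ℝ) (hΛ : ∀ t ∈ Icc α β, |lam t| ≤ Λ)
    (c τ : ℝ) (hc : c ∈ Icc α β) (hτ : τ ∈ Icc α β) :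
    ∃ A B : ℝ, w τ - w c = A • a + B • b ∧ |A| ≤ Λ * |τ - c| ∧
      |B - τ * A| ≤ Λ * |τ - c| ^ 2 := by
  have hsub : uIcc c τ ⊆ Icc α β := Set.uIcc_subset_Icc hc hτ
  have hcw : ContinuousOn w (Icc α β) := fun t ht => (hw' t ht).continuousWithinAt
  have hi1 : IntervalIntegrable lam volume c τ := (hlam.mono hsub).intervalIntegrable
  have hi2 : IntervalIntegrable (fun θ => lam θ * θ) volume c τ :=
    ((hlam.mono hsub).mul continuousOn_id).intervalIntegrable
  have hsplit : ∀ θ : ℝ, lam θ • (a + θ • b) = lam θ • a + (lam θ * θ) • b := by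
    intro θ; rw [smul_add, smul_smul]
  have hi1a : IntervalIntegrable (fun θ => lam θ • a) volume c τ :=
    ((hlam.mono hsub).smul continuousOn_const).intervalIntegrable
  have hi2b : IntervalIntegrable (fun θ => (lam θ * θ) • b) volume c τ :=
    (((hlam.mono hsub).mul continuousOn_id).smul continuousOn_const).intervalIntegrable
  have hi3 : IntervalIntegrable (fun θ => lam θ • (a + θ • b)) volume c τ := by
    simp_rw [hsplit]
    exact hi1a.add hi2b
  have hFTC : ∫ θ in c..τ, lam θ • (a + θ • b) = w τ - w c := by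
    apply intervalIntegral.integral_eq_sub_of_hasDeriv_right (hcw.mono hsub)
    · intro x hx
      have hx' : x ∈ Icc α β := hsub (Ioo_subset_Icc_self hx)
      have hxβ : x < β := lt_of_lt_of_le hx.2 (max_le hc.2 hτ.2)
      apply (hw' x hx').mono_of_mem_nhdsWithin
      exact Icc_mem_nhdsGT_of_mem ⟨hx'.1, hxβ⟩
    · exact hi3
  refine ⟨∫ θ in c..τ, lam θ, ∫ θ in c..τ, lam θ * θ, ?_, ?_, ?_⟩
  · rw [← hFTC]
    simp_rw [hsplit]
    rw [intervalIntegral.integral_add hi1a hi2b,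
      intervalIntegral.integral_smul_const, intervalIntegral.integral_smul_const]
  · have := intervalIntegral.norm_integral_le_of_norm_le_const (a := c) (b := τ) (f := lam)
      (C := Λ) (fun x hx => by
        rw [Real.norm_eq_abs]
        exact hΛ x (hsub (uIoc_subset_uIcc hx)))
    rwa [Real.norm_eq_abs] at this
  · have h1 : (∫ θ in c..τ, lam θ * θ) - τ * ∫ θ in c..τ, lam θ
        = ∫ θ in c..τ, lam θ * (θ - τ) := by
      rw [← intervalIntegral.integral_const_mul, ← intervalIntegral.integral_sub hi2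
        (hi1.const_mul τ)]
      congr 1; ext θ; ring
    rw [h1]
    have := intervalIntegral.norm_integral_le_of_norm_le_const (a := c) (b := τ)
      (f := fun θ => lam θ * (θ - τ)) (C := Λ * |τ - c|) (fun x hx => by
        rw [Real.norm_eq_abs, abs_mul]
        have hx' := uIoc_subset_uIcc hx
        have h2 : |x - τ| ≤ |τ - c| := by
          rw [abs_sub_comm x τ]
          exact abs_sub_right_of_mem_uIcc hx'
        have hΛ0 : 0 ≤ Λ := (abs_nonneg _).trans (hΛ x (hsub hx'))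
        exact mul_le_mul (hΛ x (hsub hx')) h2 (abs_nonneg _) hΛ0)
    rw [Real.norm_eq_abs] at this
    calc _ ≤ Λ * |τ - c| * |τ - c| := this
      _ = Λ * |τ - c| ^ 2 := by ring

/-- Convex combinations of three points lie in their convex hull. -/
theorem mem_hull3 {P Q R : E3} {w₀ w₁ w₂ : ℝ} (h₀ : 0 ≤ w₀) (h₁ : 0 ≤ w₁) (h₂ : 0 ≤ w₂)
    (h : w₀ + w₁ + w₂ = 1) : w₀ • P + w₁ • Q + w₂ • R ∈ convexHull ℝ ({P, Q, R} : Set E3) := by
  have hc := convex_convexHull ℝ ({P, Q, R} : Set E3)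
  have := hc.sum_mem (t := Finset.univ) (w := ![w₀, w₁, w₂]) (z := ![P, Q, R])
    (by intro i _; fin_cases i <;> simp [h₀, h₁, h₂])
    (by simp [Fin.sum_univ_three, h])
    (by
      intro i _
      apply subset_convexHull
      fin_cases i <;> simp)
  simpa [Fin.sum_univ_three] using this

/-- The fan triangle in `(a, b)` coordinates with apex `P`, radius `ρ` and slopes in `[u, v]`. -/
def fan (a b P : E3) (ρ u v : ℝ) : Set E3 :=
  {z | ∃ x y : ℝ, 0 ≤ x ∧ x ≤ ρ ∧ u * x ≤ y ∧ y ≤ v * x ∧ z = P + x • a + y • b}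

theorem fan_subset_hull (a b P : E3) (ρ u v : ℝ) (hρ : 0 < ρ) (huv : u < v) :
    fan a b P ρ u v ⊆ convexHull ℝ {P, P + ρ • (a + u • b), P + ρ • (a + v • b)} := by
  rintro z ⟨x, y, hx0, hxρ, hy1, hy2, rfl⟩
  have hd : 0 < ρ * (v - u) := mul_pos hρ (sub_pos.mpr huv)
  have hvu : v - u ≠ 0 := (sub_pos.mpr huv).ne'
  have key := mem_hull3 (P := P) (Q := P + ρ • (a + u • b)) (R := P + ρ • (a + v • b))
    (w₀ := 1 - x / ρ) (w₁ := (v * x - y) / (ρ * (v - u))) (w₂ := (y - u * x) / (ρ * (v - u)))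
    (by rw [sub_nonneg, div_le_one hρ]; exact hxρ)
    (div_nonneg (by linarith) hd.le) (div_nonneg (by linarith) hd.le)
    (by field_simp; ring)
  convert key using 1
  have e1 : (v * x - y) / (ρ * (v - u)) * ρ + (y - u * x) / (ρ * (v - u)) * ρ = x := by
    field_simp; ring
  have e2 : (v * x - y) / (ρ * (v - u)) * ρ * u + (y - u * x) / (ρ * (v - u)) * ρ * v = y := by
    field_simp; ring
  have e3 : (1 - x / ρ) + (v * x - y) / (ρ * (v - u)) + (y - u * x) / (ρ * (v - u)) = 1 := by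
    field_simp; ring
  have : (1 - x / ρ) • P + ((v * x - y) / (ρ * (v - u))) • (P + ρ • (a + u • b)) +
      ((y - u * x) / (ρ * (v - u))) • (P + ρ • (a + v • b))
      = ((1 - x / ρ) + (v * x - y) / (ρ * (v - u)) + (y - u * x) / (ρ * (v - u))) • P
        + ((v * x - y) / (ρ * (v - u)) * ρ + (y - u * x) / (ρ * (v - u)) * ρ) • a
        + ((v * x - y) / (ρ * (v - u)) * ρ * u + (y - u * x) / (ρ * (v - u)) * ρ * v) • b := by
    module
  rw [this, e1, e2, e3, one_smul]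

theorem fan_convex (a b P : E3) (ρ u v : ℝ) : Convex ℝ (fan a b P ρ u v) := by
  rintro z₁ ⟨x₁, y₁, h1, h2, h3, h4, rfl⟩ z₂ ⟨x₂, y₂, k1, k2, k3, k4, rfl⟩ s t hs ht hst
  refine ⟨s * x₁ + t * x₂, s * y₁ + t * y₂, by positivity, ?_, ?_, ?_, ?_⟩
  · calc s * x₁ + t * x₂ ≤ s * ρ + t * ρ := by gcongr
      _ = ρ := by rw [← add_mul, hst, one_mul]
  · have := mul_le_mul_of_nonneg_left h3 hs
    have := mul_le_mul_of_nonneg_left k3 ht
    nlinarith
  · have := mul_le_mul_of_nonneg_left h4 hs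
    have := mul_le_mul_of_nonneg_left k4 ht
    nlinarith
  · have : s • (P + x₁ • a + y₁ • b) + t • (P + x₂ • a + y₂ • b)
        = (s + t) • P + (s * x₁ + t * x₂) • a + (s * y₁ + t * y₂) • b := by
      module
    rw [this, hst, one_smul]

theorem hull_subset_fan (a b P : E3) (ρ u v : ℝ) (hρ : 0 ≤ ρ) (huv : u ≤ v) :
    convexHull ℝ {P, P + ρ • (a + u • b), P + ρ • (a + v • b)} ⊆ fan a b P ρ u v := by
  apply convexHull_min _ (fan_convex a b P ρ u v)
  rintro z (rfl | rfl | rfl)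
  · exact ⟨0, 0, le_rfl, hρ, by simp, by simp, by simp⟩
  · refine ⟨ρ, ρ * u, hρ, le_rfl, by linarith [mul_comm ρ u], ?_, ?_⟩
    · nlinarith
    · rw [smul_add, smul_smul, add_assoc]
  · refine ⟨ρ, ρ * v, hρ, le_rfl, ?_, by linarith [mul_comm ρ v], ?_⟩
    · nlinarith
    · rw [smul_add, smul_smul, add_assoc]

/-- One piece of the ruled fan (parameter range `[u, v]`). -/
def piece (e a b p₀ : E3) (R : ℝ → ℝ) (w : ℝ → E3) (L u v : ℝ) : Set E3 :=
  {x | ∃ τ ∈ Icc u v, ∃ ρ ∈ Icc 0 (R τ), ∃ s : ℝ, |s| ≤ L ∧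
    x = p₀ + ρ • (a + τ • b) + s • (e + w τ)}

/-- Outer containment: modulo the axis `e + w c`, the piece lies in a slightly larger fan triangle
whose apex is pushed back along the middle ray. -/
theorem piece_subset (e a b p₀ : E3) (α β : ℝ) (R : ℝ → ℝ) (w : ℝ → E3) (lam : ℝ → ℝ)
    (hlam : ContinuousOn lam (Icc α β))
    (hw' : ∀ t ∈ Icc α β, HasDerivWithinAt w (lam t • (a + t • b)) (Icc α β) t)
    (Λ : ℝ) (hΛ : ∀ t ∈ Icc α β, |lam t| ≤ Λ) (L : ℝ) (hL : 0 < L)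
    (u v c : ℝ) (hu : α ≤ u) (hv : v ≤ β) (huc : u ≤ c) (hcv : c ≤ v)
    (Rbar x₀ ρbar : ℝ) (hRbar : ∀ τ ∈ Icc u v, R τ ≤ Rbar)
    (hx₀ : 4 * (L * Λ * (v - u)) ≤ x₀) (hρbar : Rbar + x₀ + L * Λ * (v - u) ≤ ρbar)
    (x : E3) (hx : x ∈ piece e a b p₀ R w L u v) :
    ∃ z ∈ fan a b (p₀ - x₀ • (a + ((u + v) / 2) • b)) ρbar u v, ∃ σ : ℝ, x = z + σ • (e + w c) := by
  obtain ⟨τ, hτ, ρ, hρ, s, hs, rfl⟩ := hx
  have hcI : c ∈ Icc α β := ⟨hu.trans huc, hcv.trans hv⟩
  have hτI : τ ∈ Icc α β := ⟨hu.trans hτ.1, hτ.2.trans hv⟩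
  obtain ⟨A, B, hAB, hA, hB⟩ := w_increment a b α β w lam hlam hw' Λ hΛ c τ hcI hτI
  have hΛ0 : 0 ≤ Λ := (abs_nonneg _).trans (hΛ c hcI)
  have hd0 : 0 ≤ v - u := by linarith
  have hτc : |τ - c| ≤ v - u := by
    rw [abs_le]; constructor <;> linarith [hτ.1, hτ.2]
  set μ := L * Λ * (v - u) with hμ
  have hμ0 : 0 ≤ μ := by positivity
  have hsA : |s * A| ≤ μ := by
    rw [abs_mul]
    calc |s| * |A| ≤ L * (Λ * |τ - c|) := mul_le_mul hs hA (abs_nonneg _) hL.le
      _ ≤ L * (Λ * (v - u)) := by gcongr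
      _ = μ := by rw [hμ]; ring
  have hsB : |s * (B - τ * A)| ≤ μ * (v - u) := by
    rw [abs_mul]
    calc |s| * |B - τ * A| ≤ L * (Λ * |τ - c| ^ 2) := mul_le_mul hs hB (abs_nonneg _) hL.le
      _ ≤ L * (Λ * (v - u) ^ 2) := by gcongr
      _ = μ * (v - u) := by rw [hμ]; ring
  rw [abs_le] at hsA hsB
  have hρR : ρ ≤ Rbar := hρ.2.trans (hRbar τ hτ)
  have hρ0 : 0 ≤ ρ := hρ.1
  have h1 : 0 ≤ τ - u := by linarith [hτ.1]
  have h2 : 0 ≤ v - τ := by linarith [hτ.2]
  refine ⟨p₀ + (ρ + s * A) • a + (ρ * τ + s * B) • b, ⟨ρ + s * A + x₀,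
    ρ * τ + s * B + x₀ * ((u + v) / 2), ?_, ?_, ?_, ?_, ?_⟩, s, ?_⟩
  · linarith [hsA.1]
  · linarith [hsA.2]
  · -- u * x ≤ y
    have e1 : ρ * τ + s * B + x₀ * ((u + v) / 2) - u * (ρ + s * A + x₀)
        = (τ - u) * (ρ + s * A + μ) + (v - u - (τ - u)) * μ + s * (B - τ * A)
          + (x₀ * (v - u) / 2 - μ * (v - u)) := by ring
    have e2 : 0 ≤ (τ - u) * (ρ + s * A + μ) := mul_nonneg h1 (by linarith [hsA.1])
    have e3 : 0 ≤ (v - u - (τ - u)) * μ := mul_nonneg (by linarith) hμ0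
    have e4 : 4 * μ * (v - u) ≤ x₀ * (v - u) := mul_le_mul_of_nonneg_right hx₀ hd0
    linarith [hsB.1]
  · have e1 : v * (ρ + s * A + x₀) - (ρ * τ + s * B + x₀ * ((u + v) / 2))
        = (v - τ) * (ρ + s * A + μ) + (v - u - (v - τ)) * μ - s * (B - τ * A)
          + (x₀ * (v - u) / 2 - μ * (v - u)) := by ring
    have e2 : 0 ≤ (v - τ) * (ρ + s * A + μ) := mul_nonneg h2 (by linarith [hsA.1])
    have e3 : 0 ≤ (v - u - (v - τ)) * μ := mul_nonneg (by linarith) hμ0
    have e4 : 4 * μ * (v - u) ≤ x₀ * (v - u) := mul_le_mul_of_nonneg_right hx₀ hd0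
    linarith [hsB.2]
  · module
  · have : w τ = w c + (A • a + B • b) := by rw [← hAB]; abel
    rw [this]
    module

/-- Inner containment: the exact fan triangle of radius `ρ ≤ R` lies in the piece. -/
theorem fan_subset_piece (e a b p₀ : E3) (R : ℝ → ℝ) (w : ℝ → E3) (L : ℝ) (hL : 0 < L)
    (u v : ℝ) (huv : u ≤ v) (ρ₀ : ℝ) (hρ₀ : ∀ τ ∈ Icc u v, ρ₀ ≤ R τ) :
    fan a b p₀ ρ₀ u v ⊆ piece e a b p₀ R w L u v := by
  rintro z ⟨x, y, hx0, hxρ, hy1, hy2, rfl⟩
  rcases hx0.eq_or_lt with h0 | hpos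
  · subst h0
    have hy : y = 0 := by
      have h1 : (0 : ℝ) ≤ y := by simpa using hy1
      have h2 : y ≤ 0 := by simpa using hy2
      exact le_antisymm h2 h1
    subst hy
    refine ⟨u, ⟨le_rfl, huv⟩, 0, ⟨le_rfl, hxρ.trans (hρ₀ u ⟨le_rfl, huv⟩)⟩, 0, by simpa using hL.le, ?_⟩
    simp
  · have hτ : y / x ∈ Icc u v := by
      constructor
      · rw [le_div_iff₀ hpos]; exact hy1
      · rw [div_le_iff₀ hpos]; exact hy2
    refine ⟨y / x, hτ, x, ⟨hpos.le, hxρ.trans (hρ₀ _ hτ)⟩, 0, by simpa using hL.le, ?_⟩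
    have : x * (y / x) = y := by field_simp
    rw [zero_smul, add_zero, smul_add, smul_smul, this, add_assoc]


/-- The orthogonal projection along `d` (as written in the statement). -/
noncomputable def prj (d y : E3) : E3 := y - (inner ℝ y d / ‖d‖ ^ 2) • d

theorem prj_eq_proj (d y : E3) : prj d y = proj (‖d‖⁻¹ • d) y := by
  unfold prj proj
  rw [inner_smul_right, smul_smul]
  congr 2
  simp only [div_eq_mul_inv]
  ring

theorem prj_isLinear (d : E3) : IsLinearMap ℝ (prj d) := by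
  constructor
  · intro x y
    unfold prj
    rw [inner_add_left, add_div, add_smul]
    abel
  · intro r x
    unfold prj
    rw [inner_smul_left, smul_sub, smul_smul]
    simp [mul_div_assoc]

theorem inner_prj (d y : E3) (hd : d ≠ 0) : inner ℝ (prj d y) d = 0 := by
  unfold prj
  rw [inner_sub_left, inner_smul_left, real_inner_self_eq_norm_sq]
  have : ‖d‖ ^ 2 ≠ 0 := by positivity
  simp
  field_simp
  ring

theorem inner3 (x y : E3) : inner ℝ x y = x 0 * y 0 + x 1 * y 1 + x 2 * y 2 := by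
  simp [PiLp.inner_apply, Fin.sum_univ_three]
  ring

theorem det3_fan (a b d : E3) (ρ u v k : ℝ) :
    det3 (ρ • (a + u • b)) (ρ • (a + v • b)) (k • d) = ρ ^ 2 * (v - u) * k * det3 a b d := by
  simp [det3]
  ring

theorem det3_add_right (a b x y : E3) : det3 a b (x + y) = det3 a b x + det3 a b y := by
  simp [det3]
  ring

theorem det3_eq_zero_of_perp (a b W e : E3) (he : ‖e‖ = 1) (ha : inner ℝ a e = 0)
    (hb : inner ℝ b e = 0) (hW : inner ℝ W e = 0) : det3 a b W = 0 := by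
  have he2 : e 0 * e 0 + e 1 * e 1 + e 2 * e 2 = 1 := by
    rw [← inner3, real_inner_self_eq_norm_sq, he]; norm_num
  rw [inner3] at ha hb hW
  have h0 : det3 a b W * e 0 = 0 := by
    unfold det3
    linear_combination (b 1 * W 2 - b 2 * W 1) * ha - (a 1 * W 2 - a 2 * W 1) * hb
      + (a 1 * b 2 - a 2 * b 1) * hW
  have h1 : det3 a b W * e 1 = 0 := by
    unfold det3
    linear_combination (-(b 0 * W 2 - b 2 * W 0)) * ha + (a 0 * W 2 - a 2 * W 0) * hb
      - (a 0 * b 2 - a 2 * b 0) * hW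
  have h2 : det3 a b W * e 2 = 0 := by
    unfold det3
    linear_combination (b 0 * W 1 - b 1 * W 0) * ha - (a 0 * W 1 - a 1 * W 0) * hb
      + (a 0 * b 1 - a 1 * b 0) * hW
  calc det3 a b W = det3 a b W * (e 0 * e 0 + e 1 * e 1 + e 2 * e 2) := by rw [he2, mul_one]
    _ = (det3 a b W * e 0) * e 0 + (det3 a b W * e 1) * e 1 + (det3 a b W * e 2) * e 2 := by ring
    _ = 0 := by rw [h0, h1, h2]; ring


theorem norm_axis (e W : E3) (he : ‖e‖ = 1) (hW : inner ℝ W e = 0) :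
    ‖e + W‖ = Real.sqrt (1 + ‖W‖ ^ 2) := by
  have h : ‖e + W‖ ^ 2 = 1 + ‖W‖ ^ 2 := by
    rw [norm_add_sq_real, he, real_inner_comm, hW]; ring
  rw [← h, Real.sqrt_sq (norm_nonneg _)]

theorem axis_ne_zero (e W : E3) (he : ‖e‖ = 1) (hW : inner ℝ W e = 0) : e + W ≠ 0 := by
  intro h
  have := norm_axis e W he hW
  rw [h, norm_zero] at this
  have h2 : 0 < Real.sqrt (1 + ‖W‖ ^ 2) := Real.sqrt_pos.mpr (by positivity)
  linarith

theorem abs_det3_frame (e a b : E3) (he : ‖e‖ = 1) (ha : inner ℝ a e = 0)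
    (hb : inner ℝ b e = 0) : |det3 a b e| = Real.sqrt (gram a b) := by
  have h := gram_proj e a b he
  have h1 : proj e a = a := by simp [proj, ha]
  have h2 : proj e b = b := by simp [proj, hb]
  rw [h1, h2] at h
  rw [h, Real.sqrt_sq_eq_abs]

theorem area_shadow_fan (e a b W P : E3) (he : ‖e‖ = 1) (ha : inner ℝ a e = 0)
    (hb : inner ℝ b e = 0) (hW : inner ℝ W e = 0) (ρ u v : ℝ) (huv : u ≤ v) :
    μHE[2] (prj (e + W) '' convexHull ℝ {P, P + ρ • (a + u • b), P + ρ • (a + v • b)}) =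
      ENNReal.ofReal (Real.sqrt (gram a b) *
        (ρ ^ 2 / (2 * Real.sqrt (1 + ‖W‖ ^ 2)) * (v - u))) := by
  have hd := axis_ne_zero e W he hW
  have hn : ‖(‖e + W‖⁻¹ • (e + W))‖ = 1 := by
    rw [norm_smul, norm_inv, norm_norm, inv_mul_cancel₀ (norm_ne_zero_iff.mpr hd)]
  have hfun : prj (e + W) = proj (‖e + W‖⁻¹ • (e + W)) := funext (prj_eq_proj _)
  rw [hfun, area_proj_triangle _ _ _ _ hn, add_sub_cancel_left, add_sub_cancel_left, det3_fan,
    det3_add_right, det3_eq_zero_of_perp a b W e he ha hb hW, add_zero, norm_axis e W he hW]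
  congr 1
  have hs : 0 < Real.sqrt (1 + ‖W‖ ^ 2) := Real.sqrt_pos.mpr (by positivity)
  rw [abs_mul, abs_mul, abs_mul, abs_det3_frame e a b he ha hb, abs_of_nonneg (sq_nonneg ρ),
    abs_of_nonneg (sub_nonneg.mpr huv), abs_of_pos (inv_pos.mpr hs)]
  field_simp

theorem eq_zero_of_prj_eq_zero (e W x : E3) (he : ‖e‖ = 1) (hW : inner ℝ W e = 0)
    (hx : inner ℝ x e = 0) (h : prj (e + W) x = 0) : x = 0 := by
  unfold prj at h
  rw [sub_eq_zero] at h
  set k := inner ℝ x (e + W) / ‖e + W‖ ^ 2 with hk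
  have h1 : inner ℝ x e = k * 1 := by
    conv_lhs => rw [h]
    rw [inner_smul_left, inner_add_left, hW, real_inner_self_eq_norm_sq, he]
    simp
  rw [hx] at h1
  have hk0 : k = 0 := by linarith
  rw [h, hk0, zero_smul]

theorem rays_indep (a b : E3) (hab : LinearIndependent ℝ ![a, b]) (u v : ℝ) (huv : u < v)
    (s t : ℝ) (h : s • (a + u • b) + t • (a + v • b) = 0) : s = 0 ∧ t = 0 := by
  have h' : (s + t) • a + (s * u + t * v) • b = 0 := by
    rw [← h]; module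
  obtain ⟨h1, h2⟩ := LinearIndependent.pair_iff.mp hab _ _ h'
  have ht : t * (v - u) = 0 := by
    have : s = -t := by linarith
    rw [this] at h2
    linarith
  have hvu : v - u ≠ 0 := (sub_pos.mpr huv).ne'
  have ht0 : t = 0 := by
    rcases mul_eq_zero.mp ht with h | h
    · exact h
    · exact absurd h hvu
  exact ⟨by linarith, ht0⟩

theorem affineIndependent_shadow (e a b W P : E3) (he : ‖e‖ = 1) (ha : inner ℝ a e = 0)
    (hb : inner ℝ b e = 0) (hW : inner ℝ W e = 0) (hab : LinearIndependent ℝ ![a, b])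
    (ρ u v : ℝ) (hρ : 0 < ρ) (huv : u < v) :
    AffineIndependent ℝ ![prj (e + W) P, prj (e + W) (P + ρ • (a + u • b)),
      prj (e + W) (P + ρ • (a + v • b))] := by
  rw [affineIndependent_iff_not_collinear_set]
  intro hcol
  rw [collinear_iff_of_mem (p₀ := prj (e + W) P) (by simp)] at hcol
  obtain ⟨dir, hdir⟩ := hcol
  obtain ⟨r₁, h₁⟩ := hdir (prj (e + W) (P + ρ • (a + u • b))) (by simp)
  obtain ⟨r₂, h₂⟩ := hdir (prj (e + W) (P + ρ • (a + v • b))) (by simp)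
  have hlin := prj_isLinear (e + W)
  rw [hlin.map_add, vadd_eq_add, add_comm] at h₁ h₂
  have h₁' : prj (e + W) (ρ • (a + u • b)) = r₁ • dir := add_right_cancel h₁
  have h₂' : prj (e + W) (ρ • (a + v • b)) = r₂ • dir := add_right_cancel h₂
  have hperp : ∀ s t : ℝ, inner ℝ (s • (a + u • b) + t • (a + v • b)) e = 0 := by
    intro s t
    simp [inner_add_left, inner_smul_left, ha, hb]
  have hz : prj (e + W) ((r₂ * ρ) • (a + u • b) + (-(r₁ * ρ)) • (a + v • b)) = 0 := by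
    have e1 : (r₂ * ρ) • (a + u • b) + (-(r₁ * ρ)) • (a + v • b)
        = r₂ • (ρ • (a + u • b)) + (-r₁) • (ρ • (a + v • b)) := by module
    rw [e1, hlin.map_add, hlin.map_smul r₂, hlin.map_smul (-r₁), h₁', h₂']
    module
  have := eq_zero_of_prj_eq_zero e W _ he hW (hperp _ _) hz
  obtain ⟨k1, k2⟩ := rays_indep a b hab u v huv _ _ this
  have hr₂ : r₂ = 0 := by
    rcases mul_eq_zero.mp k1 with h | h
    · exact h
    · exact absurd h hρ.ne'
  rw [hr₂, zero_smul] at h₂'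
  have h3 : prj (e + W) ((0 : ℝ) • (a + u • b) + ρ • (a + v • b)) = 0 := by
    rw [zero_smul, zero_add]; exact h₂'
  have := eq_zero_of_prj_eq_zero e W _ he hW (hperp _ _) h3
  obtain ⟨_, k3⟩ := rays_indep a b hab u v huv _ _ this
  exact hρ.ne' k3

end Crest.Agent.R211.S0328
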