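import Mathlib

/-!
Row 211, S0328: Riemann sums of continuous functions over tagged partitions indexed by `Fin`.
-/

open MeasureTheory Set

namespace Crest.Agent.R211.S0328

/-- Telescoping sum over a `Fin`-indexed partition. -/
theorem sum_diff_telescope (N : ℕ) (t : Fin (N + 1) → ℝ) :
    ∑ i : Fin N, (t i.succ - t i.castSucc) = t (Fin.last N) - t 0 := by
  induction N with
  | zero => simp
  | succ n ih =>
    rw [Fin.sum_univ_castSucc]
    have := ih (fun j => t j.castSucc)
    simp only [Fin.succ_castSucc] at *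
    rw [this]
    simp

/-- All points of a monotone partition lie between its end points. -/
theorem mem_Icc_of_partition (N : ℕ) (t : Fin (N + 1) → ℝ) (ht : StrictMono t) (j : Fin (N + 1)) :
    t j ∈ Icc (t 0) (t (Fin.last N)) :=
  ⟨ht.monotone (Fin.zero_le j), ht.monotone (Fin.le_last j)⟩

/-- Additivity of the integral over a `Fin`-indexed partition. -/
theorem sum_integral_partition (f : ℝ → ℝ) (N : ℕ) (t : Fin (N + 1) → ℝ)
    (hint : ∀ i j : Fin (N + 1), IntervalIntegrable f volume (t i) (t j)) :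
    ∑ i : Fin N, ∫ τ in (t i.castSucc)..(t i.succ), f τ = ∫ τ in (t 0)..(t (Fin.last N)), f τ := by
  induction N with
  | zero => simp
  | succ n ih =>
    rw [Fin.sum_univ_castSucc]
    have := ih (fun j => t j.castSucc) (fun i j => hint _ _)
    simp only [Fin.succ_castSucc] at *
    rw [this]
    have h2 : ((0 : Fin (n + 1))).castSucc = (0 : Fin (n + 2)) := rfl
    rw [Fin.succ_last, h2]
    exact intervalIntegral.integral_add_adjacent_intervals (hint _ _) (hint _ _)

/-- Riemann sums of a continuous function over tagged partitions of small mesh. -/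
theorem riemann_sum_close (f : ℝ → ℝ) (α β : ℝ) (hαβ : α < β) (hf : ContinuousOn f (Icc α β))
    (ε : ℝ) (hε : 0 < ε) :
    ∃ δ : ℝ, 0 < δ ∧ ∀ (N : ℕ) (t : Fin (N + 1) → ℝ) (c : Fin N → ℝ),
      StrictMono t → t 0 = α → t (Fin.last N) = β →
      (∀ i : Fin N, t i.succ - t i.castSucc ≤ δ) →
      (∀ i : Fin N, t i.castSucc ≤ c i ∧ c i ≤ t i.succ) →
      |∑ i : Fin N, f (c i) * (t i.succ - t i.castSucc) - ∫ τ in α..β, f τ| ≤ ε := by
  have huc : UniformContinuousOn f (Icc α β) :=
    isCompact_Icc.uniformContinuousOn_of_continuous hf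
  have hβα : 0 < β - α := sub_pos.mpr hαβ
  obtain ⟨δ', hδ', hδ⟩ := Metric.uniformContinuousOn_iff.mp huc (ε / (β - α)) (div_pos hε hβα)
  refine ⟨δ' / 2, half_pos hδ', ?_⟩
  intro N t c ht h0 hN hmesh htag
  have hmem : ∀ j, t j ∈ Icc α β := fun j => by
    have := mem_Icc_of_partition N t ht j
    rwa [h0, hN] at this
  have hint : ∀ x y, x ∈ Icc α β → y ∈ Icc α β → IntervalIntegrable f volume x y := by
    intro x y hx hy
    apply ContinuousOn.intervalIntegrable
    apply hf.mono
    exact Set.uIcc_subset_Icc hx hy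
  have hsum := sum_integral_partition f N t (fun i j => hint _ _ (hmem i) (hmem j))
  rw [h0, hN] at hsum
  rw [← hsum, ← Finset.sum_sub_distrib]
  have hterm : ∀ i : Fin N, |f (c i) * (t i.succ - t i.castSucc) -
      ∫ τ in (t i.castSucc)..(t i.succ), f τ| ≤ ε / (β - α) * (t i.succ - t i.castSucc) := by
    intro i
    have hle : t i.castSucc ≤ t i.succ := (htag i).1.trans (htag i).2
    have hc : c i ∈ Icc α β := ⟨(hmem _).1.trans (htag i).1, (htag i).2.trans (hmem _).2⟩
    have h1 : f (c i) * (t i.succ - t i.castSucc) = ∫ _τ in (t i.castSucc)..(t i.succ), f (c i) := by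
      rw [intervalIntegral.integral_const, smul_eq_mul, mul_comm]
    rw [h1, ← intervalIntegral.integral_sub (intervalIntegrable_const) (hint _ _ (hmem _) (hmem _))]
    have h2 := intervalIntegral.norm_integral_le_of_norm_le_const
      (a := t i.castSucc) (b := t i.succ) (f := fun τ => f (c i) - f τ) (C := ε / (β - α)) ?_
    · rw [Real.norm_eq_abs, abs_of_nonneg (sub_nonneg.mpr hle)] at h2
      exact h2
    · intro x hx
      rw [Set.uIoc_of_le hle] at hx
      have hx' : x ∈ Icc α β := ⟨(hmem _).1.trans hx.1.le, hx.2.trans (hmem _).2⟩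
      have hd : dist (c i) x < δ' := by
        rw [Real.dist_eq]
        have := hmesh i
        have h3 : |c i - x| ≤ t i.succ - t i.castSucc := by
          rw [abs_le]; constructor <;> linarith [(htag i).1, (htag i).2, hx.1, hx.2]
        linarith
      have := hδ _ hc _ hx' hd
      rw [Real.dist_eq] at this
      rw [Real.norm_eq_abs]
      exact this.le
  calc |∑ i : Fin N, (f (c i) * (t i.succ - t i.castSucc) -
        ∫ τ in (t i.castSucc)..(t i.succ), f τ)|
      ≤ ∑ i : Fin N, |f (c i) * (t i.succ - t i.castSucc) -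
        ∫ τ in (t i.castSucc)..(t i.succ), f τ| := Finset.abs_sum_le_sum_abs _ _
    _ ≤ ∑ i : Fin N, ε / (β - α) * (t i.succ - t i.castSucc) := Finset.sum_le_sum fun i _ => hterm i
    _ = ε / (β - α) * (β - α) := by
        rw [← Finset.mul_sum, sum_diff_telescope, h0, hN]
    _ = ε := by field_simp

/-- Sandwich form: quantities `m i` that are within `E * (mesh i)` of the Riemann summands. -/
theorem sum_close_of_close (f : ℝ → ℝ) (α β : ℝ) (N : ℕ) (t : Fin (N + 1) → ℝ) (c : Fin N → ℝ)
    (h0 : t 0 = α) (hN : t (Fin.last N) = β) (ε E : ℝ)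
    (hR : |∑ i : Fin N, f (c i) * (t i.succ - t i.castSucc) - ∫ τ in α..β, f τ| ≤ ε)
    (m : Fin N → ℝ)
    (hm : ∀ i, |m i - f (c i) * (t i.succ - t i.castSucc)| ≤ E * (t i.succ - t i.castSucc)) :
    |∑ i, m i - ∫ τ in α..β, f τ| ≤ ε + E * (β - α) := by
  have h1 : |∑ i, m i - ∑ i : Fin N, f (c i) * (t i.succ - t i.castSucc)| ≤ E * (β - α) := by
    rw [← Finset.sum_sub_distrib]
    calc _ ≤ ∑ i : Fin N, |m i - f (c i) * (t i.succ - t i.castSucc)| :=
          Finset.abs_sum_le_sum_abs _ _
      _ ≤ ∑ i : Fin N, E * (t i.succ - t i.castSucc) := Finset.sum_le_sum fun i _ => hm i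
      _ = E * (β - α) := by rw [← Finset.mul_sum, sum_diff_telescope, h0, hN]
  have h2 := abs_add_le (∑ i, m i - ∑ i : Fin N, f (c i) * (t i.succ - t i.castSucc))
    (∑ i : Fin N, f (c i) * (t i.succ - t i.castSucc) - ∫ τ in α..β, f τ)
  rw [sub_add_sub_cancel] at h2
  linarith

end Crest.Agent.R211.S0328
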