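import Crest.Agent.R211.S0328_Geom
import Crest.Agent.R211.S0328_Riemann

/-!
Row 211, S0328: per-piece data and elementary estimates for the final assembly.
-/

open MeasureTheory Set

namespace Crest.Agent.R211.S0328

open Crest.Agent.R211

theorem prj_add_smul_self (d z : E3) (σ : ℝ) : prj d (z + σ • d) = prj d z := by
  by_cases hd : d = 0
  · subst hd; simp [prj]
  · have hn : ‖d‖ ^ 2 ≠ 0 := by positivity
    unfold prj
    rw [inner_add_left, inner_smul_left, real_inner_self_eq_norm_sq, add_div,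
      mul_div_assoc, div_self hn, add_smul]
    simp
    

theorem image_prj_hull (d P Q S : E3) :
    prj d '' convexHull ℝ {P, Q, S} = convexHull ℝ {prj d P, prj d Q, prj d S} := by
  rw [(prj_isLinear d).image_convexHull, Set.image_insert_eq, Set.image_insert_eq,
    Set.image_singleton]

/-- every point of `[t 0, t last)` lies in one of the partition intervals -/
theorem exists_piece_lt (τ : ℝ) : ∀ (N : ℕ) (t : Fin (N + 1) → ℝ), t 0 ≤ τ → τ < t (Fin.last N) →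
    ∃ i : Fin N, t i.castSucc ≤ τ ∧ τ < t i.succ := by
  intro N
  induction N with
  | zero => intro t h1 h2; exact absurd (lt_of_le_of_lt h1 h2) (lt_irrefl _)
  | succ n ih =>
    intro t h1 h2
    by_cases h : τ < t (Fin.last n).castSucc
    · obtain ⟨i, hi1, hi2⟩ := ih (fun j => t j.castSucc) h1 h
      exact ⟨i.castSucc, hi1, by rw [← Fin.succ_castSucc] at hi2; exact hi2⟩
    · exact ⟨Fin.last n, not_lt.mp h, by rw [Fin.succ_last]; exact h2⟩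

theorem exists_piece (τ : ℝ) (N : ℕ) (t : Fin (N + 1) → ℝ) (ht : StrictMono t)
    (h0N : t 0 < t (Fin.last N)) (h1 : t 0 ≤ τ) (h2 : τ ≤ t (Fin.last N)) :
    ∃ i : Fin N, τ ∈ Icc (t i.castSucc) (t i.succ) := by
  rcases h2.lt_or_eq with h | h
  · obtain ⟨i, hi1, hi2⟩ := exists_piece_lt τ N t h1 h
    exact ⟨i, hi1, hi2.le⟩
  · cases N with
    | zero => exact absurd h0N (lt_irrefl _)
    | succ n =>
      refine ⟨Fin.last n, ?_, ?_⟩
      · rw [h]; exact ht.monotone (Fin.le_last _)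
      · rw [h, Fin.succ_last]

theorem est_outer (r Rmax ζ E s : ℝ) (hr0 : 0 ≤ r) (hr : r ≤ Rmax) (hζ0 : 0 < ζ) (hζ1 : ζ ≤ 1)
    (hE : ζ * (Rmax + 1) ≤ E) (hs : 1 ≤ s) :
    |(r + ζ) ^ 2 / (2 * s) - r ^ 2 / (2 * s)| ≤ E := by
  have hs0 : 0 < 2 * s := by linarith
  rw [← sub_div, abs_div, abs_of_pos hs0, div_le_iff₀ hs0]
  have h1 : (r + ζ) ^ 2 - r ^ 2 = 2 * r * ζ + ζ ^ 2 := by ring
  have h2 : 0 ≤ 2 * r * ζ + ζ ^ 2 := by positivity
  rw [h1, abs_of_nonneg h2]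
  have hE0 : 0 ≤ E := le_trans (mul_nonneg hζ0.le (by linarith)) hE
  have h3 : 2 * r * ζ + ζ ^ 2 ≤ 2 * (ζ * (Rmax + 1)) := by nlinarith
  nlinarith

theorem est_inner (r Rmax ζ E s : ℝ) (hr0 : 0 ≤ r) (hr : r ≤ Rmax) (hζ0 : 0 < ζ)
    (hE : ζ * (Rmax + 1) ≤ E) (hs : 1 ≤ s) :
    |(max (r - ζ / 2) 0) ^ 2 / (2 * s) - r ^ 2 / (2 * s)| ≤ E := by
  have hs0 : 0 < 2 * s := by linarith
  rw [← sub_div, abs_div, abs_of_pos hs0, div_le_iff₀ hs0]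
  set ρ := max (r - ζ / 2) 0 with hρ
  have hρ0 : 0 ≤ ρ := le_max_right _ _
  have hρ1 : r - ζ / 2 ≤ ρ := le_max_left _ _
  have hρ2 : ρ ≤ r := max_le (by linarith) hr0
  have h2 : ρ ^ 2 - r ^ 2 ≤ 0 := by nlinarith
  rw [abs_of_nonpos h2]
  have hE0 : 0 ≤ E := le_trans (mul_nonneg hζ0.le (by linarith)) hE
  have h3 : -(ρ ^ 2 - r ^ 2) ≤ 2 * (ζ * (Rmax + 1)) := by nlinarith
  nlinarith

theorem piece_data (e a b p₀ : E3) (he : ‖e‖ = 1)
    (ha : inner ℝ a e = 0) (hb : inner ℝ b e = 0)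
    (hab : LinearIndependent ℝ ![a, b]) (L : ℝ) (hL : 0 < L) (α β : ℝ)
    (R : ℝ → ℝ) (hR0 : ∀ t ∈ Icc α β, 0 ≤ R t)
    (w : ℝ → E3) (hw : ∀ t ∈ Icc α β, inner ℝ (w t) e = 0)
    (lam : ℝ → ℝ) (hlam : ContinuousOn lam (Icc α β))
    (hw' : ∀ t ∈ Icc α β, HasDerivWithinAt w (lam t • (a + t • b)) (Icc α β) t)
    (Λ : ℝ) (hΛ : ∀ t ∈ Icc α β, |lam t| ≤ Λ)
    (u v c : ℝ) (hu : α ≤ u) (hv : v ≤ β) (huv : u < v) (huc : u ≤ c) (hcv : c ≤ v)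
    (ζ : ℝ) (hζ : 0 < ζ) (hosc : ∀ τ ∈ Icc u v, |R τ - R c| ≤ ζ / 2)
    (hmesh : 5 * (L * Λ * (v - u)) ≤ ζ / 2) :
    ∃ p q r : E3,
      (inner ℝ p (e + w c) = 0 ∧ inner ℝ q (e + w c) = 0 ∧ inner ℝ r (e + w c) = 0) ∧
      AffineIndependent ℝ ![p, q, r] ∧
      piece e a b p₀ R w L u v ⊆
        {x | ∃ y ∈ convexHull ℝ {p, q, r}, ∃ σ : ℝ, x = y + σ • (e + w c)} ∧
      μHE[2] (convexHull ℝ ({p, q, r} : Set E3)) = ENNReal.ofReal (Real.sqrt (gram a b) *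
        ((R c + ζ) ^ 2 / (2 * Real.sqrt (1 + ‖w c‖ ^ 2)) * (v - u))) ∧
      μHE[2] (prj (e + w c) '' piece e a b p₀ R w L u v) ≤ ENNReal.ofReal (Real.sqrt (gram a b) *
        ((R c + ζ) ^ 2 / (2 * Real.sqrt (1 + ‖w c‖ ^ 2)) * (v - u))) ∧
      ENNReal.ofReal (Real.sqrt (gram a b) *
        ((max (R c - ζ / 2) 0) ^ 2 / (2 * Real.sqrt (1 + ‖w c‖ ^ 2)) * (v - u))) ≤
        μHE[2] (prj (e + w c) '' piece e a b p₀ R w L u v) := by
  have hc : c ∈ Icc α β := ⟨hu.trans huc, hcv.trans hv⟩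
  have hW := hw c hc
  have hd := axis_ne_zero e (w c) he hW
  have hRc := hR0 c hc
  have hρ : 0 < R c + ζ := by linarith
  set P : E3 := p₀ - (4 * (L * Λ * (v - u))) • (a + ((u + v) / 2) • b) with hP
  have hsub : ∀ x ∈ piece e a b p₀ R w L u v,
      ∃ z ∈ convexHull ℝ {P, P + (R c + ζ) • (a + u • b), P + (R c + ζ) • (a + v • b)},
        ∃ σ : ℝ, x = z + σ • (e + w c) := by
    intro x hx
    obtain ⟨z, hz, σ, hxz⟩ := piece_subset e a b p₀ α β R w lam hlam hw' Λ hΛ L hL u v c hu hv huc hcv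
      (R c + ζ / 2) (4 * (L * Λ * (v - u))) (R c + ζ)
      (fun τ hτ => by have := abs_le.mp (hosc τ hτ); linarith [this.2]) le_rfl (by linarith) x hx
    exact ⟨z, fan_subset_hull a b P _ u v hρ huv hz, σ, hxz⟩
  have harea := area_shadow_fan e a b (w c) P he ha hb hW (R c + ζ) u v huv.le
  refine ⟨prj (e + w c) P, prj (e + w c) (P + (R c + ζ) • (a + u • b)),
    prj (e + w c) (P + (R c + ζ) • (a + v • b)),
    ⟨inner_prj _ _ hd, inner_prj _ _ hd, inner_prj _ _ hd⟩,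
    affineIndependent_shadow e a b (w c) P he ha hb hW hab _ u v hρ huv, ?_, ?_, ?_, ?_⟩
  · intro x hx
    obtain ⟨z, hz, σ, hxz⟩ := hsub x hx
    refine ⟨prj (e + w c) z, ?_, σ + inner ℝ z (e + w c) / ‖e + w c‖ ^ 2, ?_⟩
    · rw [← image_prj_hull]; exact mem_image_of_mem _ hz
    · rw [hxz]; unfold prj; module
  · rw [← image_prj_hull]; exact harea
  · rw [← harea]
    apply measure_mono
    rintro _ ⟨x, hx, rfl⟩
    obtain ⟨z, hz, σ, hxz⟩ := hsub x hx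
    exact ⟨z, hz, by rw [hxz, prj_add_smul_self]⟩
  · rw [← area_shadow_fan e a b (w c) p₀ he ha hb hW (max (R c - ζ / 2) 0) u v huv.le]
    apply measure_mono
    apply image_mono
    refine (hull_subset_fan a b p₀ _ u v (le_max_right _ _) huv.le).trans ?_
    apply fan_subset_piece e a b p₀ R w L hL u v huv.le
    intro τ hτ
    have hτ' : τ ∈ Icc α β := ⟨hu.trans hτ.1, hτ.2.trans hv⟩
    apply max_le
    · have := abs_le.mp (hosc τ hτ); linarith [this.1]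
    · exact hR0 τ hτ'

theorem key_sum (κ : ℝ) (hκ : 0 ≤ κ) (R : ℝ → ℝ) (w : ℝ → E3) (α β : ℝ) (N : ℕ)
    (t : Fin (N + 1) → ℝ) (c : Fin N → ℝ) (ht : StrictMono t)
    (h0 : t 0 = α) (hN : t (Fin.last N) = β) (ε E : ℝ)
    (hRiem : |∑ i : Fin N, (R (c i) ^ 2 / (2 * Real.sqrt (1 + ‖w (c i)‖ ^ 2))) *
        (t i.succ - t i.castSucc) - ∫ τ in α..β, R τ ^ 2 / (2 * Real.sqrt (1 + ‖w τ‖ ^ 2))| ≤ ε)
    (ρ : Fin N → ℝ)
    (hρ : ∀ i, |ρ i ^ 2 / (2 * Real.sqrt (1 + ‖w (c i)‖ ^ 2)) -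
      R (c i) ^ 2 / (2 * Real.sqrt (1 + ‖w (c i)‖ ^ 2))| ≤ E) :
    |∑ i : Fin N, κ * (ρ i ^ 2 / (2 * Real.sqrt (1 + ‖w (c i)‖ ^ 2)) * (t i.succ - t i.castSucc)) -
      κ * ∫ τ in α..β, R τ ^ 2 / (2 * Real.sqrt (1 + ‖w τ‖ ^ 2))| ≤ κ * (ε + E * (β - α)) := by
  rw [← Finset.mul_sum, ← mul_sub, abs_mul, abs_of_nonneg hκ]
  apply mul_le_mul_of_nonneg_left _ hκ
  apply sum_close_of_close (fun τ => R τ ^ 2 / (2 * Real.sqrt (1 + ‖w τ‖ ^ 2))) α β N t c h0 hN ε E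
    hRiem
  intro i
  have hΔ : 0 ≤ t i.succ - t i.castSucc := sub_nonneg.mpr (ht.monotone (Fin.castSucc_lt_succ).le)
  rw [← sub_mul, abs_mul, abs_of_nonneg hΔ]
  exact mul_le_mul_of_nonneg_right (hρ i) hΔ

end Crest.Agent.R211.S0328
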