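import Crest.Agent.R211.Area
import Crest.Agent.R211.Perp

/-!
Row 211, task T3B: helpers for S0327 (similarity transport, triangles → parallelograms,
relatively open bases).
-/

open MeasureTheory
open scoped ENNReal Pointwise

set_option linter.unusedSimpArgs false

namespace Crest.Agent.R211

/-- Areas scale by `r ^ 2` under a similarity of ratio `r`. -/
theorem T3B_area_similar (U : E3 ≃ₗᵢ[ℝ] E3) (r : ℝ) (hr : 0 < r) (t : E3) (S : Set E3) :
    μHE[2] ((fun x => t + r • U x) '' S) = ENNReal.ofReal (r ^ 2) * μHE[2] S := by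
  have h1 : (fun x => t + r • U x) '' S = (fun y => t + y) '' (r • (U '' S)) := by
    ext x
    simp only [Set.mem_image, Set.mem_smul_set]
    constructor
    · rintro ⟨y, hy, rfl⟩
      exact ⟨r • U y, ⟨U y, ⟨y, hy, rfl⟩, rfl⟩, rfl⟩
    · rintro ⟨_, ⟨_, ⟨y, hy, rfl⟩, rfl⟩, rfl⟩
      exact ⟨y, hy, rfl⟩
  rw [h1, (isometry_add_left t).euclideanHausdorffMeasure_image,
    Measure.euclideanHausdorffMeasure_smul₀ 2 hr.ne', U.isometry.euclideanHausdorffMeasure_image]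
  rw [ENNReal.smul_def, smul_eq_mul]
  congr 1
  rw [ENNReal.ofReal_pow hr.le, ENNReal.coe_pow]
  congr 1
  rw [ENNReal.ofReal, Real.toNNReal_of_nonneg hr.le]
  congr 1
  ext
  simp [abs_of_pos hr]

/-- A compact subset of the plane `u^⊥` has bounded relatively open neighbourhoods in the plane
of almost the same area. -/
theorem T3B_exists_open_base (u : E3) (hu : ‖u‖ = 1) (T : Set E3) (hT : IsCompact T)
    (hTu : ∀ x ∈ T, inner ℝ x u = 0) (ε : ℝ) (hε : 0 < ε) :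
    ∃ B : Set E3, Bornology.IsBounded B ∧
      (∃ O : Set E3, IsOpen O ∧ B = O ∩ {x | inner ℝ x u = 0}) ∧ T ⊆ B ∧
      (μHE[2] B).toReal ≤ (μHE[2] T).toReal + ε := by
  set Pl : Set E3 := {x | inner ℝ x u = 0} with hPl
  set μ : Measure E3 := (μHE[2] : Measure E3).restrict Pl with hμ
  have hfin : ∀ R : ℝ, μHE[2] (Metric.thickening R T ∩ Pl) < ⊤ := by
    intro R
    refine area_lt_top_of_bounded u hu _ (fun x hx => hx.2) ?_
    exact (hT.isBounded.thickening).subset Set.inter_subset_left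
  have happ : ∀ R : ℝ, μ (Metric.thickening R T) = μHE[2] (Metric.thickening R T ∩ Pl) := by
    intro R
    rw [hμ, Measure.restrict_apply Metric.isOpen_thickening.measurableSet]
  have hTm : μ T = μHE[2] T := by
    rw [hμ, Measure.restrict_apply hT.isClosed.measurableSet]
    congr 1
    exact Set.inter_eq_left.mpr hTu
  have hTfin : μHE[2] T < ⊤ := area_lt_top_of_bounded u hu _ hTu hT.isBounded
  have hlim := tendsto_measure_thickening_of_isClosed (μ := μ) (s := T)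
    ⟨1, one_pos, by rw [happ]; exact (hfin 1).ne⟩ hT.isClosed
  have hlt : μ T < μHE[2] T + ENNReal.ofReal ε := by
    rw [hTm]
    exact ENNReal.lt_add_right hTfin.ne (by simpa using hε)
  have hev := hlim.eventually (gt_mem_nhds hlt)
  have hev2 : ∀ᶠ r : ℝ in nhdsWithin 0 (Set.Ioi 0), 0 < r := eventually_mem_nhdsWithin
  obtain ⟨τ, hτ1, hτ0⟩ := (hev.and hev2).exists
  refine ⟨Metric.thickening τ T ∩ Pl, (hT.isBounded.thickening).subset Set.inter_subset_left,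
    ⟨_, Metric.isOpen_thickening, rfl⟩,
    fun x hx => ⟨Metric.self_subset_thickening hτ0 T hx, hTu x hx⟩, ?_⟩
  rw [happ] at hτ1
  have := ENNReal.toReal_mono (by finiteness) hτ1.le
  rwa [ENNReal.toReal_add hTfin.ne (by finiteness), ENNReal.toReal_ofReal hε.le] at this


theorem T3B_gram_smul (x y : ℝ) (a b : E3) : gram (x • a) (y • b) = (x * y) ^ 2 * gram a b := by
  unfold gram
  rw [norm_smul, norm_smul, real_inner_smul_left, real_inner_smul_right, Real.norm_eq_abs,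
    Real.norm_eq_abs, mul_pow, mul_pow, sq_abs, sq_abs]
  ring

theorem T3B_gram_sub (a b : E3) : gram a (b - a) = gram a b := by
  unfold gram
  rw [norm_sub_sq_real, inner_sub_right, real_inner_self_eq_norm_sq, real_inner_comm]
  ring

theorem T3B_exists_nat (n : ℕ) (hn : 0 < n) (y : ℝ) (h0 : 0 ≤ y) (h1 : y ≤ n) :
    ∃ j : ℕ, j < n ∧ (j : ℝ) ≤ y ∧ y ≤ (j : ℝ) + 1 := by
  rcases eq_or_lt_of_le h1 with h | h
  · refine ⟨n - 1, by omega, ?_, ?_⟩
    · rw [h]; exact_mod_cast Nat.sub_le n 1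
    · rw [h]
      have : ((n - 1 : ℕ) : ℝ) = (n : ℝ) - 1 := by
        rw [Nat.cast_sub (by omega)]; simp
      rw [this]; linarith
  · refine ⟨⌊y⌋₊, (Nat.floor_lt h0).mpr h, Nat.floor_le h0, (Nat.lt_floor_add_one y).le⟩

theorem T3B_triangle_subset (P Q R : E3) (n : ℕ) (hn : 0 < n) :
    convexHull ℝ {P, Q, R} ⊆ ⋃ j : Fin n,
      pgram (P + ((j : ℝ) / n) • (Q - P)) ((1 / n : ℝ) • (Q - P))
        ((((j : ℝ) + 1) / n) • (R - Q)) := by
  intro x hx
  rw [convexHull_insert (Set.insert_nonempty _ _), convexHull_pair, mem_convexJoin] at hx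
  obtain ⟨a, ha, b, hb, hx⟩ := hx
  rw [Set.mem_singleton_iff] at ha
  subst ha
  obtain ⟨γ, δ, hγ, hδ, hγδ, rfl⟩ := hb
  obtain ⟨α, β, hα, hβ, hαβ, rfl⟩ := hx
  have hn' : (0 : ℝ) < n := by exact_mod_cast hn
  have hβ1 : β ≤ 1 := by linarith
  have hδ1 : δ ≤ 1 := by linarith
  obtain ⟨j, hj, hj0, hj1⟩ := T3B_exists_nat n hn (β * n) (by positivity)
    (by nlinarith)
  rw [Set.mem_iUnion]
  refine ⟨⟨j, hj⟩, β * n - j, ⟨by linarith, by linarith⟩, β * δ * n / ((j : ℝ) + 1), ⟨by positivity, ?_⟩, ?_⟩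
  · rw [div_le_one (by positivity)]
    have : β * δ * n ≤ β * n := by
      have : β * n * δ ≤ β * n * 1 := mul_le_mul_of_nonneg_left hδ1 (by positivity)
      linarith
    linarith
  · have h1 : (j : ℝ) / n + (β * n - j) * (1 / n) = β := by field_simp; ring
    have h2 : β * δ * n / ((j : ℝ) + 1) * (((j : ℝ) + 1) / n) = β * δ := by
      have : (j : ℝ) + 1 ≠ 0 := by positivity
      field_simp
    have hα' : α = 1 - β := by linarith
    have hγ' : γ = 1 - δ := by linarith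
    have : a + ((j : ℝ) / n) • (Q - a) + (β * n - j) • ((1 / n : ℝ) • (Q - a)) +
        (β * δ * n / ((j : ℝ) + 1)) • ((((j : ℝ) + 1) / n) • (R - Q)) =
        a + ((j : ℝ) / n + (β * n - j) * (1 / n)) • (Q - a) +
        (β * δ * n / ((j : ℝ) + 1) * (((j : ℝ) + 1) / n)) • (R - Q) := by
      module
    simp only []
    rw [this, h1, h2, hα', hγ']
    module

theorem T3B_sum_succ (n : ℕ) : ∑ j : Fin n, ((j : ℝ) + 1) = (n : ℝ) * (n + 1) / 2 := by
  rw [Fin.sum_univ_eq_sum_range (fun j => (j : ℝ) + 1) n]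
  induction n with
  | zero => simp
  | succ k ih => rw [Finset.sum_range_succ, ih]; push_cast; ring

theorem T3B_sum_area (u P Q R : E3) (hu : ‖u‖ = 1) (hP : inner ℝ P u = 0)
    (hQ : inner ℝ Q u = 0) (hR : inner ℝ R u = 0) (n : ℕ) (hn : 0 < n) :
    ∑ j : Fin n, (μHE[2] (pgram (P + ((j : ℝ) / n) • (Q - P)) ((1 / n : ℝ) • (Q - P))
        ((((j : ℝ) + 1) / n) • (R - Q)))).toReal =
      (1 + 1 / (n : ℝ)) * (μHE[2] (convexHull ℝ {P, Q, R})).toReal := by
  have hn' : (0 : ℝ) < n := by exact_mod_cast hn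
  have hQP : inner ℝ (Q - P) u = 0 := by rw [inner_sub_left, hQ, hP, sub_zero]
  have hRQ : inner ℝ (R - Q) u = 0 := by rw [inner_sub_left, hR, hQ, sub_zero]
  have hG : gram (Q - P) (R - Q) = gram (Q - P) (R - P) := by
    rw [← T3B_gram_sub (Q - P) (R - P)]
    congr 1
    abel
  have key : ∀ j : Fin n, (μHE[2] (pgram (P + ((j : ℝ) / n) • (Q - P)) ((1 / n : ℝ) • (Q - P))
        ((((j : ℝ) + 1) / n) • (R - Q)))).toReal =
        ((j : ℝ) + 1) * (Real.sqrt (gram (Q - P) (R - P)) / (n : ℝ) ^ 2) := by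
    intro j
    rw [area_pgram u _ _ _ hu
      (by rw [inner_add_left, real_inner_smul_left, hP, hQP]; simp)
      (by rw [real_inner_smul_left, hQP]; simp)
      (by rw [real_inner_smul_left, hRQ]; simp),
      ENNReal.toReal_ofReal (Real.sqrt_nonneg _), T3B_gram_smul, hG,
      Real.sqrt_mul (sq_nonneg _), Real.sqrt_sq (by positivity)]
    field_simp
  rw [Finset.sum_congr rfl (fun j _ => key j), ← Finset.sum_mul, T3B_sum_succ,
    area_triangle u P Q R hu hP hQ hR, ENNReal.toReal_ofReal (by positivity)]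
  field_simp


/-- The similarity `x ↦ t + ρ • U x` as an affine map. -/
noncomputable def T3B_aff (U : E3 ≃ₗᵢ[ℝ] E3) (ρ : ℝ) (t : E3) : E3 →ᵃ[ℝ] E3 where
  toFun x := t + ρ • U x
  linear := ρ • (U.toLinearEquiv : E3 →ₗ[ℝ] E3)
  map_vadd' p v := by
    simp only [vadd_eq_add, map_add, smul_add, LinearMap.smul_apply, LinearEquiv.coe_coe,
      LinearIsometryEquiv.coe_toLinearEquiv]
    abel

theorem T3B_image_hull (U : E3 ≃ₗᵢ[ℝ] E3) (ρ : ℝ) (t : E3) (S : Set E3) :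
    (fun x => t + ρ • U x) '' convexHull ℝ S = convexHull ℝ ((fun x => t + ρ • U x) '' S) :=
  (T3B_aff U ρ t).image_convexHull S

theorem T3B_exists_similarity (w : Fin 4 → E3) (ℓ : ℝ) (hℓ : 0 < ℓ)
    (hw : ∀ i j, i ≠ j → dist (w i) (w j) = ℓ) :
    ∃ (U : E3 ≃ₗᵢ[ℝ] E3) (t : E3),
      convexHull ℝ (Set.range w) = (fun x => t + (ℓ / 2) • U x) '' K0 := by
  have hd : ∀ i j, i ≠ j →
      inner ℝ (w i) (w i) - 2 * inner ℝ (w i) (w j) + inner ℝ (w j) (w j) = ℓ ^ 2 := by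
    intro i j hij
    have h := hw i j hij
    rw [dist_eq_norm] at h
    rw [← h, norm_sub_sq_real, real_inner_self_eq_norm_sq, real_inner_self_eq_norm_sq]
  have e01 := hd 0 1 (by decide)
  have e02 := hd 0 2 (by decide)
  have e03 := hd 0 3 (by decide)
  have e12 := hd 1 2 (by decide)
  have e13 := hd 1 3 (by decide)
  have e23 := hd 2 3 (by decide)
  have c10 := real_inner_comm (w 0) (w 1)
  have c20 := real_inner_comm (w 0) (w 2)
  have c30 := real_inner_comm (w 0) (w 3)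
  have c21 := real_inner_comm (w 1) (w 2)
  have c31 := real_inner_comm (w 1) (w 3)
  have c32 := real_inner_comm (w 2) (w 3)
  have hs2 : Real.sqrt 2 * Real.sqrt 2 = 2 := Real.mul_self_sqrt (by norm_num)
  have hs0 : (0 : ℝ) < Real.sqrt 2 := by positivity
  have x11 : inner ℝ (w 0 - w 1) (w 0 - w 1) = ℓ ^ 2 := by
    simp only [inner_sub_left, inner_sub_right, inner_add_left, inner_add_right, c10, c20, c30,
      c21, c31, c32]
    linear_combination e01
  have x22 : inner ℝ (w 2 - w 3) (w 2 - w 3) = ℓ ^ 2 := by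
    simp only [inner_sub_left, inner_sub_right, inner_add_left, inner_add_right, c10, c20, c30,
      c21, c31, c32]
    linear_combination e23
  have x33 : inner ℝ (w 2 + w 3 - w 0 - w 1) (w 2 + w 3 - w 0 - w 1) = 2 * ℓ ^ 2 := by
    simp only [inner_sub_left, inner_sub_right, inner_add_left, inner_add_right, c10, c20, c30,
      c21, c31, c32]
    linear_combination e02 + e03 + e12 + e13 - e01 - e23
  have x12 : inner ℝ (w 0 - w 1) (w 2 - w 3) = 0 := by
    simp only [inner_sub_left, inner_sub_right, inner_add_left, inner_add_right, c10, c20, c30,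
      c21, c31, c32]
    linear_combination (-e02 + e03 + e12 - e13) / 2
  have x13 : inner ℝ (w 0 - w 1) (w 2 + w 3 - w 0 - w 1) = 0 := by
    simp only [inner_sub_left, inner_sub_right, inner_add_left, inner_add_right, c10, c20, c30,
      c21, c31, c32]
    linear_combination (e12 + e13 - e02 - e03) / 2
  have x23 : inner ℝ (w 2 - w 3) (w 2 + w 3 - w 0 - w 1) = 0 := by
    simp only [inner_sub_left, inner_sub_right, inner_add_left, inner_add_right, c10, c20, c30,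
      c21, c31, c32]
    linear_combination (e02 + e12 - e03 - e13) / 2
  set f1 : E3 := (1 / ℓ) • (w 0 - w 1) with hf1
  set f2 : E3 := (1 / ℓ) • (w 2 - w 3) with hf2
  set f3 : E3 := (1 / (Real.sqrt 2 * ℓ)) • (w 2 + w 3 - w 0 - w 1) with hf3
  have h11 : inner ℝ f1 f1 = 1 := by
    rw [hf1, real_inner_smul_left, real_inner_smul_right, x11]
    field_simp
  have h22 : inner ℝ f2 f2 = 1 := by
    rw [hf2, real_inner_smul_left, real_inner_smul_right, x22]
    field_simp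
  have h33 : inner ℝ f3 f3 = 1 := by
    rw [hf3, real_inner_smul_left, real_inner_smul_right, x33]
    field_simp
    nlinarith
  have h12 : inner ℝ f1 f2 = 0 := by
    rw [hf1, hf2, real_inner_smul_left, real_inner_smul_right, x12]
    simp
  have h13 : inner ℝ f1 f3 = 0 := by
    rw [hf1, hf3, real_inner_smul_left, real_inner_smul_right, x13]
    simp
  have h23 : inner ℝ f2 f3 = 0 := by
    rw [hf2, hf3, real_inner_smul_left, real_inner_smul_right, x23]
    simp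
  have hon : Orthonormal ℝ ![f1, f2, f3] := by
    rw [orthonormal_iff_ite]
    intro i j
    have n1 : ‖f1‖ = 1 := by
      rw [← sq_eq_sq₀ (norm_nonneg _) zero_le_one, ← real_inner_self_eq_norm_sq, h11, one_pow]
    have n2 : ‖f2‖ = 1 := by
      rw [← sq_eq_sq₀ (norm_nonneg _) zero_le_one, ← real_inner_self_eq_norm_sq, h22, one_pow]
    have n3 : ‖f3‖ = 1 := by
      rw [← sq_eq_sq₀ (norm_nonneg _) zero_le_one, ← real_inner_self_eq_norm_sq, h33, one_pow]
    fin_cases i <;> fin_cases j <;>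
      simp [n1, n2, n3, h12, h13, h23, real_inner_comm f1 f2, real_inner_comm f1 f3,
        real_inner_comm f2 f3]
  obtain ⟨b, hb⟩ := Orthonormal.exists_orthonormalBasis_extension_of_card_eq (𝕜 := ℝ) (E := E3)
    (ι := Fin 3) (by simp) (v := ![f1, f2, f3]) (s := Set.univ)
    (by
      have : Orthonormal ℝ (![f1, f2, f3] ∘ (fun x : (Set.univ : Set (Fin 3)) => (x : Fin 3))) :=
        hon.comp _ Subtype.val_injective
      exact this)
  have hb0 : b 0 = f1 := hb 0 (Set.mem_univ _)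
  have hb1 : b 1 = f2 := hb 1 (Set.mem_univ _)
  have hb2 : b 2 = f3 := hb 2 (Set.mem_univ _)
  have hU : ∀ x : E3, b.repr.symm x = x 0 • f1 + x 1 • f2 + x 2 • f3 := by
    intro x
    rw [← b.sum_repr_symm, Fin.sum_univ_three, hb0, hb1, hb2]
  refine ⟨b.repr.symm, (1 / 2 : ℝ) • (w 0 + w 1), ?_⟩
  unfold K0
  rw [T3B_image_hull]
  congr 1
  have hr : Set.range w = {w 0, w 1, w 2, w 3} := by
    ext x
    simp [Fin.exists_fin_succ, eq_comm]
  rw [hr]
  simp only [Set.image_insert_eq, Set.image_singleton, hU]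
  have key : ∀ x0 x1 x2 : ℝ, (1 / 2 : ℝ) • (w 0 + w 1) +
      (ℓ / 2) • (x0 • f1 + x1 • f2 + (x2 * Real.sqrt 2) • f3) =
      (1 / 2 : ℝ) • (w 0 + w 1) + (x0 / 2) • (w 0 - w 1) + (x1 / 2) • (w 2 - w 3) +
        (x2 / 2) • (w 2 + w 3 - w 0 - w 1) := by
    intro x0 x1 x2
    rw [hf1, hf2, hf3]
    simp only [smul_add, smul_smul]
    have a1 : ℓ / 2 * (x0 * (1 / ℓ)) = x0 / 2 := by field_simp
    have a2 : ℓ / 2 * (x1 * (1 / ℓ)) = x1 / 2 := by field_simp
    have a3 : ℓ / 2 * (x2 * Real.sqrt 2 * (1 / (Real.sqrt 2 * ℓ))) = x2 / 2 := by field_simp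
    rw [a1, a2, a3]
    abel
  have q0 : (1 / 2 : ℝ) • (w 0 + w 1) + (ℓ / 2) • ((1 : ℝ) • f1 + (0 : ℝ) • f2 + (0 : ℝ) • f3) =
      w 0 := by
    have := key 1 0 0
    rw [zero_mul] at this
    rw [this]
    module
  have q1 : (1 / 2 : ℝ) • (w 0 + w 1) + (ℓ / 2) • ((-1 : ℝ) • f1 + (0 : ℝ) • f2 + (0 : ℝ) • f3) =
      w 1 := by
    have := key (-1) 0 0
    rw [zero_mul] at this
    rw [this]
    module
  have q2 : (1 / 2 : ℝ) • (w 0 + w 1) +
      (ℓ / 2) • ((0 : ℝ) • f1 + (1 : ℝ) • f2 + (Real.sqrt 2) • f3) = w 2 := by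
    have := key 0 1 1
    rw [one_mul] at this
    rw [this]
    module
  have q3 : (1 / 2 : ℝ) • (w 0 + w 1) +
      (ℓ / 2) • ((0 : ℝ) • f1 + (-1 : ℝ) • f2 + (Real.sqrt 2) • f3) = w 3 := by
    have := key 0 (-1) 1
    rw [one_mul] at this
    rw [this]
    module
  show {w 0, w 1, w 2, w 3} =
    ({(1 / 2 : ℝ) • (w 0 + w 1) + (ℓ / 2) • ((1 : ℝ) • f1 + (0 : ℝ) • f2 + (0 : ℝ) • f3),
      (1 / 2 : ℝ) • (w 0 + w 1) + (ℓ / 2) • ((-1 : ℝ) • f1 + (0 : ℝ) • f2 + (0 : ℝ) • f3),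
      (1 / 2 : ℝ) • (w 0 + w 1) + (ℓ / 2) • ((0 : ℝ) • f1 + (1 : ℝ) • f2 + (Real.sqrt 2) • f3),
      (1 / 2 : ℝ) • (w 0 + w 1) + (ℓ / 2) • ((0 : ℝ) • f1 + (-1 : ℝ) • f2 + (Real.sqrt 2) • f3)} :
      Set E3)
  rw [q0, q1, q2, q3]






theorem T3B_inner_proj (u t : E3) (hu : ‖u‖ = 1) : inner ℝ (proj u t) u = 0 := by
  unfold proj
  rw [inner_sub_left, real_inner_smul_left, real_inner_self_eq_norm_sq, hu]
  ring

theorem T3B_cover_transport (U : E3 ≃ₗᵢ[ℝ] E3) (ρ : ℝ) (hρ : 0 < ρ) (t : E3) (K : Set E3)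
    (m : ℕ) (u p q r : Fin m → E3) (hu : ∀ i, ‖u i‖ = 1)
    (hperp : ∀ i, inner ℝ (p i) (u i) = 0 ∧ inner ℝ (q i) (u i) = 0 ∧ inner ℝ (r i) (u i) = 0)
    (hcov : K ⊆ ⋃ i, cyl (convexHull ℝ {p i, q i, r i}) (u i)) :
    ∃ (u' p' q' r' : Fin m → E3), (∀ i, ‖u' i‖ = 1) ∧
      (∀ i, inner ℝ (p' i) (u' i) = 0 ∧ inner ℝ (q' i) (u' i) = 0 ∧ inner ℝ (r' i) (u' i) = 0) ∧
      (fun x => t + ρ • U x) '' K ⊆ ⋃ i, cyl (convexHull ℝ {p' i, q' i, r' i}) (u' i) ∧
      ∀ i, μHE[2] (convexHull ℝ {p' i, q' i, r' i}) =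
        ENNReal.ofReal (ρ ^ 2) * μHE[2] (convexHull ℝ {p i, q i, r i}) := by
  have hu' : ∀ i, ‖U (u i)‖ = 1 := fun i => by rw [U.norm_map, hu i]
  have hin : ∀ i (z : E3), inner ℝ z (u i) = 0 →
      inner ℝ (proj (U (u i)) t + ρ • U z) (U (u i)) = 0 := by
    intro i z hz
    rw [inner_add_left, T3B_inner_proj _ _ (hu' i), real_inner_smul_left, U.inner_map_map, hz]
    simp
  have himg : ∀ i, convexHull ℝ {proj (U (u i)) t + ρ • U (p i), proj (U (u i)) t + ρ • U (q i),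
      proj (U (u i)) t + ρ • U (r i)} =
      (fun x => proj (U (u i)) t + ρ • U x) '' convexHull ℝ {p i, q i, r i} := by
    intro i
    rw [T3B_image_hull]
    simp only [Set.image_insert_eq, Set.image_singleton]
  refine ⟨fun i => U (u i), fun i => proj (U (u i)) t + ρ • U (p i),
    fun i => proj (U (u i)) t + ρ • U (q i), fun i => proj (U (u i)) t + ρ • U (r i),
    hu', fun i => ⟨hin i _ (hperp i).1, hin i _ (hperp i).2.1, hin i _ (hperp i).2.2⟩, ?_, ?_⟩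
  · rintro _ ⟨y, hy, rfl⟩
    obtain ⟨i, hi⟩ := Set.mem_iUnion.mp (hcov hy)
    obtain ⟨b, hb, s, rfl⟩ := hi
    refine Set.mem_iUnion.mpr ⟨i, proj (U (u i)) t + ρ • U b, ?_,
      inner ℝ t (U (u i)) + ρ * s, ?_⟩
    · simp only []
      rw [himg]
      exact ⟨b, hb, rfl⟩
    · simp only [proj, map_add, map_smul]
      module
  · intro i
    simp only []
    rw [himg, T3B_area_similar U ρ hρ]

theorem T3B_shadow_transport (U : E3 ≃ₗᵢ[ℝ] E3) (ρ : ℝ) (t : E3) (K : Set E3) (v : E3) :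
    proj v '' ((fun x => t + ρ • U x) '' K) =
      (fun x => proj v t + ρ • U x) '' (proj (U.symm v) '' K) := by
  rw [Set.image_image, Set.image_image]
  refine Set.image_congr' (fun y => ?_)
  simp only [proj, map_sub, map_smul, LinearIsometryEquiv.apply_symm_apply, inner_add_left,
    real_inner_smul_left, LinearIsometryEquiv.inner_map_eq_flip]
  module

theorem T3B_shadow (U : E3 ≃ₗᵢ[ℝ] E3) (ρ : ℝ) (hρ : 0 < ρ) (t : E3) (v : E3) (hv : ‖v‖ = 1) :
    ρ ^ 2 * Real.sqrt 2 ≤ (μHE[2] (proj v '' ((fun x => t + ρ • U x) '' K0))).toReal := by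
  have hv' : ‖U.symm v‖ = 1 := by rw [U.symm.norm_map, hv]
  rw [T3B_shadow_transport, T3B_area_similar U ρ hρ, ENNReal.toReal_mul,
    ENNReal.toReal_ofReal (by positivity)]
  refine mul_le_mul_of_nonneg_left ?_ (by positivity)
  have h1 := sqrt_two_le_area_proj_K0 _ hv'
  have h2 := area_proj_K0_lt_top _ hv'
  have := ENNReal.toReal_mono h2.ne h1
  rwa [ENNReal.toReal_ofReal (by positivity)] at this






theorem T3B_tri_to_pgram (m : ℕ) (u p q r : Fin m → E3) (hu : ∀ i, ‖u i‖ = 1)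
    (hperp : ∀ i, inner ℝ (p i) (u i) = 0 ∧ inner ℝ (q i) (u i) = 0 ∧ inner ℝ (r i) (u i) = 0)
    (n : ℕ) (hn : 0 < n) :
    ∃ (k : ℕ) (u' c a b : Fin k → E3), (∀ i, ‖u' i‖ = 1) ∧
      (∀ i, inner ℝ (c i) (u' i) = 0 ∧ inner ℝ (a i) (u' i) = 0 ∧ inner ℝ (b i) (u' i) = 0) ∧
      (⋃ i, cyl (convexHull ℝ {p i, q i, r i}) (u i)) ⊆
        ⋃ i, cyl (pgram (c i) (a i) (b i)) (u' i) ∧
      ∑ i, (μHE[2] (pgram (c i) (a i) (b i))).toReal =
        (1 + 1 / (n : ℝ)) * ∑ i, (μHE[2] (convexHull ℝ {p i, q i, r i})).toReal := by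
  let e : Fin m × Fin n ≃ Fin (m * n) := finProdFinEquiv
  let c0 : Fin m × Fin n → E3 := fun x => p x.1 + ((x.2 : ℝ) / n) • (q x.1 - p x.1)
  let a0 : Fin m × Fin n → E3 := fun x => (1 / n : ℝ) • (q x.1 - p x.1)
  let b0 : Fin m × Fin n → E3 := fun x => (((x.2 : ℝ) + 1) / n) • (r x.1 - q x.1)
  refine ⟨m * n, fun x => u (e.symm x).1, fun x => c0 (e.symm x), fun x => a0 (e.symm x),
    fun x => b0 (e.symm x), fun x => hu _, ?_, ?_, ?_⟩
  · intro x
    obtain ⟨h1, h2, h3⟩ := hperp (e.symm x).1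
    refine ⟨?_, ?_, ?_⟩
    · simp only [c0, inner_add_left, real_inner_smul_left, inner_sub_left, h1, h2]
      simp
    · simp only [a0, inner_add_left, real_inner_smul_left, inner_sub_left, h1, h2]
      simp
    · simp only [b0, inner_add_left, real_inner_smul_left, inner_sub_left, h3, h2]
      simp
  · intro x hx
    obtain ⟨i, y, hy, s, rfl⟩ := Set.mem_iUnion.mp hx
    obtain ⟨j, hj⟩ := Set.mem_iUnion.mp (T3B_triangle_subset (p i) (q i) (r i) n hn hy)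
    refine Set.mem_iUnion.mpr ⟨e (i, j), y, ?_, s, ?_⟩
    · simp only [Equiv.symm_apply_apply, c0, a0, b0]
      exact hj
    · simp only [Equiv.symm_apply_apply]
  · rw [Equiv.sum_comp e.symm (fun x => (μHE[2] (pgram (c0 x) (a0 x) (b0 x))).toReal),
      Fintype.sum_prod_type, Finset.mul_sum]
    refine Finset.sum_congr rfl (fun i _ => ?_)
    exact T3B_sum_area (u i) (p i) (q i) (r i) (hu i) (hperp i).1 (hperp i).2.1 (hperp i).2.2 n hn

theorem T3B_final_ineq {k : ℕ} (A : Fin k → ℝ) (hA : ∀ i, 0 ≤ A i) (sh : E3 → ℝ)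
    (u : Fin k → E3) (hu : ∀ i, ‖u i‖ = 1) (σ η : ℝ) (hσ : 0 < σ) (hη : 0 < η)
    (hsh : ∀ v, ‖v‖ = 1 → σ ≤ sh v) (hsum : ∑ i, A i ≤ σ * (1 / 2 - η)) :
    (∃ δ : ℝ, 0 < δ ∧ ∀ v, ‖v‖ = 1 → ∑ i, A i + δ ≤ sh v / 2) ∧
      ∑ i, A i / sh (u i) < 1 / 2 := by
  constructor
  · refine ⟨σ * η, by positivity, fun v hv => ?_⟩
    have := hsh v hv
    linarith
  · have h1 : ∑ i, A i / sh (u i) ≤ ∑ i, A i / σ :=
      Finset.sum_le_sum (fun i _ => div_le_div_of_nonneg_left (hA i) hσ (hsh _ (hu i)))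
    rw [← Finset.sum_div] at h1
    have h2 : (∑ i, A i) / σ ≤ 1 / 2 - η := by
      rw [div_le_iff₀ hσ]
      linarith
    linarith

theorem T3B_tri_perp (u p q r : E3) (hp : inner ℝ p u = 0) (hq : inner ℝ q u = 0)
    (hr : inner ℝ r u = 0) : ∀ x ∈ convexHull ℝ {p, q, r}, inner ℝ x u = 0 := by
  have hc : Convex ℝ {x : E3 | inner ℝ x u = 0} :=
    convex_hyperplane ⟨fun x y => inner_add_left _ _ _, fun c x => real_inner_smul_left _ _ _⟩ 0
  have : convexHull ℝ {p, q, r} ⊆ {x : E3 | inner ℝ x u = 0} := by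
    refine convexHull_min ?_ hc
    intro x hx
    simp only [Set.mem_insert_iff, Set.mem_singleton_iff] at hx
    rcases hx with rfl | rfl | rfl <;> assumption
  exact this

theorem T3B_tri_compact (p q r : E3) : IsCompact (convexHull ℝ {p, q, r}) :=
  Set.Finite.isCompact_convexHull ℝ (by simp)

/-- The transported triangle cover of an arbitrary regular tetrahedron, with the shadow bound. -/
theorem T3B_exists_perp_cover (w : Fin 4 → E3) (ℓ : ℝ) (hℓ : 0 < ℓ)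
    (hw : ∀ i j, i ≠ j → dist (w i) (w j) = ℓ) :
    ∃ (σ : ℝ) (m : ℕ) (u p q r : Fin m → E3), 0 < σ ∧ (∀ i, ‖u i‖ = 1) ∧
      (∀ i, inner ℝ (p i) (u i) = 0 ∧ inner ℝ (q i) (u i) = 0 ∧ inner ℝ (r i) (u i) = 0) ∧
      convexHull ℝ (Set.range w) ⊆ ⋃ i, cyl (convexHull ℝ {p i, q i, r i}) (u i) ∧
      ∑ i, (μHE[2] (convexHull ℝ {p i, q i, r i})).toReal ≤ σ * (1 / 2 - 1 / 10 ^ 9) ∧
      ∀ v : E3, ‖v‖ = 1 → σ ≤ (μHE[2] (proj v '' convexHull ℝ (Set.range w))).toReal := by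
  obtain ⟨U, t, hK⟩ := T3B_exists_similarity w ℓ hℓ hw
  obtain ⟨m, u, p, q, r, -, hu, hperp, hcov, hsum⟩ := exists_perp_cover_K0
  have hρ : 0 < ℓ / 2 := by positivity
  obtain ⟨u', p', q', r', hu', hperp', hcov', harea⟩ :=
    T3B_cover_transport U (ℓ / 2) hρ t K0 m u p q r hu hperp hcov
  refine ⟨(ℓ / 2) ^ 2 * Real.sqrt 2, m, u', p', q', r', by positivity, hu', hperp', ?_, ?_, ?_⟩
  · rw [hK]; exact hcov'
  · have : ∀ i, (μHE[2] (convexHull ℝ {p' i, q' i, r' i})).toReal =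
        (ℓ / 2) ^ 2 * (μHE[2] (convexHull ℝ {p i, q i, r i})).toReal := by
      intro i
      rw [harea i, ENNReal.toReal_mul, ENNReal.toReal_ofReal (by positivity)]
    rw [Finset.sum_congr rfl (fun i _ => this i), ← Finset.mul_sum, mul_assoc]
    exact mul_le_mul_of_nonneg_left hsum (by positivity)
  · intro v hv
    rw [hK]
    exact T3B_shadow U (ℓ / 2) hρ t v hv

/-- S0327, first half, in the notation of `R211/Defs.lean`. -/
theorem T3B_part1 (w : Fin 4 → E3) (ℓ : ℝ) (hℓ : 0 < ℓ)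
    (hw : ∀ i j, i ≠ j → dist (w i) (w j) = ℓ) :
    ∃ (k : ℕ) (u c a b : Fin k → E3), (∀ i, ‖u i‖ = 1) ∧
      (∀ i, inner ℝ (c i) (u i) = 0 ∧ inner ℝ (a i) (u i) = 0 ∧ inner ℝ (b i) (u i) = 0) ∧
      convexHull ℝ (Set.range w) ⊆ ⋃ i, cyl (pgram (c i) (a i) (b i)) (u i) ∧
      (∃ δ : ℝ, 0 < δ ∧ ∀ v : E3, ‖v‖ = 1 →
        ∑ i, (μHE[2] (pgram (c i) (a i) (b i))).toReal + δ ≤
          (μHE[2] (proj v '' convexHull ℝ (Set.range w))).toReal / 2) ∧
      ∑ i, (μHE[2] (pgram (c i) (a i) (b i))).toReal /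
        (μHE[2] (proj (u i) '' convexHull ℝ (Set.range w))).toReal < 1 / 2 := by
  obtain ⟨σ, m, u, p, q, r, hσ, hu, hperp, hcov, hsum, hsh⟩ := T3B_exists_perp_cover w ℓ hℓ hw
  obtain ⟨k, u', c, a, b, hu', hperp', hsub, hsum'⟩ :=
    T3B_tri_to_pgram m u p q r hu hperp (10 ^ 9) (by positivity)
  have hle : ∑ i, (μHE[2] (pgram (c i) (a i) (b i))).toReal ≤ σ * (1 / 2 - 1 / 10 ^ 10) := by
    rw [hsum']
    have hcast : ((10 ^ 9 : ℕ) : ℝ) = (10 : ℝ) ^ 9 := by norm_num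
    rw [hcast]
    have h0 : (0 : ℝ) ≤ ∑ i, (μHE[2] (convexHull ℝ {p i, q i, r i})).toReal :=
      Finset.sum_nonneg (fun i _ => ENNReal.toReal_nonneg)
    calc (1 + 1 / (10 : ℝ) ^ 9) * ∑ i, (μHE[2] (convexHull ℝ {p i, q i, r i})).toReal
        ≤ (1 + 1 / (10 : ℝ) ^ 9) * (σ * (1 / 2 - 1 / 10 ^ 9)) :=
          mul_le_mul_of_nonneg_left hsum (by positivity)
      _ = σ * ((1 + 1 / (10 : ℝ) ^ 9) * (1 / 2 - 1 / 10 ^ 9)) := by ring
      _ ≤ σ * (1 / 2 - 1 / 10 ^ 10) := mul_le_mul_of_nonneg_left (by norm_num) hσ.le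
  obtain ⟨h1, h2⟩ := T3B_final_ineq (fun i => (μHE[2] (pgram (c i) (a i) (b i))).toReal)
    (fun i => ENNReal.toReal_nonneg)
    (fun v => (μHE[2] (proj v '' convexHull ℝ (Set.range w))).toReal) u' hu' σ (1 / 10 ^ 10) hσ
    (by positivity) hsh hle
  exact ⟨k, u', c, a, b, hu', hperp', hcov.trans hsub, h1, h2⟩

/-- S0327, second half, in the notation of `R211/Defs.lean`. -/
theorem T3B_part2 (w : Fin 4 → E3) (ℓ : ℝ) (hℓ : 0 < ℓ)
    (hw : ∀ i j, i ≠ j → dist (w i) (w j) = ℓ) :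
    ∃ (k : ℕ) (u : Fin k → E3) (B : Fin k → Set E3), (∀ i, ‖u i‖ = 1) ∧
      (∀ i, Bornology.IsBounded (B i) ∧ ∃ O : Set E3, IsOpen O ∧
        B i = O ∩ {x | inner ℝ x (u i) = 0}) ∧
      convexHull ℝ (Set.range w) ⊆ ⋃ i, cyl (B i) (u i) ∧
      (∃ δ : ℝ, 0 < δ ∧ ∀ v : E3, ‖v‖ = 1 →
        ∑ i, (μHE[2] (B i)).toReal + δ ≤
          (μHE[2] (proj v '' convexHull ℝ (Set.range w))).toReal / 2) ∧
      ∑ i, (μHE[2] (B i)).toReal /
        (μHE[2] (proj (u i) '' convexHull ℝ (Set.range w))).toReal < 1 / 2 := by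
  obtain ⟨σ, m, u, p, q, r, hσ, hu, hperp, hcov, hsum, hsh⟩ := T3B_exists_perp_cover w ℓ hℓ hw
  set ε : ℝ := σ * (1 / 10 ^ 10) / ((m : ℝ) + 1) with hε
  have hε0 : 0 < ε := by positivity
  have hex := fun i => T3B_exists_open_base (u i) (hu i) (convexHull ℝ {p i, q i, r i})
    (T3B_tri_compact _ _ _)
    (T3B_tri_perp (u i) (p i) (q i) (r i) (hperp i).1 (hperp i).2.1 (hperp i).2.2) ε hε0
  choose B hBb hBo hBsub hBarea using hex
  have hle : ∑ i, (μHE[2] (B i)).toReal ≤ σ * (1 / 2 - 1 / 10 ^ 10) := by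
    calc ∑ i, (μHE[2] (B i)).toReal
        ≤ ∑ i, ((μHE[2] (convexHull ℝ {p i, q i, r i})).toReal + ε) :=
          Finset.sum_le_sum (fun i _ => hBarea i)
      _ = ∑ i, (μHE[2] (convexHull ℝ {p i, q i, r i})).toReal + (m : ℝ) * ε := by
          rw [Finset.sum_add_distrib]
          simp
      _ ≤ σ * (1 / 2 - 1 / 10 ^ 9) + σ * (1 / 10 ^ 10) := by
          refine add_le_add hsum ?_
          rw [hε, mul_div_assoc', div_le_iff₀ (by positivity)]
          have : 0 ≤ σ * (1 / 10 ^ 10) := by positivity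
          nlinarith
      _ ≤ σ * (1 / 2 - 1 / 10 ^ 10) := by
          rw [← mul_add]
          exact mul_le_mul_of_nonneg_left (by norm_num) hσ.le
  obtain ⟨h1, h2⟩ := T3B_final_ineq (fun i => (μHE[2] (B i)).toReal)
    (fun i => ENNReal.toReal_nonneg)
    (fun v => (μHE[2] (proj v '' convexHull ℝ (Set.range w))).toReal) u hu σ (1 / 10 ^ 10) hσ
    (by positivity) hsh hle
  refine ⟨m, u, B, hu, fun i => ⟨hBb i, hBo i⟩, hcov.trans ?_, h1, h2⟩
  refine Set.iUnion_mono (fun i => ?_)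
  rintro x ⟨y, hy, s, rfl⟩
  exact ⟨y, hBsub i hy, s, rfl⟩

end Crest.Agent.R211
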