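import Mathlib

/-!
Row 211, task T6R: the Riemann-sum part of S0328 (pure one-variable analysis).
-/

open MeasureTheory Set

namespace Crest.Agent.R211

/-- General tagged Riemann sum estimate. -/
theorem T6R_partition (α β : ℝ) (F : ℝ → ℝ) (hF : ContinuousOn F (Icc α β)) (N : ℕ)
    (t : Fin (N + 1) → ℝ) (ht : StrictMono t) (h0 : t 0 = α) (hN : t (Fin.last N) = β)
    (v : Fin N → ℝ) (ε : ℝ)
    (hv : ∀ i, ∀ τ ∈ Icc (t i.castSucc) (t i.succ), |v i - F τ| ≤ ε) :
    |∑ i : Fin N, (t i.succ - t i.castSucc) * v i - ∫ τ in α..β, F τ| ≤ ε * (β - α) := by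
  have hmem : ∀ j : Fin (N + 1), t j ∈ Icc α β := by
    intro j
    refine ⟨?_, ?_⟩
    · rw [← h0]; exact ht.monotone (Fin.zero_le j)
    · rw [← hN]; exact ht.monotone (Fin.le_last j)
  have hle : ∀ i : Fin N, t i.castSucc ≤ t i.succ := fun i =>
    ht.monotone (Fin.castSucc_lt_succ).le
  have hsub : ∀ i : Fin N, Icc (t i.castSucc) (t i.succ) ⊆ Icc α β := fun i =>
    Icc_subset_Icc (hmem _).1 (hmem _).2
  have hint : ∀ i : Fin N, IntervalIntegrable F volume (t i.castSucc) (t i.succ) := fun i =>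
    (hF.mono (hsub i)).intervalIntegrable_of_Icc (hle i)
  -- extension of `t` to `ℕ`
  set a : ℕ → ℝ := fun k => t ⟨min k N, by omega⟩ with ha
  have ha1 : ∀ i : Fin N, a i = t i.castSucc := by
    intro i
    simp only [ha]
    congr 1
    ext
    simp only [Fin.val_castSucc]
    omega
  have ha2 : ∀ i : Fin N, a (i + 1) = t i.succ := by
    intro i
    simp only [ha]
    congr 1
    ext
    simp only [Fin.val_succ]
    omega
  have ha0 : a 0 = α := by
    rw [← h0]
    simp only [ha]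
    congr 1
  have haN : a N = β := by
    rw [← hN]
    simp only [ha]
    congr 1
    ext
    simp
  have hI : ∫ τ in α..β, F τ = ∑ i : Fin N, ∫ τ in (t i.castSucc)..(t i.succ), F τ := by
    have h1 := intervalIntegral.sum_integral_adjacent_intervals (f := F) (μ := volume) (a := a)
      (n := N) (by
        intro k hk
        have e1 := ha1 ⟨k, hk⟩
        have e2 := ha2 ⟨k, hk⟩
        simp only at e1 e2
        rw [e1, e2]
        exact hint ⟨k, hk⟩)
    rw [ha0, haN] at h1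
    rw [← h1, Finset.sum_range]
    refine Finset.sum_congr rfl fun i _ => ?_
    rw [ha1, ha2]
  have hΔ : ∑ i : Fin N, (t i.succ - t i.castSucc) = β - α := by
    have h1 := Finset.sum_range_sub a N
    rw [ha0, haN, Finset.sum_range] at h1
    rw [← h1]
    refine Finset.sum_congr rfl fun i _ => ?_
    rw [ha1, ha2]
  rw [hI, ← Finset.sum_sub_distrib]
  calc |∑ i : Fin N, ((t i.succ - t i.castSucc) * v i - ∫ τ in (t i.castSucc)..(t i.succ), F τ)|
      ≤ ∑ i : Fin N, |(t i.succ - t i.castSucc) * v i - ∫ τ in (t i.castSucc)..(t i.succ), F τ| :=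
        Finset.abs_sum_le_sum_abs _ _
    _ ≤ ∑ i : Fin N, ε * (t i.succ - t i.castSucc) := by
        refine Finset.sum_le_sum fun i _ => ?_
        have e1 : (t i.succ - t i.castSucc) * v i - ∫ τ in (t i.castSucc)..(t i.succ), F τ
            = ∫ τ in (t i.castSucc)..(t i.succ), (v i - F τ) := by
          rw [intervalIntegral.integral_sub (by simp) (hint i), intervalIntegral.integral_const,
            smul_eq_mul]
        rw [e1]
        have e2 := intervalIntegral.norm_integral_le_of_norm_le_const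
          (a := t i.castSucc) (b := t i.succ) (f := fun τ => v i - F τ) (C := ε) (by
            intro τ hτ
            rw [uIoc_of_le (hle i)] at hτ
            rw [Real.norm_eq_abs]
            exact hv i τ ⟨hτ.1.le, hτ.2⟩)
        rw [Real.norm_eq_abs, abs_of_nonneg (sub_nonneg.mpr (hle i))] at e2
        exact e2
    _ = ε * (β - α) := by rw [← Finset.mul_sum, hΔ]

/-- termwise estimate -/
theorem T6R_term (M ε a r p q : ℝ) (hr0 : 0 ≤ r) (hrM : r ≤ M) (ha0 : 0 ≤ a)
    (har : |a - r| ≤ 3 * ε) (hε1 : ε ≤ 1) (hp : 1 ≤ p) (hq : 1 ≤ q) (hpq : |p - q| ≤ ε) :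
    |a ^ 2 / (2 * p) - r ^ 2 / (2 * q)| ≤ ε * (3 * (2 * M + 3) + M ^ 2) := by
  have hε0 : 0 ≤ ε := le_trans (abs_nonneg _) hpq
  have hM0 : 0 ≤ M := le_trans hr0 hrM
  have haM : a ≤ M + 3 := by
    have := (abs_le.mp har).2
    linarith
  have e1 : a ^ 2 / (2 * p) - r ^ 2 / (2 * q)
      = (a - r) * (a + r) / (2 * p) + r ^ 2 * (q - p) / (2 * p * q) := by
    field_simp
    ring
  rw [e1]
  have h1 : |(a - r) * (a + r) / (2 * p)| ≤ 3 * ε * (2 * M + 3) := by
    rw [abs_div, abs_mul, abs_of_nonneg (by linarith : 0 ≤ a + r),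
      abs_of_pos (by linarith : 0 < 2 * p)]
    rw [div_le_iff₀ (by linarith)]
    calc |a - r| * (a + r) ≤ 3 * ε * (2 * M + 3) := by
          apply mul_le_mul har (by linarith) (by linarith) (by linarith)
      _ ≤ 3 * ε * (2 * M + 3) * (2 * p) := by
          apply le_mul_of_one_le_right (by positivity) (by linarith)
  have h2 : |r ^ 2 * (q - p) / (2 * p * q)| ≤ M ^ 2 * ε := by
    have hpos : 0 < 2 * p * q := by positivity
    rw [abs_div, abs_mul, abs_of_nonneg (by positivity : 0 ≤ r ^ 2), abs_of_pos hpos,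
      div_le_iff₀ hpos, abs_sub_comm]
    calc r ^ 2 * |p - q| ≤ M ^ 2 * ε := by
          apply mul_le_mul (by gcongr) hpq (abs_nonneg _) (by positivity)
      _ ≤ M ^ 2 * ε * (2 * p * q) := by
          apply le_mul_of_one_le_right (by positivity)
          nlinarith
  calc |(a - r) * (a + r) / (2 * p) + r ^ 2 * (q - p) / (2 * p * q)|
      ≤ |(a - r) * (a + r) / (2 * p)| + |r ^ 2 * (q - p) / (2 * p * q)| := abs_add_le _ _
    _ ≤ 3 * ε * (2 * M + 3) + M ^ 2 * ε := add_le_add h1 h2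
    _ = ε * (3 * (2 * M + 3) + M ^ 2) := by ring

/-- T6R. Upper and lower "Riemann sums" for `∫ R² / (2 n)` over tagged partitions of small mesh;
`Rhi i`, `Rlo i` are upper/lower bounds of `R` on the `i`-th piece, `C` is a fixed constant
(the radial slack of the covering triangles is `C * Δᵢ`). -/
theorem riemann_sums (α β : ℝ) (hαβ : α < β) (R n : ℝ → ℝ) (hR : ContinuousOn R (Icc α β))
    (hR0 : ∀ t ∈ Icc α β, 0 ≤ R t) (hn : ContinuousOn n (Icc α β))
    (hn1 : ∀ t ∈ Icc α β, 1 ≤ n t) (C : ℝ) (hC : 0 ≤ C) (η : ℝ) (hη : 0 < η) :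
    ∃ δ : ℝ, 0 < δ ∧ ∀ (N : ℕ) (t : Fin (N + 1) → ℝ) (c : Fin N → ℝ),
      StrictMono t → t 0 = α → t (Fin.last N) = β →
      (∀ i : Fin N, t i.succ - t i.castSucc ≤ δ) →
      (∀ i : Fin N, t i.castSucc ≤ c i ∧ c i ≤ t i.succ) →
      ∃ Rhi Rlo : Fin N → ℝ,
        (∀ i, ∀ τ ∈ Icc (t i.castSucc) (t i.succ), Rlo i ≤ R τ ∧ R τ ≤ Rhi i) ∧
        (∀ i, 0 ≤ Rlo i) ∧
        |∑ i : Fin N, (t i.succ - t i.castSucc) *
            (Rhi i + C * (t i.succ - t i.castSucc)) ^ 2 / (2 * n (c i)) -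
          ∫ τ in α..β, R τ ^ 2 / (2 * n τ)| ≤ η ∧
        |∑ i : Fin N, (t i.succ - t i.castSucc) * (Rlo i) ^ 2 / (2 * n (c i)) -
          ∫ τ in α..β, R τ ^ 2 / (2 * n τ)| ≤ η := by
  obtain ⟨M, hM⟩ := isCompact_Icc.exists_bound_of_continuousOn hR
  have hM' : ∀ t ∈ Icc α β, R t ≤ M := fun t ht => le_trans (le_abs_self _) (hM t ht)
  have hM0 : 0 ≤ M := le_trans (hR0 α ⟨le_rfl, hαβ.le⟩) (hM' α ⟨le_rfl, hαβ.le⟩)
  set K : ℝ := 3 * (2 * M + 3) + M ^ 2 with hK
  have hKpos : 0 < K := by positivity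
  have hL : 0 < β - α := sub_pos.mpr hαβ
  set ε : ℝ := min 1 (η / (K * (β - α))) with hε
  have hεpos : 0 < ε := lt_min one_pos (by positivity)
  have hε1 : ε ≤ 1 := min_le_left _ _
  have hεη : ε * K * (β - α) ≤ η := by
    have h1 : ε ≤ η / (K * (β - α)) := min_le_right _ _
    rw [le_div_iff₀ (by positivity)] at h1
    linarith
  have hRu := Metric.uniformContinuousOn_iff_le.mp
    (isCompact_Icc.uniformContinuousOn_of_continuous hR) ε hεpos
  have hnu := Metric.uniformContinuousOn_iff_le.mp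
    (isCompact_Icc.uniformContinuousOn_of_continuous hn) ε hεpos
  obtain ⟨δ₁, hδ₁, hRδ⟩ := hRu
  obtain ⟨δ₂, hδ₂, hnδ⟩ := hnu
  refine ⟨min (min δ₁ δ₂) (ε / (C + 1)), lt_min (lt_min hδ₁ hδ₂) (by positivity), ?_⟩
  intro N t c ht h0 hN hmesh hc
  have hmem : ∀ j : Fin (N + 1), t j ∈ Icc α β := by
    intro j
    refine ⟨?_, ?_⟩
    · rw [← h0]; exact ht.monotone (Fin.zero_le j)
    · rw [← hN]; exact ht.monotone (Fin.le_last j)
  have hsub : ∀ i : Fin N, Icc (t i.castSucc) (t i.succ) ⊆ Icc α β := fun i =>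
    Icc_subset_Icc (hmem _).1 (hmem _).2
  have hcm : ∀ i, c i ∈ Icc α β := fun i => hsub i ⟨(hc i).1, (hc i).2⟩
  have hdist : ∀ i, ∀ τ ∈ Icc (t i.castSucc) (t i.succ), dist (c i) τ ≤ min δ₁ δ₂ := by
    intro i τ hτ
    have h1 := hmesh i
    have h2 := le_trans h1 (min_le_left _ _)
    rw [Real.dist_eq, abs_le]
    have := hc i
    constructor <;> linarith [hτ.1, hτ.2]
  have hRc : ∀ i, ∀ τ ∈ Icc (t i.castSucc) (t i.succ), |R (c i) - R τ| ≤ ε := by
    intro i τ hτ
    have := hRδ (c i) (hcm i) τ (hsub i hτ) (le_trans (hdist i τ hτ) (min_le_left _ _))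
    rwa [Real.dist_eq] at this
  have hnc : ∀ i, ∀ τ ∈ Icc (t i.castSucc) (t i.succ), |n (c i) - n τ| ≤ ε := by
    intro i τ hτ
    have := hnδ (c i) (hcm i) τ (hsub i hτ) (le_trans (hdist i τ hτ) (min_le_right _ _))
    rwa [Real.dist_eq] at this
  have hΔ0 : ∀ i : Fin N, 0 ≤ t i.succ - t i.castSucc := fun i =>
    sub_nonneg.mpr (ht.monotone (Fin.castSucc_lt_succ).le)
  have hCΔ : ∀ i : Fin N, C * (t i.succ - t i.castSucc) ≤ ε := by
    intro i
    have h1 := le_trans (hmesh i) (min_le_right _ _)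
    rw [le_div_iff₀ (by positivity)] at h1
    nlinarith [hΔ0 i]
  have hFc : ContinuousOn (fun τ => R τ ^ 2 / (2 * n τ)) (Icc α β) := by
    apply ContinuousOn.div (hR.pow 2) (continuousOn_const.mul hn)
    intro τ hτ
    have := hn1 τ hτ
    have h2 : 0 < 2 * n τ := by linarith
    exact h2.ne'
  refine ⟨fun i => R (c i) + ε, fun i => max 0 (R (c i) - ε), ?_, fun i => le_max_left _ _, ?_, ?_⟩
  · intro i τ hτ
    have h1 := abs_le.mp (hRc i τ hτ)
    refine ⟨max_le (hR0 τ (hsub i hτ)) (by linarith [h1.2]), by linarith [h1.1]⟩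
  · have key := T6R_partition α β (fun τ => R τ ^ 2 / (2 * n τ)) hFc N t ht h0 hN
      (fun i => (R (c i) + ε + C * (t i.succ - t i.castSucc)) ^ 2 / (2 * n (c i))) (ε * K) (by
        intro i τ hτ
        have h1 := abs_le.mp (hRc i τ hτ)
        have h2 : 0 ≤ C * (t i.succ - t i.castSucc) := mul_nonneg hC (hΔ0 i)
        apply T6R_term M ε _ _ _ _ (hR0 τ (hsub i hτ)) (hM' τ (hsub i hτ))
          (by have := hR0 _ (hcm i); linarith) _ hε1 (hn1 _ (hcm i)) (hn1 τ (hsub i hτ))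
          (hnc i τ hτ)
        rw [abs_le]
        constructor <;> linarith [h1.1, h1.2, hCΔ i])
    simp only [mul_div_assoc]
    exact le_trans key hεη
  · have key := T6R_partition α β (fun τ => R τ ^ 2 / (2 * n τ)) hFc N t ht h0 hN
      (fun i => (max 0 (R (c i) - ε)) ^ 2 / (2 * n (c i))) (ε * K) (by
        intro i τ hτ
        have h1 := abs_le.mp (hRc i τ hτ)
        apply T6R_term M ε _ _ _ _ (hR0 τ (hsub i hτ)) (hM' τ (hsub i hτ))
          (le_max_left _ _) _ hε1 (hn1 _ (hcm i)) (hn1 τ (hsub i hτ))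
          (hnc i τ hτ)
        have h3 : max 0 (R (c i) - ε) ≤ R τ := max_le (hR0 τ (hsub i hτ)) (by linarith [h1.2])
        have h4 : R (c i) - ε ≤ max 0 (R (c i) - ε) := le_max_right _ _
        rw [abs_le]
        constructor <;> linarith [h1.1, h1.2])
    simp only [mul_div_assoc]
    exact le_trans key hεη

end Crest.Agent.R211
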